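import Mathlib

namespace Vale.Agent.P084

universe u v

/-- `e` is the unit vector system of the combinatorial space of the family `𝓕` with exponent `p`:
the linear span of the vectors `e i` is dense in `X`, and the norm of every finite linear
combination `∑ a i • e i` is the supremum over `F ∈ 𝓕` of `(∑ i ∈ F, |a i| ^ p) ^ (1 / p)`. -/
def IsCombSystem {ι : Type u} (𝓕 : Set (Finset ι)) (p : ℝ) {X : Type v} [NormedAddCommGroup X]
    [NormedSpace ℝ X] (e : ι → X) : Prop :=
  Dense ((Submodule.span ℝ (Set.range e) : Submodule ℝ X) : Set X) ∧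
    ∀ a : ι →₀ ℝ, IsLUB {r : ℝ | ∃ F ∈ 𝓕, r = (∑ i ∈ F, |a i| ^ p) ^ (1 / p)}
      ‖a.sum fun i c => c • e i‖

/-- the successor operation on families of finite subsets of the positive integers:
unions `E 0 ∪ ... ∪ E (n-1)` of successive members of `𝓕`, all of whose elements are `≥ n` -/
def schreierSucc (𝓕 : Set (Finset ℕ+)) : Set (Finset ℕ+) :=
  {F | ∃ (n : ℕ) (E : Fin n → Finset ℕ+), (∀ j, E j ∈ 𝓕) ∧ (∀ j, ∀ i ∈ E j, n ≤ (i : ℕ)) ∧
    (∀ j j', j < j' → ∀ i ∈ E j, ∀ i' ∈ E j', i < i') ∧ F = Finset.univ.biUnion E}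

/-- the limit operation: `F` belongs to `𝓕 n` for some `n ≤ min F` -/
def schreierLim (𝓕 : ℕ → Set (Finset ℕ+)) : Set (Finset ℕ+) :=
  {F | ∃ n : ℕ, (∀ i ∈ F, n ≤ (i : ℕ)) ∧ F ∈ 𝓕 n}

/-- The generalized Schreier families: the smallest class of families containing
`S_0 = {∅} ∪ {{n}}` and closed under the successor and the limit operations.  It contains all
the families `S_α`, `α` a countable ordinal, for every choice of the approximating sequences. -/
inductive IsSchreierFamily : Set (Finset ℕ+) → Prop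
  | zero : IsSchreierFamily {F | F.card ≤ 1}
  | succ (𝓕 : Set (Finset ℕ+)) : IsSchreierFamily 𝓕 → IsSchreierFamily (schreierSucc 𝓕)
  | lim (𝓕 : ℕ → Set (Finset ℕ+)) : (∀ n, IsSchreierFamily (𝓕 n)) →
      IsSchreierFamily (schreierLim 𝓕)

end Vale.Agent.P084
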