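import Vale.Agent.P084.CylMain
import Vale.Agent.P084.CombDefs

namespace Vale.Agent.P084

open Metric Set Filter Topology

universe u v w

section transfer

variable {X : Type v} {X' : Type u} {W : Type w}
  [NormedAddCommGroup X] [NormedSpace ℝ X] [NormedAddCommGroup X'] [NormedSpace ℝ X']
  [NormedAddCommGroup W] [NormedSpace ℝ W]

lemma raw_transfer (Φ : X' ≃ₗᵢ[ℝ] X)
    (h : ∀ g : X' → W, SphIso g → ∃ T : X' →L[ℝ] W, ∀ z, ‖z‖ = 1 → T z = g z) :
    ∀ g : X → W, SphIso g → ∃ T : X →L[ℝ] W, ∀ z, ‖z‖ = 1 → T z = g z := by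
  intro g hg
  have hg' : SphIso (fun z => g (Φ z)) := by
    refine ⟨?_, ?_, ?_⟩
    · intro z hz; exact hg.norm _ (by rw [Φ.norm_map]; exact hz)
    · intro z z' hz hz'
      rw [hg.iso _ _ (by rw [Φ.norm_map]; exact hz) (by rw [Φ.norm_map]; exact hz'), ← map_sub,
        Φ.norm_map]
    · intro y hy
      obtain ⟨x, hx, hxy⟩ := hg.surj y hy
      exact ⟨Φ.symm x, by rw [Φ.symm.norm_map]; exact hx, by rw [Φ.apply_symm_apply]; exact hxy⟩
  obtain ⟨T, hT⟩ := h _ hg'
  refine ⟨T.comp (Φ.symm.toContinuousLinearEquiv : X →L[ℝ] X'), ?_⟩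
  intro z hz
  have := hT (Φ.symm z) (by rw [Φ.symm.norm_map]; exact hz)
  rw [Φ.apply_symm_apply] at this
  exact this

end transfer

section line

variable {X : Type v} [NormedAddCommGroup X] [NormedSpace ℝ X]

/-- If `X` is the closed sum of the line `ℝ e` and a closed subspace `V`, with
`‖t e + v‖ = max |t| ‖v‖`, then `X` has the Mazur-Ulam property. -/
theorem mup_of_line_summand (e : X) (V : Submodule ℝ X) (hV : IsClosed (V : Set X))
    (hnorm : ∀ (t : ℝ) (v : X), v ∈ V → ‖t • e + v‖ = max |t| ‖v‖)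
    (hdense : Dense {x : X | ∃ (t : ℝ) (v : X), v ∈ V ∧ x = t • e + v}) :
    MazurUlamProperty.{v, w} X := by
  let Ψl : ℝ × V →ₗ[ℝ] X :=
    (LinearMap.fst ℝ ℝ V).smulRight e + V.subtype.comp (LinearMap.snd ℝ ℝ V)
  have hΨ : ∀ (t : ℝ) (v : V), Ψl (t, v) = t • e + (v : X) := fun t v => rfl
  let Ψ : ℝ × V →ₗᵢ[ℝ] X := ⟨Ψl, by
    rintro ⟨t, v⟩
    rw [hΨ, hnorm t v v.2, nrm]
    rfl⟩
  have hΨ' : ∀ (t : ℝ) (v : V), Ψ (t, v) = t • e + (v : X) := fun t v => rfl
  have hsurj : Function.Surjective Ψ := by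
    intro x
    have hx : x ∈ closure {x : X | ∃ (t : ℝ) (v : X), v ∈ V ∧ x = t • e + v} := hdense x
    obtain ⟨u, hu, hlim⟩ := mem_closure_iff_seq_limit.mp hx
    choose t v hv huv using hu
    have hcu : CauchySeq u := hlim.cauchySeq
    have hct : CauchySeq t := by
      rw [Metric.cauchySeq_iff'] at hcu ⊢
      intro ε hε
      obtain ⟨N, hN⟩ := hcu ε hε
      refine ⟨N, fun n hn => lt_of_le_of_lt ?_ (hN n hn)⟩
      rw [dist_eq_norm, dist_eq_norm, huv n, huv N]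
      have : t n • e + v n - (t N • e + v N) = (t n - t N) • e + (v n - v N) := by module
      rw [this, hnorm _ _ (V.sub_mem (hv n) (hv N)), Real.norm_eq_abs]
      exact le_max_left _ _
    obtain ⟨t0, ht0⟩ := cauchySeq_tendsto_of_complete hct
    have hvlim : Tendsto v atTop (𝓝 (x - t0 • e)) := by
      have h1 : Tendsto (fun n => u n - t n • e) atTop (𝓝 (x - t0 • e)) :=
        hlim.sub (ht0.smul_const e)
      refine h1.congr (fun n => ?_)
      rw [huv n]; abel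
    have hmem : x - t0 • e ∈ V := hV.mem_of_tendsto hvlim (Eventually.of_forall hv)
    refine ⟨(t0, ⟨x - t0 • e, hmem⟩), ?_⟩
    rw [hΨ']
    exact add_sub_cancel _ _
  let Φ : (ℝ × V) ≃ₗᵢ[ℝ] X := LinearIsometryEquiv.ofSurjective Ψ hsurj
  intro Y _ _ f hf hs
  exact equiv_of_raw (raw_transfer Φ (fun g hg => cyl_raw hg)) f hf hs

end line

end Vale.Agent.P084
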