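import Vale.Agent.P084.Comb

namespace Vale.Agent.P084

open Metric Set Filter Topology

universe u v w

variable {ι : Type u} {X : Type v} [NormedAddCommGroup X] [NormedSpace ℝ X]

lemma rpow_single {p : ℝ} (hp : 1 ≤ p) (x : ℝ) : (|x| ^ p) ^ (1 / p) = |x| := by
  rw [one_div]
  exact Real.rpow_rpow_inv (abs_nonneg x) (by linarith)

/-- combinatorial spaces in which some index `k` lies in no member of the family but `{k}` -/
theorem comb_mup (𝓕 : Set (Finset ι)) {p : ℝ} (hp : 1 ≤ p) (k : ι) (hk : {k} ∈ 𝓕)
    (hk' : ∀ F ∈ 𝓕, k ∈ F → F = {k}) (e : ι → X) (h : IsCombSystem 𝓕 p e) :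
    MazurUlamProperty.{v, w} X := by
  classical
  obtain ⟨hdense, hnorm⟩ := h
  set T : (ι →₀ ℝ) →ₗ[ℝ] X := Finsupp.linearCombination ℝ e with hT
  have hTa : ∀ a : ι →₀ ℝ, (a.sum fun i c => c • e i) = T a := fun a => by
    rw [hT, Finsupp.linearCombination_apply]
  have key : ∀ (t : ℝ) (a' : ι →₀ ℝ), a' k = 0 → ‖t • e k + T a'‖ = max |t| ‖T a'‖ := by
    intro t a' ha'
    set a : ι →₀ ℝ := Finsupp.single k t + a' with ha
    have hTa' : T a = t • e k + T a' := by
      rw [ha, map_add, hT, Finsupp.linearCombination_single]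
    have hak : a k = t := by rw [ha, Finsupp.add_apply, Finsupp.single_eq_same, ha', add_zero]
    have hai : ∀ i, i ≠ k → a i = a' i := by
      intro i hi
      rw [ha, Finsupp.add_apply, Finsupp.single_eq_of_ne hi, zero_add]
    have hsum : ∀ F : Finset ι, k ∉ F →
        (∑ i ∈ F, |a i| ^ p) ^ (1 / p) = (∑ i ∈ F, |a' i| ^ p) ^ (1 / p) := by
      intro F hF
      congr 1
      apply Finset.sum_congr rfl
      intro i hi
      rw [hai i (fun h => hF (h ▸ hi))]
    have h1 := hnorm a
    have h2 := hnorm a'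
    rw [hTa] at h1 h2
    rw [← hTa']
    apply h1.unique
    constructor
    · rintro r ⟨F, hF, rfl⟩
      by_cases hkF : k ∈ F
      · rw [hk' F hF hkF, Finset.sum_singleton, hak, rpow_single hp]
        exact le_max_left _ _
      · rw [hsum F hkF]
        exact le_trans (h2.1 ⟨F, hF, rfl⟩) (le_max_right _ _)
    · intro b hb
      have hb1 : |t| ≤ b := by
        apply hb
        refine ⟨{k}, hk, ?_⟩
        rw [Finset.sum_singleton, hak, rpow_single hp]
      apply max_le hb1
      apply h2.2
      rintro r ⟨F, hF, rfl⟩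
      by_cases hkF : k ∈ F
      · rw [hk' F hF hkF, Finset.sum_singleton, ha', rpow_single hp, abs_zero]
        exact le_trans (abs_nonneg t) hb1
      · rw [← hsum F hkF]
        exact hb ⟨F, hF, rfl⟩
  set V0 : Submodule ℝ X := Submodule.span ℝ (e '' {i | i ≠ k}) with hV0
  have hV0mem : ∀ v ∈ V0, ∃ a' : ι →₀ ℝ, a' k = 0 ∧ T a' = v := by
    intro v hv
    rw [hV0, Finsupp.mem_span_image_iff_linearCombination] at hv
    obtain ⟨l, hl, hlv⟩ := hv
    refine ⟨l, ?_, hlv⟩
    rw [Finsupp.mem_supported'] at hl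
    exact hl k (by simp)
  apply mup_of_line_summand (e k) V0.topologicalClosure V0.isClosed_topologicalClosure
  · intro t v hv
    have hcl : IsClosed {v : X | ‖t • e k + v‖ = max |t| ‖v‖} :=
      isClosed_eq (by fun_prop) (by fun_prop)
    have hsub : (V0 : Set X) ⊆ {v : X | ‖t • e k + v‖ = max |t| ‖v‖} := by
      intro v hv
      obtain ⟨a', ha', rfl⟩ := hV0mem v hv
      exact key t a' ha'
    have := closure_minimal hsub hcl
    rw [← Submodule.topologicalClosure_coe] at this
    exact this hv
  · apply hdense.mono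
    intro x hx
    rw [SetLike.mem_coe, Finsupp.mem_span_range_iff_exists_finsupp] at hx
    obtain ⟨a, rfl⟩ := hx
    refine ⟨a k, T (a.erase k), ?_, ?_⟩
    · apply Submodule.le_topologicalClosure
      rw [hV0, Finsupp.mem_span_image_iff_linearCombination]
      refine ⟨a.erase k, ?_, rfl⟩
      rw [Finsupp.mem_supported']
      intro i hi
      have : i = k := by simpa using hi
      rw [this, Finsupp.erase_same]
    · rw [hTa]
      conv_lhs => rw [← Finsupp.single_add_erase k a]
      rw [map_add, hT, Finsupp.linearCombination_single]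

/-- in a generalized Schreier family the only member containing `1` is `{1}` -/
lemma IsSchreierFamily.iso_one {𝓕 : Set (Finset ℕ+)} (h : IsSchreierFamily 𝓕) :
    {1} ∈ 𝓕 ∧ ∀ F ∈ 𝓕, (1 : ℕ+) ∈ F → F = {1} := by
  induction h with
  | zero =>
    refine ⟨by simp, ?_⟩
    intro F hF h1
    have hF' : F.card ≤ 1 := hF
    have hpos : 0 < F.card := Finset.card_pos.mpr ⟨1, h1⟩
    obtain ⟨x, hx⟩ := Finset.card_eq_one.mp (le_antisymm hF' hpos)
    rw [hx, Finset.mem_singleton] at h1
    rw [hx, h1]
  | succ 𝓕 _ ih =>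
    obtain ⟨i1, i2⟩ := ih
    constructor
    · refine ⟨1, fun _ => {1}, fun _ => i1, ?_, ?_, ?_⟩
      · intro j i hi
        rw [Finset.mem_singleton] at hi
        rw [hi]; rfl
      · intro j j' hjj
        exact absurd hjj (by
          have : j = j' := Subsingleton.elim _ _
          rw [this]; exact lt_irrefl _)
      · ext x; simp
    · rintro F ⟨n, E, hE, hn, -, rfl⟩ h1
      rw [Finset.mem_biUnion] at h1
      obtain ⟨j, -, hj⟩ := h1
      have hn1 : n ≤ 1 := by
        have := hn j 1 hj
        simpa using this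
      have hn0 : 0 < n := lt_of_le_of_lt (Nat.zero_le _) j.2
      have hn' : n = 1 := le_antisymm hn1 hn0
      subst hn'
      have hE0 := i2 (E j) (hE j) hj
      ext x
      simp only [Finset.mem_biUnion, Finset.mem_univ, true_and]
      constructor
      · rintro ⟨j', hj'⟩
        have : j' = j := Subsingleton.elim _ _
        rw [this, hE0] at hj'
        exact hj'
      · intro hx
        exact ⟨j, by rw [hE0]; exact hx⟩
  | lim 𝓕 _ ih =>
    constructor
    · exact ⟨0, fun _ _ => Nat.zero_le _, (ih 0).1⟩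
    · rintro F ⟨n, -, hF⟩ h1
      exact (ih n).2 F hF h1

end Vale.Agent.P084
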