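import Mathlib

namespace Vale.Agent.P084

universe u v

/-- complex version of `IsCombSystem`: `e` is the unit vector system of the complex combinatorial
space of the family `𝓕` with exponent `p`: the complex linear span of the vectors `e i` is dense
in `X`, and the norm of every finite complex linear combination `∑ a i • e i` is the supremum over
`F ∈ 𝓕` of `(∑ i ∈ F, ‖a i‖ ^ p) ^ (1 / p)`. -/
def IsCombSystemC {ι : Type u} (𝓕 : Set (Finset ι)) (p : ℝ) {X : Type v} [NormedAddCommGroup X]
    [NormedSpace ℂ X] (e : ι → X) : Prop :=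
  Dense ((Submodule.span ℂ (Set.range e) : Submodule ℂ X) : Set X) ∧
    ∀ a : ι →₀ ℂ, IsLUB {r : ℝ | ∃ F ∈ 𝓕, r = (∑ i ∈ F, ‖a i‖ ^ p) ^ (1 / p)}
      ‖a.sum fun i c => c • e i‖

end Vale.Agent.P084
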