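import Vale.Agent.P084.ScInst
import Vale.Agent.P084.Comb
import Vale.Agent.P084.CombDefsC

namespace Vale.Agent.P084

open Metric Set Filter Topology

universe u v w

section plane

variable {X : Type v} [NormedAddCommGroup X] [NormedSpace ℂ X]

/-- If the complex space `X` is the closed sum of the complex line `ℂ e` and a nonzero closed
subspace `V`, with `‖c e + v‖ = max ‖c‖ ‖v‖`, then `X` has the Mazur-Ulam property. -/
theorem mup_of_complex_summand (e : X) (V : Submodule ℂ X) (hV : IsClosed (V : Set X))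
    (hVne : ∃ v ∈ V, v ≠ 0)
    (hnorm : ∀ (c : ℂ) (v : X), v ∈ V → ‖c • e + v‖ = max ‖c‖ ‖v‖)
    (hdense : Dense {x : X | ∃ (c : ℂ) (v : X), v ∈ V ∧ x = c • e + v}) :
    MazurUlamProperty.{v, w} X := by
  let Ψc : ℂ × V →ₗ[ℂ] X :=
    (LinearMap.fst ℂ ℂ V).smulRight e + V.subtype.comp (LinearMap.snd ℂ ℂ V)
  let Ψl : ℂ × V →ₗ[ℝ] X := Ψc.restrictScalars ℝ
  have hΨ : ∀ (c : ℂ) (v : V), Ψl (c, v) = c • e + (v : X) := fun c v => rfl
  let Ψ : ℂ × V →ₗᵢ[ℝ] X := ⟨Ψl, by
    rintro ⟨c, v⟩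
    rw [hΨ, hnorm c v v.2, pnrm]
    rfl⟩
  have hΨ' : ∀ (c : ℂ) (v : V), Ψ (c, v) = c • e + (v : X) := fun c v => rfl
  have hsurj : Function.Surjective Ψ := by
    intro x
    have hx : x ∈ closure {x : X | ∃ (c : ℂ) (v : X), v ∈ V ∧ x = c • e + v} := hdense x
    obtain ⟨u, hu, hlim⟩ := mem_closure_iff_seq_limit.mp hx
    choose t v hv huv using hu
    have hcu : CauchySeq u := hlim.cauchySeq
    have hct : CauchySeq t := by
      rw [Metric.cauchySeq_iff'] at hcu ⊢
      intro ε hε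
      obtain ⟨N, hN⟩ := hcu ε hε
      refine ⟨N, fun n hn => lt_of_le_of_lt ?_ (hN n hn)⟩
      rw [dist_eq_norm, dist_eq_norm, huv n, huv N]
      have : t n • e + v n - (t N • e + v N) = (t n - t N) • e + (v n - v N) := by module
      rw [this, hnorm _ _ (V.sub_mem (hv n) (hv N))]
      exact le_max_left _ _
    obtain ⟨t0, ht0⟩ := cauchySeq_tendsto_of_complete hct
    have hvlim : Tendsto v atTop (𝓝 (x - t0 • e)) := by
      have h1 : Tendsto (fun n => u n - t n • e) atTop (𝓝 (x - t0 • e)) :=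
        hlim.sub (ht0.smul_const e)
      refine h1.congr (fun n => ?_)
      rw [huv n]; abel
    have hmem : x - t0 • e ∈ V := hV.mem_of_tendsto hvlim (Eventually.of_forall hv)
    refine ⟨(t0, ⟨x - t0 • e, hmem⟩), ?_⟩
    rw [hΨ']
    exact add_sub_cancel _ _
  let Φ : (ℂ × V) ≃ₗᵢ[ℝ] X := LinearIsometryEquiv.ofSurjective Ψ hsurj
  have hcf : ChordFlat ℂ :=
    chordFlat_of_parallelogram (fun x y => parallelogram_law_with_norm ℂ x y)
  obtain ⟨v0, hv0, hv0ne⟩ := hVne
  have hs : ∃ s : V, ‖s‖ = 1 := by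
    have hne : (⟨v0, hv0⟩ : V) ≠ 0 := fun h => hv0ne (congrArg Subtype.val h)
    exact ⟨_, (unit_of_ne hne).1⟩
  intro Y _ _ f hf hs'
  exact equiv_of_raw (raw_transfer Φ (fun g hg => sc_raw ⟨1, by simp⟩ hs hg)) f hf hs'

end plane

variable {ι : Type u} {X : Type v} [NormedAddCommGroup X] [NormedSpace ℂ X]

lemma rpow_single_c {p : ℝ} (hp : 1 ≤ p) (x : ℂ) : (‖x‖ ^ p) ^ (1 / p) = ‖x‖ := by
  rw [one_div]
  exact Real.rpow_rpow_inv (norm_nonneg x) (by linarith)

/-- complex combinatorial spaces in which some index `k` lies in no member of the family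
but `{k}` -/
theorem comb_mup_c (𝓕 : Set (Finset ι)) {p : ℝ} (hp : 1 ≤ p) (k : ι) (hk : {k} ∈ 𝓕)
    (hk' : ∀ F ∈ 𝓕, k ∈ F → F = {k}) (k2 : ι) (hk2 : k2 ≠ k) (hk2' : {k2} ∈ 𝓕)
    (e : ι → X) (h : IsCombSystemC 𝓕 p e) :
    MazurUlamProperty.{v, w} X := by
  classical
  obtain ⟨hdense, hnorm⟩ := h
  set T : (ι →₀ ℂ) →ₗ[ℂ] X := Finsupp.linearCombination ℂ e with hT
  have hTa : ∀ a : ι →₀ ℂ, (a.sum fun i c => c • e i) = T a := fun a => by
    rw [hT, Finsupp.linearCombination_apply]
  have key : ∀ (t : ℂ) (a' : ι →₀ ℂ), a' k = 0 → ‖t • e k + T a'‖ = max ‖t‖ ‖T a'‖ := by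
    intro t a' ha'
    set a : ι →₀ ℂ := Finsupp.single k t + a' with ha
    have hTa' : T a = t • e k + T a' := by
      rw [ha, map_add, hT, Finsupp.linearCombination_single]
    have hak : a k = t := by rw [ha, Finsupp.add_apply, Finsupp.single_eq_same, ha', add_zero]
    have hai : ∀ i, i ≠ k → a i = a' i := by
      intro i hi
      rw [ha, Finsupp.add_apply, Finsupp.single_eq_of_ne hi, zero_add]
    have hsum : ∀ F : Finset ι, k ∉ F →
        (∑ i ∈ F, ‖a i‖ ^ p) ^ (1 / p) = (∑ i ∈ F, ‖a' i‖ ^ p) ^ (1 / p) := by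
      intro F hF
      congr 1
      apply Finset.sum_congr rfl
      intro i hi
      rw [hai i (fun h => hF (h ▸ hi))]
    have h1 := hnorm a
    have h2 := hnorm a'
    rw [hTa] at h1 h2
    rw [← hTa']
    apply h1.unique
    constructor
    · rintro r ⟨F, hF, rfl⟩
      by_cases hkF : k ∈ F
      · rw [hk' F hF hkF, Finset.sum_singleton, hak, rpow_single_c hp]
        exact le_max_left _ _
      · rw [hsum F hkF]
        exact le_trans (h2.1 ⟨F, hF, rfl⟩) (le_max_right _ _)
    · intro b hb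
      have hb1 : ‖t‖ ≤ b := by
        apply hb
        refine ⟨{k}, hk, ?_⟩
        rw [Finset.sum_singleton, hak, rpow_single_c hp]
      apply max_le hb1
      apply h2.2
      rintro r ⟨F, hF, rfl⟩
      by_cases hkF : k ∈ F
      · rw [hk' F hF hkF, Finset.sum_singleton, ha', rpow_single_c hp, norm_zero]
        exact le_trans (norm_nonneg t) hb1
      · rw [← hsum F hkF]
        exact hb ⟨F, hF, rfl⟩
  set V0 : Submodule ℂ X := Submodule.span ℂ (e '' {i | i ≠ k}) with hV0
  have hV0mem : ∀ v ∈ V0, ∃ a' : ι →₀ ℂ, a' k = 0 ∧ T a' = v := by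
    intro v hv
    rw [hV0, Finsupp.mem_span_image_iff_linearCombination] at hv
    obtain ⟨l, hl, hlv⟩ := hv
    refine ⟨l, ?_, hlv⟩
    rw [Finsupp.mem_supported'] at hl
    exact hl k (by simp)
  apply mup_of_complex_summand (e k) V0.topologicalClosure V0.isClosed_topologicalClosure
  · refine ⟨e k2, ?_, ?_⟩
    · apply Submodule.le_topologicalClosure
      exact Submodule.subset_span ⟨k2, hk2, rfl⟩
    · intro h0
      have h1 := hnorm (Finsupp.single k2 1)
      rw [hTa, hT, Finsupp.linearCombination_single, one_smul, h0, norm_zero] at h1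
      have h2 := h1.1 ⟨{k2}, hk2', rfl⟩
      rw [Finset.sum_singleton, Finsupp.single_eq_same, rpow_single_c hp, norm_one] at h2
      linarith
  · intro t v hv
    have hcl : IsClosed {v : X | ‖t • e k + v‖ = max ‖t‖ ‖v‖} :=
      isClosed_eq (by fun_prop) (by fun_prop)
    have hsub : (V0 : Set X) ⊆ {v : X | ‖t • e k + v‖ = max ‖t‖ ‖v‖} := by
      intro v hv
      obtain ⟨a', ha', rfl⟩ := hV0mem v hv
      exact key t a' ha'
    have := closure_minimal hsub hcl
    rw [← Submodule.topologicalClosure_coe] at this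
    exact this hv
  · apply hdense.mono
    intro x hx
    rw [SetLike.mem_coe, Finsupp.mem_span_range_iff_exists_finsupp] at hx
    obtain ⟨a, rfl⟩ := hx
    refine ⟨a k, T (a.erase k), ?_, ?_⟩
    · apply Submodule.le_topologicalClosure
      rw [hV0, Finsupp.mem_span_image_iff_linearCombination]
      refine ⟨a.erase k, ?_, rfl⟩
      rw [Finsupp.mem_supported']
      intro i hi
      have : i = k := by simpa using hi
      rw [this, Finsupp.erase_same]
    · rw [hTa]
      conv_lhs => rw [← Finsupp.single_add_erase k a]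
      rw [map_add, hT, Finsupp.linearCombination_single]

end Vale.Agent.P084
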