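import Vale.Agent.P084.CombDefsC

namespace Vale.Agent.P084

open ENNReal Set

universe u

/-- existence of the (complete) combinatorial space of a nonempty family, realised as a closed
subspace of the sup-normed sum of the finite dimensional spaces `ℓ_p^F`, `F ∈ 𝓕` -/
theorem exists_combSystemC {ι : Type u} (𝓕 : Set (Finset ι)) (p : ℝ) (h𝓕 : 𝓕.Nonempty)
    (hp : 1 ≤ p) :
    ∃ (X : Type u) (_ : NormedAddCommGroup X) (_ : NormedSpace ℂ X) (e : ι → X),
      CompleteSpace X ∧ IsCombSystemC 𝓕 p e := by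
  classical
  set q : ℝ≥0∞ := ENNReal.ofReal p with hq
  have hq1 : Fact (1 ≤ q) := ⟨by rw [hq]; exact ENNReal.one_le_ofReal.mpr hp⟩
  have hp0 : 0 < p := by linarith
  have hqr : q.toReal = p := ENNReal.toReal_ofReal hp0.le
  have hne : Nonempty 𝓕 := h𝓕.to_subtype
  let Ef : 𝓕 → Type u := fun F => PiLp q (fun _ : (F.1 : Finset ι) => ℂ)
  let J0 : (ι →₀ ℂ) → ∀ F : 𝓕, Ef F := fun a F => WithLp.toLp q (fun i : (F.1 : Finset ι) => a i)
  have hJ0 : ∀ (a : ι →₀ ℂ) (F : 𝓕), ‖J0 a F‖ = (∑ i ∈ F.1, ‖a i‖ ^ p) ^ (1 / p) := by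
    intro a F
    rw [PiLp.norm_eq_sum (by rw [hqr]; exact hp0), hqr]
    congr 1
    exact Finset.sum_coe_sort F.1 (fun i => ‖a i‖ ^ p)
  have hmem : ∀ a : ι →₀ ℂ, Memℓp (J0 a) ∞ := by
    intro a
    apply memℓp_infty
    refine ⟨(∑ i ∈ a.support, ‖a i‖ ^ p) ^ (1 / p), ?_⟩
    rintro r ⟨F, rfl⟩
    simp only [hJ0]
    apply Real.rpow_le_rpow (Finset.sum_nonneg (fun i _ => by positivity)) _ (by positivity)
    calc ∑ i ∈ F.1, ‖a i‖ ^ p ≤ ∑ i ∈ F.1 ∪ a.support, ‖a i‖ ^ p :=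
          Finset.sum_le_sum_of_subset_of_nonneg Finset.subset_union_left
            (fun i _ _ => by positivity)
      _ = ∑ i ∈ a.support, ‖a i‖ ^ p := by
          symm
          apply Finset.sum_subset Finset.subset_union_right
          intro i _ hi
          rw [Finsupp.notMem_support_iff.mp hi, norm_zero, Real.zero_rpow hp0.ne']
  let J : (ι →₀ ℂ) →ₗ[ℂ] lp Ef ∞ :=
    { toFun := fun a => ⟨J0 a, hmem a⟩
      map_add' := fun a b => by ext F; rfl
      map_smul' := fun c a => by ext F; rfl }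
  have hJ : ∀ (a : ι →₀ ℂ) (F : 𝓕), (J a : ∀ F, Ef F) F = J0 a F := fun a F => rfl
  let XS : Submodule ℂ (lp Ef ∞) := (LinearMap.range J).topologicalClosure
  have hJX : ∀ a, J a ∈ XS := fun a => Submodule.le_topologicalClosure _ ⟨a, rfl⟩
  let e : ι → XS := fun i => ⟨J (Finsupp.single i 1), hJX _⟩
  have hsum : ∀ a : ι →₀ ℂ, ((a.sum fun i c => c • e i : XS) : lp Ef ∞) = J a := by
    intro a
    have h1 : ((a.sum fun i c => c • e i : XS) : lp Ef ∞)
        = a.sum fun i c => c • J (Finsupp.single i 1) := by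
      have := map_finsuppSum XS.subtype a (fun i c => c • e i)
      simpa using this
    rw [h1]
    conv_rhs => rw [← Finsupp.sum_single a]
    rw [map_finsuppSum]
    congr 1
    ext i c
    rw [← map_smul, Finsupp.smul_single_one]
  refine ⟨XS, inferInstance, inferInstance, e, ?_, ?_, ?_⟩
  · exact (Submodule.isClosed_topologicalClosure _).completeSpace_coe
  · rw [Subtype.dense_iff]
    intro x hx
    have hx' : x ∈ closure ((LinearMap.range J : Submodule ℂ (lp Ef ∞)) : Set (lp Ef ∞)) := by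
      rw [← Submodule.topologicalClosure_coe]; exact hx
    refine closure_mono ?_ hx'
    rintro y ⟨a, rfl⟩
    refine ⟨a.sum fun i c => c • e i, ?_, hsum a⟩
    rw [SetLike.mem_coe, Finsupp.mem_span_range_iff_exists_finsupp]
    exact ⟨a, rfl⟩
  · intro a
    have h1 : ‖a.sum fun i c => c • e i‖ = ‖J a‖ := by
      rw [← hsum a]; rfl
    rw [h1]
    have h2 := lp.isLUB_norm (J a)
    convert h2 using 1
    ext r
    constructor
    · rintro ⟨F, hF, rfl⟩
      exact ⟨⟨F, hF⟩, hJ0 a ⟨F, hF⟩⟩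
    · rintro ⟨F, rfl⟩
      exact ⟨F.1, F.2, hJ0 a F⟩

end Vale.Agent.P084
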