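import Mathlib

namespace Vale.Agent.P084

open Metric Set

set_option linter.unusedSectionVars false

universe u v w

/-- A decomposition of a real normed space `Z` as a sup-normed sum of pieces
(the ranges of the projections `p i`), each piece being strictly convex and nonzero. -/
structure SupDecomp (ι : Type u) (Z : Type v) [NormedAddCommGroup Z] [NormedSpace ℝ Z] where
  p : ι → Z →ₗ[ℝ] Z
  idem : ∀ i z, p i (p i z) = p i z
  orth : ∀ i j z, i ≠ j → p i (p j z) = 0
  le : ∀ i z, ‖p i z‖ ≤ ‖z‖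
  bound : ∀ z c, (∀ i, ‖p i z‖ ≤ c) → ‖z‖ ≤ c
  ray : ∀ i x y, ‖p i x + p i y‖ = ‖p i x‖ + ‖p i y‖ → SameRay ℝ (p i x) (p i y)
  unit : ∀ i, ∃ x, p i x = x ∧ ‖x‖ = 1

/-- `f` restricted to the unit sphere is a surjective isometry onto the unit sphere. -/
structure SphIso {Z : Type v} {W : Type w} [NormedAddCommGroup Z] [NormedAddCommGroup W]
    (f : Z → W) : Prop where
  norm : ∀ z, ‖z‖ = 1 → ‖f z‖ = 1
  iso : ∀ z z', ‖z‖ = 1 → ‖z'‖ = 1 → ‖f z - f z'‖ = ‖z - z'‖
  surj : ∀ y, ‖y‖ = 1 → ∃ z, ‖z‖ = 1 ∧ f z = y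

variable {ι : Type u} {Z : Type v} {W : Type w}
  [NormedAddCommGroup Z] [NormedSpace ℝ Z] [NormedAddCommGroup W] [NormedSpace ℝ W]

namespace SupDecomp

variable (D : SupDecomp ι Z)

lemma key (i : ι) (x y : Z) {α β : ℝ} (hx : ‖D.p i x‖ ≤ α) (hy : ‖D.p i y‖ ≤ β)
    (h : α + β ≤ ‖D.p i x + D.p i y‖) : α • D.p i y = β • D.p i x := by
  have h1 : ‖D.p i x + D.p i y‖ ≤ ‖D.p i x‖ + ‖D.p i y‖ := norm_add_le _ _
  have hxa : ‖D.p i x‖ = α := by linarith
  have hyb : ‖D.p i y‖ = β := by linarith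
  have h2 : ‖D.p i x + D.p i y‖ = ‖D.p i x‖ + ‖D.p i y‖ := by linarith
  have := (D.ray i x y h2).norm_smul_eq
  rwa [hxa, hyb] at this

lemma ext {x y : Z} (h : ∀ i, D.p i x = D.p i y) : x = y := by
  have : ‖x - y‖ ≤ 0 := D.bound _ _ (fun i => by rw [map_sub, h i, sub_self, norm_zero])
  exact sub_eq_zero.mp (norm_le_zero_iff.mp this)

lemma norm_eq_one {z : Z} (i : ι) (hi : ‖D.p i z‖ = 1) (h : ∀ j, j ≠ i → ‖D.p j z‖ ≤ 1) :
    ‖z‖ = 1 := by
  apply le_antisymm
  · apply D.bound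
    intro j
    by_cases hj : j = i
    · subst hj; exact hi.le
    · exact h j hj
  · rw [← hi]; exact D.le i z

lemma gap {i : ι} {z y : Z} {δ : ℝ} (hδ : 0 < δ) (hy : ‖y‖ ≤ 1) (hz : ‖D.p i z‖ ≤ 1)
    (hg : ∀ j, j ≠ i → ‖D.p j z‖ ≤ 1 - δ) (h2 : 2 ≤ ‖y - z‖) : D.p i y = - D.p i z := by
  have hs : 2 ≤ ‖D.p i (y - z)‖ := by
    by_contra hlt
    rw [not_le] at hlt
    have : ‖y - z‖ ≤ max ‖D.p i (y - z)‖ (2 - δ) := by
      apply D.bound
      intro j
      by_cases hj : j = i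
      · subst hj; exact le_max_left _ _
      · refine le_trans ?_ (le_max_right _ _)
        rw [map_sub]
        have h1 := norm_sub_le (D.p j y) (D.p j z)
        have h3 := D.le j y
        have h4 := hg j hj
        linarith
    have h5 : max ‖D.p i (y - z)‖ (2 - δ) < 2 := max_lt hlt (by linarith)
    linarith
  have hk := D.key i y (-z) (α := 1) (β := 1) (le_trans (D.le i y) hy)
    (by rw [map_neg, norm_neg]; exact hz)
    (by rw [map_neg, ← sub_eq_add_neg, ← map_sub]; linarith)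
  rw [one_smul, one_smul, map_neg] at hk
  exact hk.symm

lemma norm_sub_proj_le (i : ι) (z : Z) : ‖z - D.p i z‖ ≤ ‖z‖ := by
  apply D.bound
  intro j
  by_cases hj : j = i
  · subst hj
    rw [map_sub, D.idem, sub_self, norm_zero]; exact norm_nonneg _
  · rw [map_sub, D.orth j i z hj, sub_zero]; exact D.le j z

end SupDecomp

lemma eq_of_forall_norm_le {a b : Z} (h : ∀ ε : ℝ, 0 < ε → ε < 1 → ‖a - b‖ ≤ ε) : a = b := by
  by_contra hne
  have hpos : 0 < ‖a - b‖ := norm_pos_iff.mpr (sub_ne_zero.mpr hne)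
  have h1 := h (min (‖a - b‖ / 2) (1 / 2)) (lt_min (by linarith) (by norm_num))
    (lt_of_le_of_lt (min_le_right _ _) (by norm_num))
  have h2 : min (‖a - b‖ / 2) (1 / 2) ≤ ‖a - b‖ / 2 := min_le_left _ _
  linarith

namespace SphIso

variable {f : Z → W} (hf : SphIso f)
include hf

lemma anti_dist {z1 z2 y1 y2 : Z} (h1 : ‖z1‖ = 1) (h2 : ‖z2‖ = 1) (k1 : ‖y1‖ = 1) (k2 : ‖y2‖ = 1)
    (e1 : f y1 = - f z1) (e2 : f y2 = - f z2) : ‖y1 - y2‖ = ‖z1 - z2‖ := by
  rw [← hf.iso y1 y2 k1 k2, ← hf.iso z1 z2 h1 h2, e1, e2, ← norm_neg]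
  congr 1
  abel

lemma anti_two {z y : Z} (h1 : ‖z‖ = 1) (k1 : ‖y‖ = 1) (e1 : f y = - f z) : ‖y - z‖ = 2 := by
  rw [← hf.iso y z k1 h1, e1, ← norm_neg]
  have : -(-f z - f z) = (2 : ℝ) • f z := by rw [two_smul]; abel
  rw [this, norm_smul, hf.norm z h1]
  norm_num

end SphIso

section odd

variable (D : SupDecomp ι Z) {f : Z → W} (hf : SphIso f)
include D hf

lemma anti_coord_unit {z y : Z} (i : ι) (h1 : ‖z‖ = 1) (k1 : ‖y‖ = 1) (e1 : f y = - f z)
    (hi : ‖D.p i z‖ = 1) : D.p i y = - D.p i z := by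
  have hsub : D.p i y - (- D.p i z) = D.p i y + D.p i z := by abel
  apply eq_of_forall_norm_le
  intro ε hε hε1
  set zε : Z := (1 - ε) • z + ε • D.p i z with hzε
  have hpi : D.p i zε = D.p i z := by
    rw [hzε, map_add, map_smul, map_smul, D.idem, ← add_smul]; simp
  have hpj : ∀ j, j ≠ i → D.p j zε = (1 - ε) • D.p j z := by
    intro j hj
    rw [hzε, map_add, map_smul, map_smul, D.orth j i z hj, smul_zero, add_zero]
  have hgap : ∀ j, j ≠ i → ‖D.p j zε‖ ≤ 1 - ε := by
    intro j hj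
    rw [hpj j hj, norm_smul, Real.norm_of_nonneg (by linarith)]
    have := D.le j z
    rw [h1] at this
    nlinarith
  have hn : ‖zε‖ = 1 := D.norm_eq_one i (by rw [hpi, hi]) (fun j hj => by
    have := hgap j hj; linarith)
  obtain ⟨yε, kε, eε⟩ := hf.surj (- f zε) (by rw [norm_neg]; exact hf.norm _ hn)
  have hg := D.gap hε kε.le (by rw [hpi, hi]) hgap (hf.anti_two hn kε eε).ge
  have hd := hf.anti_dist h1 hn k1 kε e1 eε
  have hzz : z - zε = ε • (z - D.p i z) := by
    rw [hzε]; module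
  have hle : ‖z - zε‖ ≤ ε := by
    rw [hzz, norm_smul, Real.norm_of_nonneg hε.le]
    have := D.norm_sub_proj_le i z
    rw [h1] at this
    nlinarith
  have : D.p i y - (- D.p i z) = D.p i (y - yε) := by
    rw [map_sub, hg, hpi]
  rw [this]
  calc ‖D.p i (y - yε)‖ ≤ ‖y - yε‖ := D.le _ _
    _ = ‖z - zε‖ := hd
    _ ≤ ε := hle

lemma exists_dir (j : ι) (a : Z) : ∃ v, D.p j v = v ∧ ‖v‖ = 1 ∧ D.p j a = ‖D.p j a‖ • v := by
  by_cases h0 : D.p j a = 0
  · obtain ⟨v, hv, hv1⟩ := D.unit j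
    exact ⟨v, hv, hv1, by rw [h0, norm_zero, zero_smul]⟩
  · have hpos : 0 < ‖D.p j a‖ := norm_pos_iff.mpr h0
    refine ⟨‖D.p j a‖⁻¹ • D.p j a, ?_, ?_, ?_⟩
    · rw [map_smul, D.idem]
    · rw [norm_smul, norm_inv, norm_norm, inv_mul_cancel₀ hpos.ne']
    · rw [smul_smul, mul_inv_cancel₀ hpos.ne', one_smul]

lemma anti_coord {z y : Z} (j : ι) (h1 : ‖z‖ = 1) (k1 : ‖y‖ = 1) (e1 : f y = - f z) :
    D.p j y = - D.p j z := by
  obtain ⟨v, hv, hv1, hzv⟩ := exists_dir D hf j z
  set t : ℝ := ‖D.p j z‖ with ht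
  have ht0 : 0 ≤ t := norm_nonneg _
  have ht1 : t ≤ 1 := by rw [ht, ← h1]; exact D.le j z
  have hkv : ∀ k, k ≠ j → D.p k v = 0 := by
    intro k hk; rw [← hv, D.orth k j v hk]
  -- the two modified points
  have hmod : ∀ s : ℝ, |s| = 1 → ∃ y' : Z, D.p j y' = - (s • v) ∧ ‖y - y'‖ = ‖D.p j z - s • v‖ := by
    intro s hs
    set z' : Z := z - D.p j z + s • v with hz'
    have hpj : D.p j z' = s • v := by
      rw [hz', map_add, map_sub, D.idem, sub_self, zero_add, map_smul, hv]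
    have hpk : ∀ k, k ≠ j → D.p k z' = D.p k z := by
      intro k hk
      rw [hz', map_add, map_sub, D.orth k j z hk, map_smul, hkv k hk, smul_zero, sub_zero,
        add_zero]
    have hnj : ‖D.p j z'‖ = 1 := by rw [hpj, norm_smul, hv1, Real.norm_eq_abs, hs, mul_one]
    have hn : ‖z'‖ = 1 := D.norm_eq_one j hnj (fun k hk => by
      rw [hpk k hk, ← h1]; exact D.le k z)
    obtain ⟨y', k', e'⟩ := hf.surj (- f z') (by rw [norm_neg]; exact hf.norm _ hn)
    refine ⟨y', ?_, ?_⟩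
    · rw [anti_coord_unit D hf j hn k' e' hnj, hpj]
    · rw [hf.anti_dist h1 hn k1 k' e1 e']
      congr 1
      rw [hz']; abel
  obtain ⟨y1, hy1, hd1⟩ := hmod 1 (by norm_num)
  obtain ⟨y2, hy2, hd2⟩ := hmod (-1) (by norm_num)
  have hb1 : ‖D.p j (y + v)‖ ≤ 1 - t := by
    have : D.p j (y + v) = D.p j (y - y1) := by
      rw [map_add, map_sub, hy1, hv]; simp
    rw [this]
    refine le_trans (D.le _ _) ?_
    rw [hd1, hzv]
    have : t • v - (1 : ℝ) • v = (-(1 - t)) • v := by module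
    rw [this, norm_smul, hv1, Real.norm_eq_abs, abs_neg, abs_of_nonneg (by linarith)]
    linarith
  have hb2 : ‖D.p j (v - y)‖ ≤ 1 + t := by
    have : D.p j (v - y) = - D.p j (y - y2) := by
      rw [map_sub, map_sub, hy2, hv]; simp
    rw [this, norm_neg]
    refine le_trans (D.le _ _) ?_
    rw [hd2, hzv]
    have : t • v - (-1 : ℝ) • v = (1 + t) • v := by module
    rw [this, norm_smul, hv1, Real.norm_eq_abs, abs_of_nonneg (by linarith)]
    linarith
  have hk := D.key j (y + v) (v - y) hb1 hb2 (by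
    rw [← map_add]
    have : y + v + (v - y) = (2 : ℝ) • v := by module
    rw [this, map_smul, hv, norm_smul, hv1]; norm_num)
  rw [map_add, map_sub, hv] at hk
  rw [hzv]
  have h3 : (2 : ℝ) • D.p j y = (2 : ℝ) • (- (t • v)) := by
    linear_combination (norm := module) (-1 : ℝ) • hk
  exact smul_right_injective Z (two_ne_zero) h3

lemma odd {z : Z} (h1 : ‖z‖ = 1) : f (-z) = - f z := by
  obtain ⟨y, k1, e1⟩ := hf.surj (- f z) (by rw [norm_neg]; exact hf.norm _ h1)
  have : y = -z := D.ext (fun j => by rw [anti_coord D hf j h1 k1 e1, map_neg])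
  rw [← this, e1]

end odd

section mid

variable (D : SupDecomp ι Z) {f : Z → W} (hf : SphIso f)

include D hf in
lemma mid_exists {x1 x2 : Z} (h1 : ‖x1‖ = 1) (h2 : ‖x2‖ = 1) (h12 : ‖x1 + x2‖ = 2) :
    ∃ q, ‖q‖ = 1 ∧ f q = (1 / 2 : ℝ) • (f x1 + f x2) ∧
      ∀ r, ‖r‖ = 1 → ‖q - r‖ ≤ (‖x1 - r‖ + ‖x2 - r‖) / 2 := by
  have hn : ‖(1 / 2 : ℝ) • (f x1 + f x2)‖ = 1 := by
    have h3 : f x1 + f x2 = f x1 - f (-x2) := by rw [odd D hf h2]; abel
    rw [norm_smul, h3, hf.iso x1 (-x2) h1 (by rw [norm_neg]; exact h2), sub_neg_eq_add, h12]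
    norm_num
  obtain ⟨q, hq, hfq⟩ := hf.surj _ hn
  refine ⟨q, hq, hfq, ?_⟩
  intro r hr
  rw [← hf.iso q r hq hr, ← hf.iso x1 r h1 hr, ← hf.iso x2 r h2 hr, hfq]
  have : (1 / 2 : ℝ) • (f x1 + f x2) - f r = (1 / 2 : ℝ) • ((f x1 - f r) + (f x2 - f r)) := by
    module
  rw [this, norm_smul]
  have := norm_add_le (f x1 - f r) (f x2 - f r)
  norm_num
  linarith

include D in
lemma local_mid (i : ι) {x1 x2 q : Z} {δ : ℝ} (hδ : 0 < δ) (hu : ‖D.p i x1‖ = 1)
    (hi : D.p i x1 = D.p i x2)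
    (g1 : ∀ j, j ≠ i → ‖D.p j x1‖ ≤ 1 - δ) (g2 : ∀ j, j ≠ i → ‖D.p j x2‖ ≤ 1 - δ)
    (hd : ‖x1 - x2‖ ≤ δ) (hq : ‖q‖ = 1)
    (hmid : ∀ r, ‖r‖ = 1 → ‖q - r‖ ≤ (‖x1 - r‖ + ‖x2 - r‖) / 2) :
    q = (1 / 2 : ℝ) • (x1 + x2) := by
  have n1 : ‖x1‖ = 1 := D.norm_eq_one i hu (fun j hj => by have := g1 j hj; linarith)
  have n2 : ‖x2‖ = 1 := D.norm_eq_one i (hi ▸ hu) (fun j hj => by have := g2 j hj; linarith)
  set m : Z := (1 / 2 : ℝ) • (x1 + x2) with hm
  have hmi : D.p i m = D.p i x1 := by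
    rw [hm, map_smul, map_add, ← hi]; module
  have hmle : ‖m‖ ≤ 1 := by
    rw [hm, norm_smul]
    have := norm_add_le x1 x2
    norm_num
    linarith
  apply D.ext
  intro l
  by_cases hl : l = i
  · subst hl
    rw [hmi]
    have h3 := hmid (-q) (by rw [norm_neg]; exact hq)
    have h4 : ‖q - -q‖ = 2 := by
      have : q - -q = (2 : ℝ) • q := by module
      rw [this, norm_smul, hq]; norm_num
    have h5 : ‖x1 - -q‖ ≤ 2 := by
      have := norm_sub_le x1 (-q); rw [norm_neg] at this; linarith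
    have h6 : ‖x2 - -q‖ ≤ 2 := by
      have := norm_sub_le x2 (-q); rw [norm_neg] at this; linarith
    have h7 : 2 ≤ ‖-q - x1‖ := by rw [norm_sub_rev]; linarith
    have := D.gap hδ (by rw [norm_neg]; exact hq.le) hu.le g1 h7
    rw [map_neg] at this
    exact neg_injective this
  · obtain ⟨d, hd1, hdn, hab⟩ : ∃ v, D.p l v = v ∧ ‖v‖ = 1 ∧
        D.p l (x1 - x2) = ‖D.p l (x1 - x2)‖ • v := by
      by_cases h0 : D.p l (x1 - x2) = 0
      · obtain ⟨v, hv, hv1⟩ := D.unit l
        exact ⟨v, hv, hv1, by rw [h0, norm_zero, zero_smul]⟩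
      · have hpos : 0 < ‖D.p l (x1 - x2)‖ := norm_pos_iff.mpr h0
        refine ⟨‖D.p l (x1 - x2)‖⁻¹ • D.p l (x1 - x2), ?_, ?_, ?_⟩
        · rw [map_smul, D.idem]
        · rw [norm_smul, norm_inv, norm_norm, inv_mul_cancel₀ hpos.ne']
        · rw [smul_smul, mul_inv_cancel₀ hpos.ne', one_smul]
    set n : ℝ := ‖D.p l (x1 - x2)‖ with hn
    have hn0 : 0 ≤ n := norm_nonneg _
    set s : ℝ := δ / 2 with hs
    have hkd : ∀ k, k ≠ l → D.p k d = 0 := by
      intro k hk; rw [← hd1, D.orth k l d hk]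
    have hil : i ≠ l := fun h => hl h.symm
    -- general test point
    have htest : ∀ e : Z, D.p l e = e → ‖e‖ ≤ 1 → ∀ c1 c2 : ℝ, s ≤ c1 → s ≤ c2 →
        ‖D.p l x1 - e‖ ≤ c1 → ‖D.p l x2 - e‖ ≤ c2 → ‖D.p l q - e‖ ≤ (c1 + c2) / 2 := by
      intro e he hen c1 c2 hc1 hc2 he1 he2
      set r : Z := m - D.p l m + e with hr
      have hrl : D.p l r = e := by
        rw [hr, map_add, map_sub, D.idem, sub_self, zero_add, he]
      have hrk : ∀ k, k ≠ l → D.p k r = D.p k m := by
        intro k hk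
        rw [hr, map_add, map_sub, D.orth k l m hk, sub_zero, ← he, D.orth k l e hk, add_zero]
      have hrn : ‖r‖ = 1 := D.norm_eq_one i (by rw [hrk i hil, hmi, hu]) (fun k _ => by
        by_cases hkl : k = l
        · subst hkl; rw [hrl]; exact hen
        · rw [hrk k hkl]; exact le_trans (D.le k m) hmle)
      have hx1 : ‖x1 - r‖ ≤ c1 := by
        apply D.bound
        intro k
        by_cases hkl : k = l
        · subst hkl; rw [map_sub, hrl]; exact he1
        · rw [map_sub, hrk k hkl, ← map_sub]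
          have : x1 - m = (1 / 2 : ℝ) • (x1 - x2) := by rw [hm]; module
          rw [this, map_smul, norm_smul, Real.norm_of_nonneg (by norm_num)]
          have := D.le k (x1 - x2)
          linarith
      have hx2 : ‖x2 - r‖ ≤ c2 := by
        apply D.bound
        intro k
        by_cases hkl : k = l
        · subst hkl; rw [map_sub, hrl]; exact he2
        · rw [map_sub, hrk k hkl, ← map_sub]
          have : x2 - m = (-(1 / 2) : ℝ) • (x1 - x2) := by rw [hm]; module
          rw [this, map_smul, norm_smul, Real.norm_eq_abs, abs_neg, abs_of_nonneg (by norm_num)]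
          have := D.le k (x1 - x2)
          linarith
      have h3 := hmid r hrn
      have h4 : ‖D.p l q - e‖ ≤ ‖q - r‖ := by
        rw [← hrl, ← map_sub]; exact D.le _ _
      linarith
    have hab' : D.p l x1 - D.p l x2 = n • d := by rw [← map_sub]; exact hab
    have hsd : ‖s • d‖ = s := by
      rw [norm_smul, hdn, mul_one, Real.norm_of_nonneg (by positivity)]
    have t1 := htest (D.p l x1 + s • d) (by rw [map_add, D.idem, map_smul, hd1])
      (by
        have := norm_add_le (D.p l x1) (s • d)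
        have := g1 l hl
        rw [hsd] at *
        linarith) s (s + n) le_rfl (by linarith)
      (by
        have : D.p l x1 - (D.p l x1 + s • d) = - (s • d) := by abel
        rw [this, norm_neg, hsd])
      (by
        have : D.p l x2 - (D.p l x1 + s • d) = (-(s + n)) • d := by
          have : D.p l x2 = D.p l x1 - n • d := by rw [← hab']; abel
          rw [this]; module
        rw [this, norm_smul, hdn, mul_one, Real.norm_eq_abs, abs_neg, abs_of_nonneg (by positivity)])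
    have t2 := htest (D.p l x2 - s • d) (by rw [map_sub, D.idem, map_smul, hd1])
      (by
        have := norm_sub_le (D.p l x2) (s • d)
        have := g2 l hl
        rw [hsd] at *
        linarith) (s + n) s (by linarith) le_rfl
      (by
        have : D.p l x1 - (D.p l x2 - s • d) = (s + n) • d := by
          have : D.p l x1 = D.p l x2 + n • d := by rw [← hab']; abel
          rw [this]; module
        rw [this, norm_smul, hdn, mul_one, Real.norm_eq_abs, abs_of_nonneg (by positivity)])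
      (by
        have : D.p l x2 - (D.p l x2 - s • d) = s • d := by abel
        rw [this, hsd])
    have e1 : D.p l (q - (x2 - s • d)) = D.p l q - (D.p l x2 - s • d) := by
      rw [map_sub, map_sub, map_smul, hd1]
    have e2 : D.p l ((x1 + s • d) - q) = - (D.p l q - (D.p l x1 + s • d)) := by
      rw [map_sub, map_add, map_smul, hd1]; abel
    have hk := D.key l (q - (x2 - s • d)) ((x1 + s • d) - q) (α := (s + n + s) / 2)
      (β := (s + (s + n)) / 2) (by rw [e1]; exact t2) (by rw [e2, norm_neg]; exact t1)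
      (by
        rw [e1, e2]
        have : D.p l q - (D.p l x2 - s • d) + -(D.p l q - (D.p l x1 + s • d))
            = (n + 2 * s) • d := by
          have : D.p l x1 = D.p l x2 + n • d := by rw [← hab']; abel
          rw [this]; module
        rw [this, norm_smul, hdn, mul_one, Real.norm_eq_abs, abs_of_nonneg (by positivity)]
        linarith)
    rw [e1, e2] at hk
    have hρ : (s + n + s) / 2 ≠ 0 := by positivity
    have hρ' : (s + (s + n)) / 2 = (s + n + s) / 2 := by ring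
    rw [hρ'] at hk
    have hk' := smul_right_injective Z hρ hk
    rw [hm, map_smul, map_add]
    have h3 : (2 : ℝ) • D.p l q = (2 : ℝ) • ((1 / 2 : ℝ) • (D.p l x1 + D.p l x2)) := by
      linear_combination (norm := module) (-1 : ℝ) • hk'
    exact smul_right_injective Z (two_ne_zero) h3

end mid

end Vale.Agent.P084
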