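import Vale.Agent.P084.LocalMid

namespace Vale.Agent.P084

open Metric Set

set_option linter.unusedSectionVars false

universe v w

variable {F : Type v} {W : Type w}
  [NormedAddCommGroup F] [NormedSpace ℝ F] [NormedAddCommGroup W] [NormedSpace ℝ W]

lemma nrm (t : ℝ) (u : F) : ‖((t, u) : ℝ × F)‖ = max |t| ‖u‖ := by
  rw [Prod.norm_mk, Real.norm_eq_abs]

lemma nrm_sub (t t' : ℝ) (u u' : F) :
    ‖((t, u) : ℝ × F) - (t', u')‖ = max |t - t'| ‖u - u'‖ := by
  rw [Prod.mk_sub_mk, nrm]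

lemma norm_top {u : F} (hu : ‖u‖ ≤ 1) : ‖((1 : ℝ), u)‖ = 1 := by
  rw [nrm, abs_one, max_eq_left hu]

/-- a pure normed space lemma: a unit vector is determined by its distances (above a threshold
smaller than one) to the points of the unit ball -/
lemma sphere_determined {s s' : F} {ε : ℝ} (hε : ε < 1) (hs : ‖s‖ = 1)
    (h : ∀ u : F, ‖u‖ ≤ 1 → max ε ‖s' - u‖ = max ε ‖s - u‖) : s' = s := by
  by_contra hne
  set d : F := s' - s with hd
  have hδ : 0 < ‖d‖ := norm_pos_iff.mpr (sub_ne_zero.mpr hne)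
  have step : ∀ n : ℕ, (n : ℝ) * ‖d‖ ≤ 1 → ‖s - (n : ℝ) • d‖ = 1 := by
    intro n
    induction n with
    | zero => intro _; simpa using hs
    | succ n ih =>
      intro hn
      push_cast at hn
      have hn' : (n : ℝ) * ‖d‖ ≤ 1 := by nlinarith
      have hu : ‖((n : ℝ) + 1) • d‖ ≤ 1 := by
        rw [norm_smul, Real.norm_of_nonneg (by positivity)]; exact hn
      have h1 := h _ hu
      have e1 : s' - ((n : ℝ) + 1) • d = s - (n : ℝ) • d := by rw [hd]; module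
      rw [e1, ih hn', max_eq_right hε.le] at h1
      push_cast
      rcases max_choice ε ‖s - ((n : ℝ) + 1) • d‖ with h2 | h2
      · rw [h2] at h1; linarith
      · rw [h2] at h1; exact h1.symm
  set n0 : ℕ := ⌊1 / ‖d‖⌋₊ with hn0
  have hA : (n0 : ℝ) * ‖d‖ ≤ 1 := by
    have : (n0 : ℝ) ≤ 1 / ‖d‖ := Nat.floor_le (by positivity)
    rwa [le_div_iff₀ hδ] at this
  have hB : 1 < ((n0 : ℝ) + 1) * ‖d‖ := by
    have : 1 / ‖d‖ < (n0 : ℝ) + 1 := Nat.lt_floor_add_one _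
    rwa [div_lt_iff₀ hδ] at this
  have h1 := h (s - (n0 : ℝ) • d) (step n0 hA).le
  have e1 : s' - (s - (n0 : ℝ) • d) = ((n0 : ℝ) + 1) • d := by rw [hd]; module
  have e2 : s - (s - (n0 : ℝ) • d) = (n0 : ℝ) • d := by abel
  rw [e1, e2, norm_smul, norm_smul, Real.norm_of_nonneg (by positivity),
    Real.norm_of_nonneg (by positivity)] at h1
  have h2 : 1 < max ε (((n0 : ℝ) + 1) * ‖d‖) := lt_of_lt_of_le hB (le_max_right _ _)
  have h3 : max ε ((n0 : ℝ) * ‖d‖) ≤ 1 := max_le hε.le hA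
  linarith

lemma fst_eq_one_of_near {u : F} {δ : ℝ} (hu : ‖u‖ ≤ 1 - δ) {x : ℝ × F} (hx : ‖x‖ = 1)
    (hd : ‖x - ((1 : ℝ), u)‖ < δ) : x.1 = 1 ∧ ‖x.2‖ < 1 := by
  obtain ⟨t, v⟩ := x
  rw [nrm_sub] at hd
  rw [nrm] at hx
  have h1 : |t - 1| < δ := lt_of_le_of_lt (le_max_left _ _) hd
  have h2 : ‖v - u‖ < δ := lt_of_le_of_lt (le_max_right _ _) hd
  have h3 : ‖v‖ < 1 := by
    have := norm_add_le (v - u) u
    rw [sub_add_cancel] at this
    linarith
  have h4 : |t| = 1 := by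
    rcases max_choice |t| ‖v‖ with h | h
    · rw [h] at hx; exact hx
    · rw [h] at hx; linarith
  have h5 : δ ≤ 1 := by linarith [norm_nonneg u]
  refine ⟨?_, h3⟩
  change t = 1
  rcases (abs_eq (by norm_num : (0 : ℝ) ≤ 1)).mp h4 with h | h
  · exact h
  · rw [h] at h1; norm_num at h1; linarith

lemma fst_eq_neg_one {u : F} (hu : ‖u‖ < 1) {y : ℝ × F} (hy : ‖y‖ = 1)
    (h : ‖y - ((1 : ℝ), u)‖ = 2) : y.1 = -1 := by
  obtain ⟨t, v⟩ := y
  rw [nrm_sub] at h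
  rw [nrm] at hy
  have h1 : |t| ≤ 1 := hy ▸ le_max_left _ _
  have h2 : ‖v‖ ≤ 1 := hy ▸ le_max_right _ _
  have h3 : ‖v - u‖ < 2 := by
    have := norm_sub_le v u
    linarith
  have h4 : |t - 1| = 2 := by
    rcases max_choice |t - 1| ‖v - u‖ with h' | h'
    · rw [h'] at h; exact h
    · rw [h'] at h; linarith
  change t = -1
  rw [abs_le] at h1
  rcases (abs_eq (by norm_num : (0 : ℝ) ≤ 2)).mp h4 with h' | h' <;> linarith

section top

variable {f : ℝ × F → W} (hf : SphIso f)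
include hf

lemma flat_top {u u' : F} (hu : ‖u‖ ≤ 1) (hu' : ‖u'‖ < 1) :
    ‖f ((1 : ℝ), u) + f ((1 : ℝ), u')‖ = 2 := by
  have n1 := norm_top hu
  have n2 := norm_top hu'.le
  obtain ⟨y, hy, hfy⟩ := hf.surj (- f ((1 : ℝ), u')) (by rw [norm_neg]; exact hf.norm _ n2)
  have h2 := hf.anti_two n2 hy hfy
  have h3 := fst_eq_neg_one hu' hy h2
  have e : f ((1 : ℝ), u) + f ((1 : ℝ), u') = f ((1 : ℝ), u) - f y := by rw [hfy]; abel
  rw [e, hf.iso _ _ n1 hy]
  apply le_antisymm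
  · have := norm_sub_le ((1 : ℝ), u) y
    rw [n1, hy] at this; linarith
  · obtain ⟨t, v⟩ := y
    change t = -1 at h3
    rw [nrm_sub, h3]
    refine le_trans ?_ (le_max_left _ _)
    norm_num

lemma mid_top_local {ua ub : F} {δ : ℝ} (hδ : 0 < δ) (ha : ‖ua‖ ≤ 1 - δ) (hb : ‖ub‖ ≤ 1 - δ)
    (hab : ‖ua - ub‖ ≤ δ / 3) :
    f ((1 : ℝ), (1 / 2 : ℝ) • (ua + ub)) = (1 / 2 : ℝ) • (f ((1 : ℝ), ua) + f ((1 : ℝ), ub)) := by
  have hδ1 : δ ≤ 1 := by linarith [norm_nonneg ua]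
  have e : (1 / 2 : ℝ) • (((1 : ℝ), ua) + ((1 : ℝ), ub)) = ((1 : ℝ), (1 / 2 : ℝ) • (ua + ub)) := by
    ext
    · simp; norm_num
    · simp
  rw [← e]
  apply local_mid_flat hf (r := δ / 3) (by linarith) (norm_top (by linarith))
    (norm_top (by linarith))
  · rw [nrm_sub, sub_self, abs_zero]
    exact max_le (by positivity) hab
  · intro x x' hx hx' h1 h2
    obtain ⟨k1, k2⟩ := fst_eq_one_of_near ha hx (by linarith)
    obtain ⟨k3, k4⟩ := fst_eq_one_of_near ha hx' (by linarith)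
    have e1 : x = ((1 : ℝ), x.2) := Prod.ext k1 rfl
    have e2 : x' = ((1 : ℝ), x'.2) := Prod.ext k3 rfl
    rw [e1, e2]
    exact flat_top hf k2.le k4
  · intro x hx h1 h2
    obtain ⟨k1, k2⟩ := fst_eq_one_of_near ha hx (by linarith)
    have e1 : ((1 : ℝ), ua) + ((1 : ℝ), ub) - x = ((1 : ℝ), ua + ub - x.2) := by
      ext
      · simp [k1]
      · simp
    rw [e1]
    apply norm_top
    have h3 : ‖x.2 - ub‖ ≤ δ / 3 := by
      refine le_trans ?_ h2
      exact norm_snd_le (x - ((1 : ℝ), ub))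
    have e2 : ua + ub - x.2 = ua - (x.2 - ub) := by abel
    rw [e2]
    have := norm_sub_le ua (x.2 - ub)
    linarith
  · rw [e]
    apply norm_top
    rw [norm_smul, Real.norm_of_nonneg (by norm_num)]
    have := norm_add_le ua ub
    linarith

lemma mid_top {ua ub : F} (ha : ‖ua‖ < 1) (hb : ‖ub‖ < 1) :
    f ((1 : ℝ), (1 / 2 : ℝ) • (ua + ub)) = (1 / 2 : ℝ) • (f ((1 : ℝ), ua) + f ((1 : ℝ), ub)) := by
  set δ : ℝ := 1 - max ‖ua‖ ‖ub‖ with hδ
  have hδ0 : 0 < δ := by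
    have := max_lt ha hb
    linarith
  have h := doubling (closedBall (0 : F) (1 - δ)) (convex_closedBall _ _)
    (fun u => f ((1 : ℝ), u)) (ε := δ / 3) (by positivity)
    (fun x hx y hy hxy => mid_top_local hf hδ0 (mem_closedBall_zero_iff.mp hx)
      (mem_closedBall_zero_iff.mp hy) hxy)
  apply h
  · rw [mem_closedBall_zero_iff, hδ]
    have := le_max_left ‖ua‖ ‖ub‖
    linarith
  · rw [mem_closedBall_zero_iff, hδ]
    have := le_max_right ‖ua‖ ‖ub‖
    linarith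

lemma exists_A : ∃ A : F →L[ℝ] W, ∀ u, ‖u‖ ≤ 1 → f ((1 : ℝ), u) = f ((1 : ℝ), 0) + A u := by
  have hhalf : ∀ x : F, ‖x‖ ≤ 1 → ‖(1 / 2 : ℝ) • x‖ < 1 := by
    intro x hx
    rw [norm_smul, Real.norm_of_nonneg (by norm_num)]
    linarith
  obtain ⟨L2, hL2⟩ := extend_ball (fun u : F => f ((1 : ℝ), (1 / 2 : ℝ) • u) - f ((1 : ℝ), 0))
    (by simp)
    (by
      intro x y hx hy
      have e : (1 / 2 : ℝ) • ((1 / 2 : ℝ) • (x + y))
          = (1 / 2 : ℝ) • ((1 / 2 : ℝ) • x + (1 / 2 : ℝ) • y) := by module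
      rw [e, mid_top hf (hhalf x hx) (hhalf y hy)]
      module)
    (1 / 2)
    (by
      intro x hx
      rw [hf.iso _ _ (norm_top (hhalf x hx).le) (norm_top (by simp)), nrm_sub, sub_self, abs_zero,
        sub_zero, norm_smul, Real.norm_of_nonneg (by norm_num)]
      exact (max_le (by positivity) le_rfl))
  have hlt : ∀ u : F, ‖u‖ < 1 → f ((1 : ℝ), u) = f ((1 : ℝ), 0) + (2 : ℝ) • L2 u := by
    intro u hu
    rw [hL2 u hu.le]
    have := mid_top hf hu (by simp : ‖(0 : F)‖ < 1)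
    rw [add_zero] at this
    rw [this]
    module
  refine ⟨(2 : ℝ) • L2, ?_⟩
  intro u hu
  rcases lt_or_eq_of_le hu with h | h
  · exact hlt u h
  · apply eq_of_forall_norm_le
    intro ε hε hε1
    set K : ℝ := 1 + ‖((2 : ℝ) • L2) u‖ with hK
    have hK1 : 1 ≤ K := by rw [hK]; linarith [norm_nonneg (((2 : ℝ) • L2) u)]
    set μ : ℝ := ε / K with hμ
    have hμ0 : 0 < μ := by positivity
    have hμ1 : μ < 1 := by
      rw [hμ, div_lt_one (by linarith)]; linarith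
    have hn : ‖(1 - μ) • u‖ < 1 := by
      rw [norm_smul, h, mul_one, Real.norm_of_nonneg (by linarith)]; linarith
    have h1 := hlt _ hn
    have h2 : ‖f ((1 : ℝ), u) - f ((1 : ℝ), (1 - μ) • u)‖ = μ := by
      rw [hf.iso _ _ (norm_top hu) (norm_top hn.le), nrm_sub, sub_self, abs_zero]
      have : u - (1 - μ) • u = μ • u := by module
      rw [this, norm_smul, h, mul_one, Real.norm_of_nonneg hμ0.le]
      exact max_eq_right hμ0.le
    have e : f ((1 : ℝ), u) - (f ((1 : ℝ), 0) + ((2 : ℝ) • L2) u)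
        = (f ((1 : ℝ), u) - f ((1 : ℝ), (1 - μ) • u)) - μ • ((2 : ℝ) • L2) u := by
      rw [h1]
      have : (2 : ℝ) • L2 ((1 - μ) • u) = (1 - μ) • ((2 : ℝ) • L2) u := by
        rw [map_smul]; simp only [smul_apply]; module
      rw [this]; module
    rw [e]
    have h3 := norm_sub_le (f ((1 : ℝ), u) - f ((1 : ℝ), (1 - μ) • u)) (μ • ((2 : ℝ) • L2) u)
    rw [h2, norm_smul, Real.norm_of_nonneg hμ0.le] at h3
    have h4 : μ * K = ε := by rw [hμ]; field_simp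
    rw [hK] at h4
    linarith

end top

end Vale.Agent.P084
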