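import Vale.Agent.P084.Cyl

namespace Vale.Agent.P084

open Metric Set

set_option linter.unusedSectionVars false

universe v w

variable {F : Type v} {W : Type w}
  [NormedAddCommGroup F] [NormedSpace ℝ F] [NormedAddCommGroup W] [NormedSpace ℝ W]

section upper

variable {f : ℝ × F → W} (hf : SphIso f)
include hf

/-- the linear map determined by `f` on the top face is norm preserving -/
lemma exists_L : ∃ L : ℝ × F →L[ℝ] W, (∀ x, ‖L x‖ = ‖x‖) ∧
    ∀ u : F, ‖u‖ ≤ 1 → f ((1 : ℝ), u) = L ((1 : ℝ), u) := by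
  obtain ⟨A, hA⟩ := exists_A hf
  set c : W := f ((1 : ℝ), 0) with hc
  let L : ℝ × F →L[ℝ] W :=
    (ContinuousLinearMap.fst ℝ ℝ F).smulRight c + A.comp (ContinuousLinearMap.snd ℝ ℝ F)
  have hL : ∀ (t : ℝ) (v : F), L (t, v) = t • c + A v := fun t v => rfl
  have htop : ∀ u : F, ‖u‖ ≤ 1 → f ((1 : ℝ), u) = L ((1 : ℝ), u) := by
    intro u hu
    rw [hL, one_smul, hA u hu]
  -- big first coordinate
  have hbig : ∀ (t : ℝ) (v : F), ‖v‖ ≤ |t| → t ≠ 0 → ‖L (t, v)‖ = |t| := by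
    intro t v hv ht
    have hn : ‖t⁻¹ • v‖ ≤ 1 := by
      rw [norm_smul, norm_inv, Real.norm_eq_abs, inv_mul_le_iff₀ (abs_pos.mpr ht), mul_one]
      exact hv
    have e : L (t, v) = t • f ((1 : ℝ), t⁻¹ • v) := by
      rw [htop _ hn, hL, hL, one_smul, map_smul, smul_add, smul_smul, mul_inv_cancel₀ ht, one_smul]
    rw [e, norm_smul, hf.norm _ (norm_top hn), mul_one, Real.norm_eq_abs]
  have hAn1 : ∀ v : F, ‖v‖ ≤ 1 → ‖A v‖ = ‖v‖ := by
    intro v hv
    have : A v = f ((1 : ℝ), v) - f ((1 : ℝ), 0) := by rw [hA v hv]; abel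
    rw [this, hf.iso _ _ (norm_top hv) (norm_top (by simp)), nrm_sub, sub_self, abs_zero, sub_zero]
    exact max_eq_right (norm_nonneg _)
  have hAn : ∀ v : F, ‖A v‖ = ‖v‖ := by
    intro v
    by_cases h0 : v = 0
    · rw [h0, map_zero, norm_zero, norm_zero]
    · have hpos : 0 < ‖v‖ := norm_pos_iff.mpr h0
      have hn : ‖‖v‖⁻¹ • v‖ = 1 := by
        rw [norm_smul, norm_inv, norm_norm, inv_mul_cancel₀ hpos.ne']
      have hzz : v = ‖v‖ • (‖v‖⁻¹ • v) := by
        rw [smul_smul, mul_inv_cancel₀ hpos.ne', one_smul]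
      have h1 : A v = ‖v‖ • A (‖v‖⁻¹ • v) := by rw [← map_smul, ← hzz]
      rw [h1, norm_smul, norm_norm, hAn1 _ hn.le, hn, mul_one]
  have hsmall_le : ∀ (t : ℝ) (v : F), |t| ≤ ‖v‖ → v ≠ 0 → ‖L (t, v)‖ ≤ ‖v‖ := by
    intro t v ht hv
    have hpos : 0 < ‖v‖ := norm_pos_iff.mpr hv
    set n : ℝ := ‖v‖ with hn
    have h1 := hbig n v (by rw [abs_of_pos hpos]) hpos.ne'
    have h2 := hbig (-n) v (by rw [abs_neg, abs_of_pos hpos]) (by linarith)
    rw [abs_of_pos hpos] at h1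
    rw [abs_neg, abs_of_pos hpos] at h2
    rw [abs_le] at ht
    have e : L (t, v) = ((n + t) / (2 * n)) • L (n, v) + ((n - t) / (2 * n)) • L (-n, v) := by
      rw [hL, hL, hL]
      have k1 : (n + t) / (2 * n) * n - (n - t) / (2 * n) * n = t := by field_simp; ring
      have k2 : (n + t) / (2 * n) + (n - t) / (2 * n) = 1 := by field_simp; ring
      have : ((n + t) / (2 * n)) • (n • c + A v) + ((n - t) / (2 * n)) • (-n • c + A v)
          = ((n + t) / (2 * n) * n - (n - t) / (2 * n) * n) • c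
            + ((n + t) / (2 * n) + (n - t) / (2 * n)) • A v := by module
      rw [this, k1, k2, one_smul]
    rw [e]
    have h3 := norm_add_le (((n + t) / (2 * n)) • L (n, v)) (((n - t) / (2 * n)) • L (-n, v))
    rw [norm_smul, norm_smul, h1, h2, Real.norm_of_nonneg (div_nonneg (by linarith) (by linarith)),
      Real.norm_of_nonneg (div_nonneg (by linarith) (by linarith))] at h3
    have k3 : (n + t) / (2 * n) * n + (n - t) / (2 * n) * n = n := by field_simp; ring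
    linarith
  have hsmall : ∀ (t : ℝ) (v : F), |t| ≤ ‖v‖ → v ≠ 0 → ‖L (t, v)‖ = ‖v‖ := by
    intro t v ht hv
    apply le_antisymm (hsmall_le t v ht hv)
    have h1 := hsmall_le (-t) v (by rw [abs_neg]; exact ht) hv
    have e : (2 : ℝ) • A v = L (t, v) + L (-t, v) := by
      rw [hL, hL]; module
    have h2 := norm_add_le (L (t, v)) (L (-t, v))
    rw [← e, norm_smul, hAn] at h2
    norm_num at h2
    linarith
  refine ⟨L, ?_, htop⟩
  rintro ⟨t, v⟩
  rw [nrm]
  rcases le_total |t| ‖v‖ with h | h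
  · rw [max_eq_right h]
    by_cases hv : v = 0
    · rw [hv, norm_zero] at h
      have ht : t = 0 := abs_eq_zero.mp (le_antisymm h (abs_nonneg _))
      rw [hv, ht, norm_zero]
      have : ((0 : ℝ), (0 : F)) = 0 := rfl
      rw [this, map_zero, norm_zero]
    · exact hsmall t v h hv
  · rw [max_eq_left h]
    by_cases ht : t = 0
    · rw [ht, abs_zero] at h
      have hv : v = 0 := norm_eq_zero.mp (le_antisymm h (norm_nonneg _))
      rw [hv, ht, abs_zero]
      have : ((0 : ℝ), (0 : F)) = 0 := rfl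
      rw [this, map_zero, norm_zero]
    · exact hbig t v h ht

lemma upper_open (L : ℝ × F →L[ℝ] W) (hLn : ∀ x, ‖L x‖ = ‖x‖)
    (htop : ∀ u : F, ‖u‖ ≤ 1 → f ((1 : ℝ), u) = L ((1 : ℝ), u))
    {t : ℝ} {s : F} (ht0 : 0 < t) (ht1 : t < 1) (hs : ‖s‖ = 1) : f (t, s) = L (t, s) := by
  have hp : ‖((t, s) : ℝ × F)‖ = 1 := by
    rw [nrm, hs, abs_of_pos ht0]; exact max_eq_right ht1.le
  obtain ⟨p', hp', hfp'⟩ := hf.surj (L (t, s)) (by rw [hLn, hp])
  obtain ⟨t', s'⟩ := p'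
  have star : ∀ u : F, ‖u‖ ≤ 1 → max |t' - 1| ‖s' - u‖ = max |t - 1| ‖s - u‖ := by
    intro u hu
    rw [← nrm_sub, ← nrm_sub, ← hf.iso _ _ hp' (norm_top hu), hfp', htop u hu, ← map_sub, hLn]
  have hp'' := hp'
  rw [nrm] at hp''
  have ht'1 : |t'| ≤ 1 := hp'' ▸ le_max_left _ _
  have hs'1 : ‖s'‖ ≤ 1 := hp'' ▸ le_max_right _ _
  rw [abs_le] at ht'1
  have a1 : |t - 1| = 1 - t := by rw [abs_sub_comm, abs_of_pos (by linarith)]
  have a2 : |t' - 1| = 1 - t' := by rw [abs_sub_comm, abs_of_nonneg (by linarith)]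
  have h1 := star s hs.le
  rw [sub_self, norm_zero, a1, a2, max_eq_left (by linarith : (0 : ℝ) ≤ 1 - t)] at h1
  have h2 := star s' hs'1
  rw [sub_self, norm_zero, a1, a2, max_eq_left (by linarith : (0 : ℝ) ≤ 1 - t')] at h2
  have h3 : 1 - t' ≤ 1 - t := h1 ▸ le_max_left _ _
  have h4 : 1 - t ≤ 1 - t' := h2 ▸ le_max_left _ _
  have htt : t' = t := by linarith
  subst htt
  have hss : s' = s := by
    apply sphere_determined (ε := 1 - t') (by linarith) hs
    intro u hu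
    have := star u hu
    rwa [a1] at this
  rw [← hfp', hss]

lemma upper_half : ∃ L : ℝ × F →L[ℝ] W, (∀ x, ‖L x‖ = ‖x‖) ∧
    ∀ p : ℝ × F, ‖p‖ = 1 → 0 ≤ p.1 → f p = L p := by
  obtain ⟨L, hLn, htop⟩ := exists_L hf
  refine ⟨L, hLn, ?_⟩
  rintro ⟨t, s⟩ hp ht
  change 0 ≤ t at ht
  have hp' := hp
  rw [nrm, abs_of_nonneg ht] at hp'
  have ht1 : t ≤ 1 := hp' ▸ le_max_left _ _
  have hs1 : ‖s‖ ≤ 1 := hp' ▸ le_max_right _ _
  rcases lt_or_eq_of_le ht1 with h1 | h1
  · have hs : ‖s‖ = 1 := by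
      rcases max_choice t ‖s‖ with h | h
      · rw [h] at hp'; linarith
      · rw [h] at hp'; exact hp'
    rcases lt_or_eq_of_le ht with h0 | h0
    · exact upper_open hf L hLn htop h0 h1 hs
    · subst h0
      apply eq_of_forall_norm_le
      intro ε hε hε1
      have hq : ‖((ε / 2, s) : ℝ × F)‖ = 1 := by
        rw [nrm, hs, abs_of_pos (by positivity)]; exact max_eq_right (by linarith)
      have h2 := upper_open hf L hLn htop (t := ε / 2) (by positivity) (by linarith) hs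
      have e : f ((0 : ℝ), s) - L ((0 : ℝ), s)
          = (f ((0 : ℝ), s) - f (ε / 2, s)) - L (((0 : ℝ), s) - (ε / 2, s)) := by
        rw [map_sub, h2]; abel
      rw [e]
      have h3 := norm_sub_le (f ((0 : ℝ), s) - f (ε / 2, s)) (L (((0 : ℝ), s) - (ε / 2, s)))
      rw [hf.iso _ _ hp hq, hLn, nrm_sub, sub_self, norm_zero, zero_sub, abs_neg,
        abs_of_pos (by positivity), max_eq_left (by positivity)] at h3
      linarith
  · subst h1
    exact htop s hs1

end upper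

lemma SphIso.comp_neg {Z : Type v} [NormedAddCommGroup Z] {f : Z → W} (hf : SphIso f) :
    SphIso (fun x => f (-x)) := by
  refine ⟨?_, ?_, ?_⟩
  · intro z hz; exact hf.norm _ (by rw [norm_neg]; exact hz)
  · intro z z' hz hz'
    rw [hf.iso _ _ (by rw [norm_neg]; exact hz) (by rw [norm_neg]; exact hz')]
    have : -z - -z' = -(z - z') := by abel
    rw [this, norm_neg]
  · intro y hy
    obtain ⟨z, hz, hzy⟩ := hf.surj y hy
    exact ⟨-z, by rw [norm_neg]; exact hz, by rw [neg_neg]; exact hzy⟩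

theorem cyl_raw {f : ℝ × F → W} (hf : SphIso f) :
    ∃ T : ℝ × F →L[ℝ] W, ∀ z, ‖z‖ = 1 → T z = f z := by
  obtain ⟨L, hLn, hL⟩ := upper_half hf
  obtain ⟨L', hLn', hL'⟩ := upper_half hf.comp_neg
  have hlow : ∀ p : ℝ × F, ‖p‖ = 1 → p.1 ≤ 0 → f p = L' (-p) := by
    intro p hp h
    have := hL' (-p) (by rw [norm_neg]; exact hp) (by simpa using h)
    rwa [neg_neg] at this
  -- agreement on the equator
  have heq1 : ∀ s : F, ‖s‖ = 1 → L' ((0 : ℝ), s) = - L ((0 : ℝ), s) := by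
    intro s hs
    have hp : ‖(((0 : ℝ), s) : ℝ × F)‖ = 1 := by rw [nrm, hs, abs_zero]; exact max_eq_right (by norm_num)
    have h1 := hL _ hp le_rfl
    have h2 := hlow _ hp le_rfl
    rw [map_neg] at h2
    rw [← h1, h2, neg_neg]
  have heq : ∀ v : F, L' ((0 : ℝ), v) = - L ((0 : ℝ), v) := by
    intro v
    by_cases h0 : v = 0
    · have : (((0 : ℝ), (0 : F)) : ℝ × F) = 0 := rfl
      rw [h0, this, map_zero, map_zero, neg_zero]
    · have hpos : 0 < ‖v‖ := norm_pos_iff.mpr h0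
      have hn : ‖‖v‖⁻¹ • v‖ = 1 := by
        rw [norm_smul, norm_inv, norm_norm, inv_mul_cancel₀ hpos.ne']
      have hzz : (((0 : ℝ), v) : ℝ × F) = ‖v‖ • ((0 : ℝ), ‖v‖⁻¹ • v) := by
        ext
        · simp
        · simp [smul_smul, mul_inv_cancel₀ hpos.ne']
      rw [hzz, map_smul, map_smul, heq1 _ hn, smul_neg]
  -- the poles
  have n10 : ‖(((1 : ℝ), (0 : F)) : ℝ × F)‖ = 1 := norm_top (by simp)
  have hc : f ((1 : ℝ), 0) = L ((1 : ℝ), 0) := hL _ n10 (by norm_num)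
  obtain ⟨p0, hp0, hfp0⟩ := hf.surj (- f ((1 : ℝ), 0)) (by rw [norm_neg]; exact hf.norm _ n10)
  have h2 := hf.anti_two n10 hp0 hfp0
  have h3 := fst_eq_neg_one (by simp) hp0 h2
  obtain ⟨t0, u0⟩ := p0
  change t0 = -1 at h3
  subst h3
  have hu0 : u0 = 0 := by
    by_contra hne
    have hpos : 0 < ‖u0‖ := norm_pos_iff.mpr hne
    set s : F := (-‖u0‖⁻¹) • u0 with hs
    have hsn : ‖s‖ = 1 := by
      rw [hs, norm_smul, norm_neg, norm_inv, norm_norm, inv_mul_cancel₀ hpos.ne']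
    have hp : ‖(((0 : ℝ), s) : ℝ × F)‖ = 1 := by
      rw [nrm, hsn, abs_zero]; exact max_eq_right (by norm_num)
    have h4 := hf.iso _ _ hp0 hp
    rw [hfp0, hc, hL _ hp le_rfl, nrm_sub] at h4
    have e1 : - L ((1 : ℝ), 0) - L ((0 : ℝ), s) = - L ((1 : ℝ), s) := by
      have : (((1 : ℝ), s) : ℝ × F) = ((1 : ℝ), 0) + ((0 : ℝ), s) := by ext <;> simp
      rw [this, map_add]; abel
    rw [e1, norm_neg, hLn, norm_top hsn.le] at h4
    have e2 : u0 - s = (1 + ‖u0‖⁻¹) • u0 := by rw [hs]; module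
    have h5 : ‖u0 - s‖ = ‖u0‖ + 1 := by
      rw [e2, norm_smul, Real.norm_of_nonneg (by positivity), add_mul, one_mul,
        inv_mul_cancel₀ hpos.ne']
    have h6 : ‖u0 - s‖ ≤ 1 := h4 ▸ le_max_right _ _
    linarith
  subst hu0
  have hpole : L' ((1 : ℝ), 0) = - L ((1 : ℝ), 0) := by
    have h4 := hlow _ hp0 (by norm_num)
    have : -(((-1 : ℝ), (0 : F)) : ℝ × F) = ((1 : ℝ), 0) := by ext <;> simp
    rw [this] at h4
    rw [← h4, hfp0, hc]
  have hall : ∀ x : ℝ × F, L' x = - L x := by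
    rintro ⟨t, v⟩
    have : (((t : ℝ), v) : ℝ × F) = t • ((1 : ℝ), (0 : F)) + ((0 : ℝ), v) := by ext <;> simp
    rw [this, map_add, map_add, map_smul, map_smul, hpole, heq]
    module
  refine ⟨L, ?_⟩
  intro z hz
  rcases le_total 0 z.1 with h | h
  · exact (hL z hz h).symm
  · rw [hlow z hz h, hall, map_neg, neg_neg]

end Vale.Agent.P084
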