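import Mathlib

namespace Vale.Agent.P084

open Metric

universe v w

/-- The Mazur-Ulam property of a real normed space `X`: for every real normed space `Y`
(complete or not, in the universe `w`), every surjective isometry from the unit sphere of `X`
onto the unit sphere of `Y` is the restriction of a surjective real-linear isometry `X → Y`. -/
def MazurUlamProperty (X : Type v) [NormedAddCommGroup X] [NormedSpace ℝ X] : Prop :=
  ∀ (Y : Type w) [NormedAddCommGroup Y] [NormedSpace ℝ Y]
    (f : sphere (0 : X) 1 → sphere (0 : Y) 1), Isometry f → Function.Surjective f →
      ∃ T : X ≃ₗᵢ[ℝ] Y, ∀ x : sphere (0 : X) 1, T x = f x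

end Vale.Agent.P084
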