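import Vale.Agent.P084.Cyl2
import Vale.Agent.P084.Defs

namespace Vale.Agent.P084

open Metric Set

universe v w

variable {Z : Type v} {W : Type w}
  [NormedAddCommGroup Z] [NormedSpace ℝ Z] [NormedAddCommGroup W] [NormedSpace ℝ W]

/-- from maps on the whole space that are sphere isometries to maps between sphere subtypes -/
theorem equiv_of_raw
    (hraw : ∀ g : Z → W, SphIso g → ∃ T : Z →L[ℝ] W, ∀ z, ‖z‖ = 1 → T z = g z)
    (f : sphere (0 : Z) 1 → sphere (0 : W) 1) (hiso : Isometry f)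
    (hsurj : Function.Surjective f) :
    ∃ T : Z ≃ₗᵢ[ℝ] W, ∀ x : sphere (0 : Z) 1, T x = f x := by
  classical
  let g : Z → W := fun z => if h : ‖z‖ = 1 then (f ⟨z, mem_sphere_zero_iff_norm.mpr h⟩ : W) else 0
  have hg : ∀ (z : Z) (h : ‖z‖ = 1), g z = (f ⟨z, mem_sphere_zero_iff_norm.mpr h⟩ : W) := by
    intro z h
    simp only [g, dif_pos h]
  have hS : SphIso g := by
    refine ⟨?_, ?_, ?_⟩
    · intro z hz
      rw [hg z hz]
      exact mem_sphere_zero_iff_norm.mp (f _).2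
    · intro z z' hz hz'
      rw [hg z hz, hg z' hz', ← dist_eq_norm, ← dist_eq_norm, ← Subtype.dist_eq, hiso.dist_eq,
        Subtype.dist_eq]
    · intro y hy
      obtain ⟨x, hx⟩ := hsurj ⟨y, mem_sphere_zero_iff_norm.mpr hy⟩
      have hxn : ‖(x : Z)‖ = 1 := mem_sphere_zero_iff_norm.mp x.2
      refine ⟨x, hxn, ?_⟩
      rw [hg _ hxn]
      have : (⟨(x : Z), mem_sphere_zero_iff_norm.mpr hxn⟩ : sphere (0 : Z) 1) = x := rfl
      rw [this, hx]
  obtain ⟨T, hT⟩ := hraw g hS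
  have hnorm : ∀ z : Z, ‖T z‖ = ‖z‖ := by
    intro z
    by_cases h0 : z = 0
    · rw [h0, map_zero, norm_zero, norm_zero]
    · have hpos : 0 < ‖z‖ := norm_pos_iff.mpr h0
      have hn : ‖‖z‖⁻¹ • z‖ = 1 := by
        rw [norm_smul, norm_inv, norm_norm, inv_mul_cancel₀ hpos.ne']
      have hzz : z = ‖z‖ • (‖z‖⁻¹ • z) := by
        rw [smul_smul, mul_inv_cancel₀ hpos.ne', one_smul]
      have h1 : T z = ‖z‖ • T (‖z‖⁻¹ • z) := by rw [← map_smul, ← hzz]
      rw [h1, norm_smul, norm_norm, hT _ hn, hS.norm _ hn, mul_one]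
  let I : Z →ₗᵢ[ℝ] W := ⟨T.toLinearMap, hnorm⟩
  have hI : ∀ z, I z = T z := fun z => rfl
  have hsur : Function.Surjective I := by
    intro y
    by_cases h0 : y = 0
    · exact ⟨0, by rw [h0, map_zero]⟩
    · have hpos : 0 < ‖y‖ := norm_pos_iff.mpr h0
      have hn : ‖‖y‖⁻¹ • y‖ = 1 := by
        rw [norm_smul, norm_inv, norm_norm, inv_mul_cancel₀ hpos.ne']
      obtain ⟨z, hz, hzy⟩ := hS.surj _ hn
      refine ⟨‖y‖ • z, ?_⟩
      rw [map_smul, hI, hT z hz, hzy, smul_smul, mul_inv_cancel₀ hpos.ne', one_smul]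
  refine ⟨LinearIsometryEquiv.ofSurjective I hsur, ?_⟩
  intro x
  have hxn : ‖(x : Z)‖ = 1 := mem_sphere_zero_iff_norm.mp x.2
  change T (x : Z) = f x
  rw [hT _ hxn, hg _ hxn]

/-- The sup-normed product of the real line with an arbitrary real normed space has the
Mazur-Ulam property. -/
theorem cyl_mup (F : Type v) [NormedAddCommGroup F] [NormedSpace ℝ F] :
    MazurUlamProperty.{v, w} (ℝ × F) := by
  intro Y _ _ f hf hs
  exact equiv_of_raw (fun g hg => cyl_raw hg) f hf hs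

/-- every nonzero normed space is linearly homeomorphic to `ℝ × H` for a closed hyperplane `H` -/
theorem exists_hyperplane_iso (X : Type v) [NormedAddCommGroup X] [NormedSpace ℝ X] [Nontrivial X] :
    ∃ φ : X →L[ℝ] ℝ, Nonempty (X ≃L[ℝ] (ℝ × (LinearMap.ker φ.toLinearMap))) := by
  obtain ⟨x0, hx0⟩ := exists_ne (0 : X)
  obtain ⟨φ, -, hφ⟩ := exists_dual_vector ℝ x0 (norm_ne_zero_iff.mpr hx0)
  have hφ0 : φ x0 ≠ 0 := by
    rw [hφ]
    simpa using hx0
  set e : X := (φ x0)⁻¹ • x0 with he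
  have hφe : φ e = 1 := by
    rw [he, map_smul, smul_eq_mul, inv_mul_cancel₀ hφ0]
  refine ⟨φ, ⟨?_⟩⟩
  let Q : X →L[ℝ] X := ContinuousLinearMap.id ℝ X - φ.smulRight e
  have hQ : ∀ x, Q x = x - φ x • e := fun x => rfl
  have hQk : ∀ x, Q x ∈ LinearMap.ker φ.toLinearMap := by
    intro x
    rw [LinearMap.mem_ker]
    change φ (Q x) = 0
    rw [hQ, map_sub, map_smul, hφe, smul_eq_mul, mul_one, sub_self]
  let f1 : X →L[ℝ] (ℝ × (LinearMap.ker φ.toLinearMap)) := φ.prod (Q.codRestrict _ hQk)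
  let f2 : (ℝ × (LinearMap.ker φ.toLinearMap)) →L[ℝ] X :=
    (ContinuousLinearMap.fst ℝ ℝ _).smulRight e
      + (Submodule.subtypeL _).comp (ContinuousLinearMap.snd ℝ ℝ _)
  have hf1 : ∀ x, f1 x = (φ x, ⟨Q x, hQk x⟩) := fun x => rfl
  have hf2 : ∀ (t : ℝ) (k : LinearMap.ker φ.toLinearMap), f2 (t, k) = t • e + (k : X) :=
    fun t k => rfl
  refine ContinuousLinearEquiv.equivOfInverse f1 f2 ?_ ?_
  · intro x
    rw [hf1, hf2]
    change φ x • e + Q x = x
    rw [hQ]; abel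
  · rintro ⟨t, k⟩
    have hk : φ (k : X) = 0 := k.2
    rw [hf2, hf1]
    have h1 : φ (t • e + (k : X)) = t := by
      rw [map_add, map_smul, hφe, hk, smul_eq_mul, mul_one, add_zero]
    ext
    · exact h1
    · change Q (t • e + (k : X)) = k
      rw [hQ, h1]; abel

end Vale.Agent.P084
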