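import Vale.Agent.P084.Face

namespace Vale.Agent.P084

open Metric Set

set_option linter.unusedSectionVars false

universe u v w

variable {ι : Type u} {Z : Type v} {W : Type w}
  [NormedAddCommGroup Z] [NormedSpace ℝ Z] [NormedAddCommGroup W] [NormedSpace ℝ W]

lemma extend_ball (G : Z → W) (h0 : G 0 = 0)
    (hmid : ∀ x y, ‖x‖ ≤ 1 → ‖y‖ ≤ 1 → G ((1 / 2 : ℝ) • (x + y)) = (1 / 2 : ℝ) • (G x + G y))
    (C : ℝ) (hC : ∀ x, ‖x‖ ≤ 1 → ‖G x‖ ≤ C * ‖x‖) :
    ∃ L : Z →L[ℝ] W, ∀ x, ‖x‖ ≤ 1 → L x = G x := by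
  set g : ℕ → Z → W := fun n x => (2 : ℝ) ^ n • G (((2 : ℝ) ^ n)⁻¹ • x) with hg
  have hpow : ∀ n : ℕ, (0 : ℝ) < 2 ^ n := fun n => by positivity
  have hsc : ∀ (n : ℕ) (x : Z), ‖x‖ ≤ 2 ^ n → ‖((2 : ℝ) ^ n)⁻¹ • x‖ ≤ 1 := by
    intro n x hx
    rw [norm_smul, norm_inv, Real.norm_of_nonneg (hpow n).le, inv_mul_le_iff₀ (hpow n), mul_one]
    exact hx
  have half : ∀ y : Z, ‖y‖ ≤ 1 → G ((1 / 2 : ℝ) • y) = (1 / 2 : ℝ) • G y := by
    intro y hy
    have := hmid y 0 hy (by simp)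
    rwa [add_zero, h0, add_zero] at this
  have step : ∀ (n : ℕ) (x : Z), ‖x‖ ≤ 2 ^ n → g (n + 1) x = g n x := by
    intro n x hx
    simp only [hg]
    have : ((2 : ℝ) ^ (n + 1))⁻¹ • x = (1 / 2 : ℝ) • (((2 : ℝ) ^ n)⁻¹ • x) := by
      rw [smul_smul, pow_succ, mul_inv]; congr 1; ring
    rw [this, half _ (hsc n x hx), smul_smul, pow_succ]
    congr 1; ring
  set N : Z → ℕ := fun x => ⌈‖x‖⌉₊ with hN
  have hNx : ∀ x : Z, ‖x‖ ≤ 2 ^ (N x) := by
    intro x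
    have h1 : ‖x‖ ≤ (N x : ℝ) := Nat.le_ceil _
    have h2 : ((N x : ℕ) : ℝ) ≤ 2 ^ (N x) := by exact_mod_cast (Nat.lt_two_pow_self).le
    linarith
  have hmono : ∀ (x : Z) (n : ℕ), N x ≤ n → ‖x‖ ≤ 2 ^ n := by
    intro x n hn
    refine le_trans (hNx x) ?_
    exact pow_le_pow_right₀ (by norm_num) hn
  have stab : ∀ (x : Z) (n : ℕ), N x ≤ n → g n x = g (N x) x := by
    intro x n hn
    induction n, hn using Nat.le_induction with
    | base => rfl
    | succ n hn ih => rw [step n x (hmono x n hn), ih]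
  have hadd : ∀ x y : Z, g (N (x + y)) (x + y) = g (N x) x + g (N y) y := by
    intro x y
    set n : ℕ := max (N x) (max (N y) (N (x + y))) with hn
    have h1 : N x ≤ n := le_max_left _ _
    have h2 : N y ≤ n := le_trans (le_max_left _ _) (le_max_right _ _)
    have h3 : N (x + y) ≤ n := le_trans (le_max_right _ _) (le_max_right _ _)
    rw [← stab x n h1, ← stab y n h2, ← stab (x + y) (n + 1) (by omega)]
    simp only [hg]
    have : ((2 : ℝ) ^ (n + 1))⁻¹ • (x + y) =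
        (1 / 2 : ℝ) • (((2 : ℝ) ^ n)⁻¹ • x + ((2 : ℝ) ^ n)⁻¹ • y) := by
      rw [← smul_add, smul_smul, pow_succ, mul_inv]; congr 1; ring
    rw [this, hmid _ _ (hsc n x (hmono x n h1)) (hsc n y (hmono y n h2)), smul_smul, pow_succ,
      smul_add]
    congr 1 <;> congr 1 <;> ring
  let A : Z →+ W := AddMonoidHom.mk' (fun x => g (N x) x) hadd
  have hbound : ∀ x : Z, ‖A x‖ ≤ C * ‖x‖ := by
    intro x
    change ‖g (N x) x‖ ≤ C * ‖x‖
    simp only [hg]
    rw [norm_smul, Real.norm_of_nonneg (hpow _).le]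
    have h1 := hC _ (hsc (N x) x (hNx x))
    rw [norm_smul, norm_inv, Real.norm_of_nonneg (hpow _).le] at h1
    calc 2 ^ N x * ‖G (((2 : ℝ) ^ N x)⁻¹ • x)‖ ≤ 2 ^ N x * (C * ((2 ^ N x)⁻¹ * ‖x‖)) :=
          mul_le_mul_of_nonneg_left h1 (hpow _).le
      _ = C * ‖x‖ := by field_simp
  have hcont : Continuous A := AddMonoidHomClass.continuous_of_bound A C hbound
  refine ⟨A.toRealLinearMap hcont, ?_⟩
  intro x hx
  change g (N x) x = G x
  have h1 : g 0 x = G x := by simp [hg]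
  rw [← h1]
  -- go down from N x to 0
  have : ∀ n : ℕ, g n x = g 0 x := by
    intro n
    induction n with
    | zero => rfl
    | succ n ih =>
      rw [step n x (le_trans hx (one_le_pow₀ (by norm_num))), ih]
  exact this _

end Vale.Agent.P084
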