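import Vale.Agent.P084.Core

namespace Vale.Agent.P084

open Metric Set

set_option linter.unusedSectionVars false

universe u v w

variable {ι : Type u} {Z : Type v} {W : Type w}
  [NormedAddCommGroup Z] [NormedSpace ℝ Z] [NormedAddCommGroup W] [NormedSpace ℝ W]

lemma doubling (C : Set Z) (hC : Convex ℝ C) (g : Z → W) {ε : ℝ} (hε : 0 < ε)
    (h : ∀ x ∈ C, ∀ y ∈ C, ‖x - y‖ ≤ ε → g ((1 / 2 : ℝ) • (x + y)) = (1 / 2 : ℝ) • (g x + g y)) :
    ∀ x ∈ C, ∀ y ∈ C, g ((1 / 2 : ℝ) • (x + y)) = (1 / 2 : ℝ) • (g x + g y) := by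
  have hmidC : ∀ x ∈ C, ∀ y ∈ C, (1 / 2 : ℝ) • (x + y) ∈ C := by
    intro x hx y hy
    have := hC hx hy (a := 1 / 2) (b := 1 / 2) (by norm_num) (by norm_num) (by norm_num)
    rwa [← smul_add] at this
  have key : ∀ n : ℕ, ∀ x ∈ C, ∀ y ∈ C, ‖x - y‖ ≤ 2 ^ n * ε →
      g ((1 / 2 : ℝ) • (x + y)) = (1 / 2 : ℝ) • (g x + g y) := by
    intro n
    induction n with
    | zero => intro x hx y hy hxy; exact h x hx y hy (by simpa using hxy)
    | succ n ih =>
      intro x hx y hy hxy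
      set m : Z := (1 / 2 : ℝ) • (x + y) with hm
      have hmC : m ∈ C := hmidC x hx y hy
      have hhalf : ‖(1 / 2 : ℝ) • (x - y)‖ ≤ 2 ^ n * ε := by
        rw [norm_smul, Real.norm_of_nonneg (by norm_num)]
        rw [pow_succ] at hxy
        linarith
      have d1 : ‖x - m‖ ≤ 2 ^ n * ε := by
        have : x - m = (1 / 2 : ℝ) • (x - y) := by rw [hm]; module
        rw [this]; exact hhalf
      have d2 : ‖m - y‖ ≤ 2 ^ n * ε := by
        have : m - y = (1 / 2 : ℝ) • (x - y) := by rw [hm]; module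
        rw [this]; exact hhalf
      have q1 := ih x hx m hmC d1
      have q3 := ih m hmC y hy d2
      have d3 : ‖(1 / 2 : ℝ) • (x + m) - (1 / 2 : ℝ) • (m + y)‖ ≤ 2 ^ n * ε := by
        have : (1 / 2 : ℝ) • (x + m) - (1 / 2 : ℝ) • (m + y) = (1 / 2 : ℝ) • (x - y) := by module
        rw [this]; exact hhalf
      have q2 := ih _ (hmidC x hx m hmC) _ (hmidC m hmC y hy) d3
      have e : (1 / 2 : ℝ) • ((1 / 2 : ℝ) • (x + m) + (1 / 2 : ℝ) • (m + y)) = m := by
        rw [hm]; module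
      rw [e, q1, q3] at q2
      have h3 : (2 : ℝ)⁻¹ • g m = (2 : ℝ)⁻¹ • ((1 / 2 : ℝ) • (g x + g y)) := by
        linear_combination (norm := module) q2
      exact smul_right_injective W (by norm_num) h3
  intro x hx y hy
  obtain ⟨n, hn⟩ := pow_unbounded_of_one_lt (‖x - y‖ / ε) (one_lt_two)
  refine key n x hx y hy ?_
  rw [div_lt_iff₀ hε] at hn
  exact hn.le

section face

variable (D : SupDecomp ι Z) {f : Z → W} (hf : SphIso f)
include D hf

lemma face_mid_gap (i : ι) {x1 x2 : Z} {δ : ℝ} (hδ : 0 < δ) (hu : ‖D.p i x1‖ = 1)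
    (hi : D.p i x1 = D.p i x2)
    (g1 : ∀ j, j ≠ i → ‖D.p j x1‖ ≤ 1 - δ) (g2 : ∀ j, j ≠ i → ‖D.p j x2‖ ≤ 1 - δ) :
    f ((1 / 2 : ℝ) • (x1 + x2)) = (1 / 2 : ℝ) • (f x1 + f x2) := by
  set C : Set Z := {x | D.p i x = D.p i x1 ∧ ∀ j, j ≠ i → ‖D.p j x‖ ≤ 1 - δ} with hCdef
  have hC : Convex ℝ C := by
    intro x hx y hy a b ha hb hab
    refine ⟨?_, ?_⟩
    · rw [map_add, map_smul, map_smul, hx.1, hy.1, ← add_smul, hab, one_smul]
    · intro j hj
      rw [map_add, map_smul, map_smul]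
      have h1 := norm_add_le (a • D.p j x) (b • D.p j y)
      rw [norm_smul, norm_smul, Real.norm_of_nonneg ha, Real.norm_of_nonneg hb] at h1
      have h2 := hx.2 j hj
      have h3 := hy.2 j hj
      have h4 : a * ‖D.p j x‖ ≤ a * (1 - δ) := mul_le_mul_of_nonneg_left h2 ha
      have h5 : b * ‖D.p j y‖ ≤ b * (1 - δ) := mul_le_mul_of_nonneg_left h3 hb
      have h6 : a * (1 - δ) + b * (1 - δ) = 1 - δ := by rw [← add_mul, hab, one_mul]
      linarith
  refine doubling C hC f hδ ?_ x1 ⟨rfl, g1⟩ x2 ⟨hi.symm, g2⟩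
  intro x hx y hy hxy
  have hux : ‖D.p i x‖ = 1 := by rw [hx.1, hu]
  have nx : ‖x‖ = 1 := D.norm_eq_one i hux (fun j hj => by have := hx.2 j hj; linarith)
  have ny : ‖y‖ = 1 := D.norm_eq_one i (by rw [hy.1, hu])
    (fun j hj => by have := hy.2 j hj; linarith)
  have hxy2 : ‖x + y‖ = 2 := by
    apply le_antisymm
    · have := norm_add_le x y; linarith
    · have h1 := D.le i (x + y)
      rw [map_add, hx.1, hy.1] at h1
      have : D.p i x1 + D.p i x1 = (2 : ℝ) • D.p i x1 := by module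
      rw [this, norm_smul, hu] at h1
      norm_num at h1
      exact h1
  obtain ⟨q, hq, hfq, hmid⟩ := mid_exists D hf nx ny hxy2
  have := local_mid D i hδ hux (by rw [hx.1, hy.1]) hx.2 hy.2 hxy hq hmid
  rw [← this, hfq]

lemma face_mid (i : ι) {x1 x2 : Z} (n1 : ‖x1‖ = 1) (n2 : ‖x2‖ = 1) (hu : ‖D.p i x1‖ = 1)
    (hi : D.p i x1 = D.p i x2) :
    f ((1 / 2 : ℝ) • (x1 + x2)) = (1 / 2 : ℝ) • (f x1 + f x2) := by
  apply eq_of_forall_norm_le
  intro ε hε hε1
  set η : ℝ := ε / 2 with hη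
  have hη0 : 0 < η := by positivity
  have hη1 : η < 1 := by linarith
  set u : Z := D.p i x1 with hudef
  have hpu : D.p i u = u := D.idem i x1
  -- shrink
  have hshr : ∀ x : Z, ‖x‖ = 1 → D.p i x = u →
      (D.p i ((1 - η) • x + η • u) = u ∧ (∀ j, j ≠ i → ‖D.p j ((1 - η) • x + η • u)‖ ≤ 1 - η) ∧
        ‖(1 - η) • x + η • u‖ = 1 ∧ ‖x - ((1 - η) • x + η • u)‖ ≤ η) := by
    intro x nx hx
    have a1 : D.p i ((1 - η) • x + η • u) = u := by
      rw [map_add, map_smul, map_smul, hx, hpu]; module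
    have a2 : ∀ j, j ≠ i → ‖D.p j ((1 - η) • x + η • u)‖ ≤ 1 - η := by
      intro j hj
      rw [map_add, map_smul, map_smul, hudef, D.orth j i x1 hj, smul_zero, add_zero, norm_smul,
        Real.norm_of_nonneg (by linarith)]
      have := D.le j x
      rw [nx] at this
      nlinarith
    refine ⟨a1, a2, D.norm_eq_one i (by rw [a1]; exact hu) (fun j hj => by
      have := a2 j hj; linarith), ?_⟩
    have : x - ((1 - η) • x + η • u) = η • (x - D.p i x) := by rw [hx]; module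
    rw [this, norm_smul, Real.norm_of_nonneg hη0.le]
    have := D.norm_sub_proj_le i x
    rw [nx] at this
    nlinarith
  set m : Z := (1 / 2 : ℝ) • (x1 + x2) with hm
  have hmi : D.p i m = u := by
    rw [hm, map_smul, map_add, ← hi]; module
  have nm : ‖m‖ = 1 := by
    apply le_antisymm
    · rw [hm, norm_smul, Real.norm_of_nonneg (by norm_num)]
      have := norm_add_le x1 x2
      linarith
    · have := D.le i m
      rw [hmi, hu] at this
      exact this
  obtain ⟨a1, a2, a3, a4⟩ := hshr x1 n1 rfl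
  obtain ⟨b1, b2, b3, b4⟩ := hshr x2 n2 hi.symm
  obtain ⟨c1, c2, c3, c4⟩ := hshr m nm hmi
  have hgm := face_mid_gap D hf i hη0 (by rw [a1]; exact hu) (by rw [a1, b1]) a2 b2
  have hmm : (1 / 2 : ℝ) • ((1 - η) • x1 + η • u + ((1 - η) • x2 + η • u)) = (1 - η) • m + η • u := by
    rw [hm]; module
  rw [hmm] at hgm
  have e1 := hf.iso x1 _ n1 a3
  have e2 := hf.iso x2 _ n2 b3
  have e3 := hf.iso m _ nm c3
  have : f m - (1 / 2 : ℝ) • (f x1 + f x2) =
      (f m - f ((1 - η) • m + η • u)) - (1 / 2 : ℝ) • (f x1 - f ((1 - η) • x1 + η • u))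
        - (1 / 2 : ℝ) • (f x2 - f ((1 - η) • x2 + η • u)) := by
    rw [hgm]; module
  rw [this]
  have t1 := norm_sub_le ((f m - f ((1 - η) • m + η • u)) -
    (1 / 2 : ℝ) • (f x1 - f ((1 - η) • x1 + η • u)))
    ((1 / 2 : ℝ) • (f x2 - f ((1 - η) • x2 + η • u)))
  have t2 := norm_sub_le (f m - f ((1 - η) • m + η • u))
    ((1 / 2 : ℝ) • (f x1 - f ((1 - η) • x1 + η • u)))
  rw [norm_smul, Real.norm_of_nonneg (by norm_num)] at t1 t2
  rw [e2] at t1
  rw [e1, e3] at t2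
  linarith

end face

end Vale.Agent.P084
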