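import Vale.Agent.P084.Sc1

namespace Vale.Agent.P084

open Metric Set

set_option linter.unusedSectionVars false

universe v w

section gen

variable {W : Type w} [NormedAddCommGroup W] [NormedSpace ℝ W]

/-- the norm is additive on the cone spanned by two unit vectors lying in a common face -/
lemma norm_comb_of_flat {p q : W} (hp : ‖p‖ = 1) (hq : ‖q‖ = 1) (hpq : ‖p + q‖ = 2)
    {α β : ℝ} (hα : 0 ≤ α) (hβ : 0 ≤ β) : ‖α • p + β • q‖ = α + β := by
  rcases hα.eq_or_lt with h | h
  · rw [← h, zero_smul, zero_add, zero_add, norm_smul, hq, mul_one, Real.norm_of_nonneg hβ]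
  · have e : α • p + β • q = α • (p + (β / α) • q) := by
      rw [smul_add, smul_smul, mul_div_cancel₀ _ h.ne']
    rw [e, norm_smul, norm_add_smul_of_flat hp hq hpq (by positivity), Real.norm_of_nonneg hα]
    field_simp

/-- if some proper convex combination of two unit vectors is a unit vector, they lie in a common
face -/
lemma flat_of_comb {p q : W} (hp : ‖p‖ = 1) (hq : ‖q‖ = 1) {l : ℝ} (h0 : 0 < l) (h1 : l < 1)
    (h : ‖(1 - l) • p + l • q‖ = 1) : ‖p + q‖ = 2 := by
  apply le_antisymm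
  · have := norm_add_le p q
    linarith
  · by_contra hlt
    rw [not_le] at hlt
    rcases le_total l (1 / 2) with hl | hl
    · have e : (1 - l) • p + l • q = (1 - 2 * l) • p + l • (p + q) := by module
      have h2 := norm_add_le ((1 - 2 * l) • p) (l • (p + q))
      rw [← e, h, norm_smul, norm_smul, hp, Real.norm_of_nonneg (by linarith),
        Real.norm_of_nonneg h0.le] at h2
      nlinarith
    · have e : (1 - l) • p + l • q = (2 * l - 1) • q + (1 - l) • (p + q) := by module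
      have h2 := norm_add_le ((2 * l - 1) • q) ((1 - l) • (p + q))
      rw [← e, h, norm_smul, norm_smul, hq, Real.norm_of_nonneg (by linarith),
        Real.norm_of_nonneg (by linarith)] at h2
      nlinarith

end gen

section ball

variable {F : Type v} [NormedAddCommGroup F] [NormedSpace ℝ F]

/-- Mankiewicz theorem for the unit ball: a surjective isometry of the closed unit ball onto
itself fixing the origin is the restriction of a linear isometry -/
theorem ball_iso_linear (Ξ : F → F) (h0 : Ξ 0 = 0)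
    (hiso : ∀ u u', ‖u‖ ≤ 1 → ‖u'‖ ≤ 1 → ‖Ξ u - Ξ u'‖ = ‖u - u'‖)
    (hsurj : ∀ w, ‖w‖ ≤ 1 → ∃ u, ‖u‖ ≤ 1 ∧ Ξ u = w) :
    ∃ U : F →L[ℝ] F, (∀ u, ‖u‖ ≤ 1 → Ξ u = U u) ∧ ∀ u, ‖U u‖ = ‖u‖ := by
  have hn : ∀ u, ‖u‖ ≤ 1 → ‖Ξ u‖ = ‖u‖ := by
    intro u hu
    have := hiso u 0 hu (by simp)
    rwa [h0, sub_zero, sub_zero] at this
  have hloc : ∀ η : ℝ, 0 < η → ∀ a ∈ closedBall (0 : F) (1 - η), ∀ b ∈ closedBall (0 : F) (1 - η),
      ‖a - b‖ ≤ η / 2 → Ξ ((1 / 2 : ℝ) • (a + b)) = (1 / 2 : ℝ) • (Ξ a + Ξ b) := by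
    intro η hη a ha b hb hab
    rw [mem_closedBall_zero_iff] at ha hb
    set r : ℝ := η / 2 with hr
    set S : Set F := {x | ‖x - a‖ ≤ r ∧ ‖x - b‖ ≤ r} with hS
    have hSn : ∀ x ∈ S, ‖x‖ ≤ 1 := by
      intro x hx
      have := norm_add_le (x - a) a
      rw [sub_add_cancel] at this
      linarith [hx.1]
    have ha1 : ‖a‖ ≤ 1 := by linarith
    have hb1 : ‖b‖ ≤ 1 := by linarith
    apply local_mid_abs Ξ S
    · exact ⟨by rw [sub_self, norm_zero]; positivity, hab⟩
    · exact ⟨by rw [norm_sub_rev]; exact hab, by rw [sub_self, norm_zero]; positivity⟩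
    · constructor
      · have : (1 / 2 : ℝ) • (a + b) - a = (-(1 / 2) : ℝ) • (a - b) := by module
        rw [this, norm_smul, Real.norm_eq_abs, abs_neg, abs_of_nonneg (by norm_num)]
        linarith [norm_nonneg (a - b)]
      · have : (1 / 2 : ℝ) • (a + b) - b = (1 / 2 : ℝ) • (a - b) := by module
        rw [this, norm_smul, Real.norm_eq_abs, abs_of_nonneg (by norm_num)]
        linarith [norm_nonneg (a - b)]
    · intro x hx y hy
      exact hiso x y (hSn x hx) (hSn y hy)
    · intro x hx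
      constructor
      · have : a + b - x - a = -(x - b) := by abel
        rw [this, norm_neg]; exact hx.2
      · have : a + b - x - b = -(x - a) := by abel
        rw [this, norm_neg]; exact hx.1
    · intro x hx
      have hx1 := hSn x hx
      have hq : ‖Ξ a + Ξ b - Ξ x‖ ≤ 1 := by
        have e : Ξ a + Ξ b - Ξ x = Ξ a + (Ξ b - Ξ x) := by abel
        have := norm_add_le (Ξ a) (Ξ b - Ξ x)
        rw [← e, hn a ha1, hiso b x hb1 hx1, norm_sub_rev b x] at this
        linarith [hx.2]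
      obtain ⟨p, hp, hpq⟩ := hsurj _ hq
      refine ⟨p, ⟨?_, ?_⟩, hpq⟩
      · rw [← hiso p a hp ha1, hpq]
        have : Ξ a + Ξ b - Ξ x - Ξ a = Ξ b - Ξ x := by abel
        rw [this, hiso b x hb1 hx1, norm_sub_rev]; exact hx.2
      · rw [← hiso p b hp hb1, hpq]
        have : Ξ a + Ξ b - Ξ x - Ξ b = Ξ a - Ξ x := by abel
        rw [this, hiso a x ha1 hx1, norm_sub_rev]; exact hx.1
  have hmid : ∀ u u', ‖u‖ < 1 → ‖u'‖ < 1 →
      Ξ ((1 / 2 : ℝ) • (u + u')) = (1 / 2 : ℝ) • (Ξ u + Ξ u') := by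
    intro ua ub ha hb
    set δ : ℝ := 1 - max ‖ua‖ ‖ub‖ with hδ
    have hδ0 : 0 < δ := by
      have := max_lt ha hb
      linarith
    have h := doubling (closedBall (0 : F) (1 - δ)) (convex_closedBall _ _) Ξ (ε := δ / 2)
      (by positivity) (hloc δ hδ0)
    apply h
    · rw [mem_closedBall_zero_iff, hδ]
      have := le_max_left ‖ua‖ ‖ub‖
      linarith
    · rw [mem_closedBall_zero_iff, hδ]
      have := le_max_right ‖ua‖ ‖ub‖
      linarith
  obtain ⟨A, hA1, hA2⟩ := slice_affine Ξ hiso hmid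
  refine ⟨A, ?_, hA2⟩
  intro u hu
  rw [hA1 u hu, h0, zero_add]

/-- the identity is not a proper convex combination of isometries, in the form needed here -/
theorem iso_eq_id (U : F →L[ℝ] F) (hU : ∀ x, ‖U x‖ = ‖x‖) {l : ℝ} (h0 : 0 < l) (h1 : l < 1)
    (h : ∀ v, ‖v - l • U v‖ = (1 - l) * ‖v‖) : ∀ v, U v = v := by
  -- one step
  have step : ∀ (V : F →L[ℝ] F) (m : ℝ), (∀ x, ‖V x‖ = ‖x‖) → 0 < m → m < 1 →
      (∀ v, ‖v - m • V v‖ = (1 - m) * ‖v‖) →
      (∀ v, ‖v - (m * m) • V (V v)‖ = (1 - m * m) * ‖v‖) ∧ (∀ x, ‖x + V x‖ = 2 * ‖x‖) := by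
    intro V m hV hm0 hm1 hP
    have key : ∀ x, ‖x + m • V x‖ = (1 + m) * ‖x‖ ∧
        ‖x - (m * m) • V (V x)‖ = (1 - m * m) * ‖x‖ := by
      intro x
      have e : (x + m • V x) - m • V (x + m • V x) = x - (m * m) • V (V x) := by
        rw [map_add, map_smul, smul_add, smul_smul]; abel
      have h2 := hP (x + m • V x)
      rw [e] at h2
      have h3 : (1 - m * m) * ‖x‖ ≤ ‖x - (m * m) • V (V x)‖ := by
        have := norm_sub_norm_le x ((m * m) • V (V x))
        rw [norm_smul, hV, hV, Real.norm_of_nonneg (by positivity)] at this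
        linarith
      have h4 : ‖x + m • V x‖ ≤ (1 + m) * ‖x‖ := by
        have := norm_add_le x (m • V x)
        rw [norm_smul, hV, Real.norm_of_nonneg hm0.le] at this
        linarith
      have h5 : (1 - m) * ‖x + m • V x‖ ≤ (1 - m) * ((1 + m) * ‖x‖) :=
        mul_le_mul_of_nonneg_left h4 (by linarith)
      have h6 : (1 - m) * ((1 + m) * ‖x‖) = (1 - m * m) * ‖x‖ := by ring
      constructor
      · have h7 : (1 - m) * ((1 + m) * ‖x‖) ≤ (1 - m) * ‖x + m • V x‖ := by linarith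
        exact le_antisymm h4 (le_of_mul_le_mul_left h7 (by linarith))
      · linarith
    refine ⟨fun v => (key v).2, ?_⟩
    intro x
    apply le_antisymm
    · have := norm_add_le x (V x)
      rw [hV] at this; linarith
    · have e : x + m • V x = m • (x + V x) + (1 - m) • x := by module
      have h2 := norm_add_le (m • (x + V x)) ((1 - m) • x)
      rw [← e, (key x).1, norm_smul, norm_smul, Real.norm_of_nonneg hm0.le,
        Real.norm_of_nonneg (by linarith)] at h2
      have h3 : m * (2 * ‖x‖) ≤ m * ‖x + V x‖ := by linarith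
      exact le_of_mul_le_mul_left h3 hm0
  have ind : ∀ n : ℕ, ∃ (V : F →L[ℝ] F) (m : ℝ), (∀ x, ‖V x‖ = ‖x‖) ∧ 0 < m ∧ m < 1 ∧
      (∀ v, ‖v - m • V v‖ = (1 - m) * ‖v‖) ∧ ∀ v, ‖v - V v‖ = 2 ^ n * ‖v - U v‖ := by
    intro n
    induction n with
    | zero => exact ⟨U, l, hU, h0, h1, h, fun v => by simp⟩
    | succ n ih =>
      obtain ⟨V, m, hV, hm0, hm1, hP, hD⟩ := ih
      obtain ⟨s1, s2⟩ := step V m hV hm0 hm1 hP
      refine ⟨V.comp V, m * m, fun x => by simp [hV], by positivity, by nlinarith, s1, ?_⟩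
      intro v
      have e : v - (V.comp V) v = (v - V v) + V (v - V v) := by
        rw [map_sub]; simp
      rw [e, s2, hD, pow_succ]; ring
  intro v
  by_contra hne
  have hpos : 0 < ‖v - U v‖ := norm_pos_iff.mpr (sub_ne_zero.mpr (Ne.symm hne))
  obtain ⟨n, hn⟩ := pow_unbounded_of_one_lt (2 * ‖v‖ / ‖v - U v‖) (one_lt_two)
  obtain ⟨V, m, hV, -, -, -, hD⟩ := ind n
  have h2 := norm_sub_le v (V v)
  rw [hD, hV] at h2
  rw [div_lt_iff₀ hpos] at hn
  linarith

end ball

end Vale.Agent.P084
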