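import Vale.Agent.P084.L1a

namespace Vale.Agent.P084

open Metric Set

set_option linter.unusedSectionVars false

universe v w

variable {F : Type v} {W : Type w}
  [NormedAddCommGroup F] [NormedSpace ℝ F] [NormedAddCommGroup W] [NormedSpace ℝ W]

/-- the point `(t, u)` of the `ℓ₁`-sum of the real line and `F` -/
def mk1 (t : ℝ) (u : F) : WithLp 1 (ℝ × F) := WithLp.toLp 1 (t, u)

lemma nrm1 (t : ℝ) (u : F) : ‖mk1 t u‖ = |t| + ‖u‖ := by
  rw [WithLp.prod_norm_eq_of_L1]; rfl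

lemma mk1_sub (t t' : ℝ) (u u' : F) : mk1 t u - mk1 t' u' = mk1 (t - t') (u - u') := rfl

lemma mk1_eta (z : WithLp 1 (ℝ × F)) : z = mk1 z.fst z.snd := rfl

lemma mk1_smul (c t : ℝ) (u : F) : c • mk1 t u = mk1 (c * t) (c • u) := rfl

lemma mk1_neg (t : ℝ) (u : F) : - mk1 t u = mk1 (-t) (-u) := rfl

lemma n_apex : ‖mk1 (1 : ℝ) (0 : F)‖ = 1 := by rw [nrm1]; simp

lemma n_up {v : F} (hv : ‖v‖ ≤ 1) : ‖mk1 (1 - ‖v‖) v‖ = 1 := by
  rw [nrm1, abs_of_nonneg (by linarith)]; ring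

/-- the upper hemisphere parametrised by the unit ball of `F` -/
def gup (f : WithLp 1 (ℝ × F) → W) (v : F) : W := f (mk1 (1 - ‖v‖) v)

lemma gup_zero (f : WithLp 1 (ℝ × F) → W) : gup f 0 = f (mk1 1 0) := by
  simp [gup]

section

variable {f : WithLp 1 (ℝ × F) → W} (hf : SphIso f)
include hf

lemma n_gup {v : F} (hv : ‖v‖ ≤ 1) : ‖gup f v‖ = 1 := hf.norm _ (n_up hv)

lemma dist_up {v w : F} (hv : ‖v‖ ≤ 1) (hw : ‖w‖ ≤ 1) :
    ‖gup f v - gup f w‖ = |‖v‖ - ‖w‖| + ‖v - w‖ := by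
  rw [gup, gup, hf.iso _ _ (n_up hv) (n_up hw), mk1_sub, nrm1]
  congr 1
  rw [abs_sub_comm]
  congr 1
  ring

lemma dist_apex {v : F} (hv : ‖v‖ ≤ 1) : ‖gup f v - f (mk1 1 0)‖ = 2 * ‖v‖ := by
  rw [← gup_zero f, dist_up hf hv (by simp), norm_zero, sub_zero, sub_zero,
    abs_of_nonneg (norm_nonneg _)]
  ring

lemma up_flat_open {t : ℝ} {u : F} (ht : 0 < t) (h1 : t + ‖u‖ = 1) :
    ‖f (mk1 t u) + f (mk1 1 0)‖ = 2 := by
  have nx : ‖mk1 t u‖ = 1 := by rw [nrm1, abs_of_pos ht]; exact h1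
  obtain ⟨z, hz, hfz⟩ := hf.surj (- f (mk1 t u)) (by rw [norm_neg]; exact hf.norm _ nx)
  have h2 := hf.anti_two nx hz hfz
  obtain ⟨tz, uz, rfl⟩ : ∃ tz uz, z = mk1 tz uz := ⟨z.fst, z.snd, rfl⟩
  have hz' := hz
  rw [mk1_sub, nrm1] at h2
  rw [nrm1] at hz
  have h3 : ‖uz - u‖ ≤ ‖uz‖ + ‖u‖ := norm_sub_le _ _
  have h4 : tz ≤ 0 := by
    by_contra hpos
    rw [not_le] at hpos
    have : |tz - t| < |tz| + t := by
      rw [abs_of_pos hpos, abs_lt]; constructor <;> linarith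
    linarith
  have e : f (mk1 t u) + f (mk1 1 0) = f (mk1 1 0) - f (mk1 tz uz) := by rw [hfz]; abel
  rw [e, hf.iso _ _ n_apex hz', mk1_sub, nrm1, zero_sub, norm_neg, abs_of_nonneg (by linarith)]
  rw [abs_of_nonpos h4] at hz
  linarith

lemma up_flat {v : F} (hv : ‖v‖ ≤ 1) : ‖gup f v + f (mk1 1 0)‖ = 2 := by
  rcases lt_or_eq_of_le hv with h | h
  · exact up_flat_open hf (by linarith) (by ring)
  · apply le_antisymm
    · have := norm_add_le (gup f v) (f (mk1 1 0))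
      rw [n_gup hf hv, hf.norm _ n_apex] at this; linarith
    · apply le_of_forall_pos_le_add
      intro ε hε
      set μ : ℝ := min (ε / 2) (1 / 2) with hμ
      have hμ0 : 0 < μ := lt_min (by positivity) (by norm_num)
      have hμ1 : μ ≤ 1 / 2 := min_le_right _ _
      have hμ2 : μ ≤ ε / 2 := min_le_left _ _
      have hwn : ‖(1 - μ) • v‖ = 1 - μ := by
        rw [norm_smul, h, mul_one, Real.norm_of_nonneg (by linarith)]
      have h1 : ‖gup f ((1 - μ) • v) + f (mk1 1 0)‖ = 2 :=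
        up_flat_open hf (by rw [hwn]; linarith) (by ring)
      have h2 := dist_up hf hv (by rw [hwn]; linarith : ‖(1 - μ) • v‖ ≤ 1)
      have e1 : v - (1 - μ) • v = μ • v := by module
      rw [hwn, h, e1, norm_smul, h, mul_one, Real.norm_of_nonneg hμ0.le,
        abs_of_nonneg (by linarith)] at h2
      have e2 : gup f ((1 - μ) • v) + f (mk1 1 0)
          = (gup f v + f (mk1 1 0)) - (gup f v - gup f ((1 - μ) • v)) := by abel
      have h3 := norm_sub_le (gup f v + f (mk1 1 0)) (gup f v - gup f ((1 - μ) • v))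
      rw [← e2, h1, h2] at h3
      linarith

lemma neg_apex : f (mk1 (-1) 0) = - f (mk1 1 0) := by
  obtain ⟨b, hb, hfb⟩ := hf.surj (- f (mk1 1 0)) (by rw [norm_neg]; exact hf.norm _ n_apex)
  obtain ⟨tb, ub, rfl⟩ : ∃ tb ub, b = mk1 tb ub := ⟨b.fst, b.snd, rfl⟩
  have h2 := hf.anti_two n_apex hb hfb
  have hb' := hb
  rw [mk1_sub, nrm1, sub_zero] at h2
  rw [nrm1] at hb
  have htb : tb ≤ 0 := by
    by_contra hpos
    rw [not_le] at hpos
    rw [abs_of_pos hpos] at hb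
    have : |tb - 1| = 1 - tb := by
      rw [abs_sub_comm, abs_of_nonneg (by linarith [norm_nonneg ub])]
    linarith
  rw [abs_of_nonpos htb] at hb
  have hub : ub = 0 := by
    by_contra hne
    have hpos : 0 < ‖ub‖ := norm_pos_iff.mpr hne
    set μ : ℝ := ‖ub‖ with hμ
    set x : F := ((1 / 2 : ℝ) / μ) • ub with hx
    have hxn : ‖x‖ = 1 / 2 := by
      rw [hx, norm_smul, Real.norm_of_nonneg (by positivity), ← hμ, div_mul_cancel₀ _ hpos.ne']
    have nx : ‖mk1 (1 / 2 : ℝ) x‖ = 1 := by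
      rw [nrm1, hxn, abs_of_pos (by norm_num)]; norm_num
    have h3 := up_flat_open hf (t := 1 / 2) (u := x) (by norm_num) (by rw [hxn]; norm_num)
    have e : f (mk1 (1 / 2) x) + f (mk1 1 0) = f (mk1 (1 / 2) x) - f (mk1 tb ub) := by
      rw [hfb]; abel
    rw [e, hf.iso _ _ nx hb', mk1_sub, nrm1, abs_of_nonneg (by linarith)] at h3
    have e2 : x - ub = ((1 / 2 : ℝ) / μ - 1) • ub := by rw [hx]; module
    have h4 : ‖x - ub‖ = |1 / 2 - μ| := by
      rw [e2, norm_smul, ← hμ, Real.norm_eq_abs]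
      have : |1 / 2 / μ - 1| * μ = |(1 / 2 / μ - 1) * μ| := by
        rw [abs_mul, abs_of_pos hpos]
      rw [this]
      congr 1
      field_simp
    rw [h4] at h3
    rcases abs_cases (1 / 2 - μ) with ⟨h5, -⟩ | ⟨h5, -⟩ <;> rw [h5] at h3 <;> linarith
  rw [hub, norm_zero] at hb
  have : tb = -1 := by linarith
  rw [← hfb, this, hub]

lemma pos_of_lt_two {t : ℝ} {u : F} (h : |t| + ‖u‖ = 1)
    (hlt : ‖f (mk1 t u) - f (mk1 1 0)‖ < 2) : 0 < t := by
  by_contra hle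
  rw [not_lt] at hle
  rw [hf.iso _ _ (by rw [nrm1]; exact h) n_apex, mk1_sub, nrm1, sub_zero,
    abs_of_nonpos (by linarith)] at hlt
  rw [abs_of_nonpos hle] at h
  linarith

lemma nonneg_of_flat {t : ℝ} {u : F} (h : |t| + ‖u‖ = 1)
    (hfl : ‖f (mk1 t u) + f (mk1 1 0)‖ = 2) : 0 ≤ t := by
  by_contra hlt
  rw [not_le] at hlt
  have e : f (mk1 t u) + f (mk1 1 0) = f (mk1 t u) - f (mk1 (-1) 0) := by
    rw [neg_apex hf]; abel
  have hn : ‖mk1 (-1 : ℝ) (0 : F)‖ = 1 := by rw [nrm1]; simp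
  rw [e, hf.iso _ _ (by rw [nrm1]; exact h) hn, mk1_sub, nrm1, sub_zero, sub_neg_eq_add] at hfl
  rw [abs_of_neg hlt] at h
  have h1 : -1 ≤ t := by linarith [norm_nonneg u]
  rw [abs_of_nonneg (by linarith)] at hfl
  linarith

/-- every unit vector of the target at distance `< 2` from the apex is some `gup f v` -/
lemma exists_gup_of_lt {y : W} (hy : ‖y‖ = 1) (hlt : ‖y - f (mk1 1 0)‖ < 2) :
    ∃ v : F, ‖v‖ < 1 ∧ gup f v = y := by
  obtain ⟨z, hz, hzy⟩ := hf.surj y hy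
  obtain ⟨t, u, rfl⟩ : ∃ t u, z = mk1 t u := ⟨z.fst, z.snd, rfl⟩
  rw [nrm1] at hz
  rw [← hzy] at hlt
  have ht := pos_of_lt_two hf hz hlt
  rw [abs_of_pos ht] at hz
  refine ⟨u, by linarith, ?_⟩
  rw [gup, ← hzy]
  congr 2
  linarith

lemma exists_gup_of_flat {y : W} (hy : ‖y‖ = 1) (hfl : ‖y + f (mk1 1 0)‖ = 2) :
    ∃ v : F, ‖v‖ ≤ 1 ∧ gup f v = y := by
  obtain ⟨z, hz, hzy⟩ := hf.surj y hy
  obtain ⟨t, u, rfl⟩ : ∃ t u, z = mk1 t u := ⟨z.fst, z.snd, rfl⟩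
  rw [nrm1] at hz
  rw [← hzy] at hfl
  have ht := nonneg_of_flat hf hz hfl
  rw [abs_of_nonneg ht] at hz
  refine ⟨u, by linarith, ?_⟩
  rw [gup, ← hzy]
  congr 2
  linarith

end

end Vale.Agent.P084
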