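import Vale.Agent.P084.L1b

namespace Vale.Agent.P084

open Metric Set

set_option linter.unusedSectionVars false

universe v w

variable {F : Type v} {W : Type w}
  [NormedAddCommGroup F] [NormedSpace ℝ F] [NormedAddCommGroup W] [NormedSpace ℝ W]

section

variable {f : WithLp 1 (ℝ × F) → W} (hf : SphIso f)
include hf

lemma gup_inj {v w : F} (hv : ‖v‖ ≤ 1) (hw : ‖w‖ ≤ 1) (h : gup f v = gup f w) : v = w := by
  have h1 := dist_up hf hv hw
  rw [h, sub_self, norm_zero] at h1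
  have h2 : ‖v - w‖ = 0 := by
    have h3 := abs_nonneg (‖v‖ - ‖w‖)
    have h4 := norm_nonneg (v - w)
    linarith
  exact sub_eq_zero.mp (norm_eq_zero.mp h2)

/-- one step of the continuation argument along the ray from the apex through `gup f u` -/
lemma ray_step {u : F} {τ0 τ : ℝ} (hu : ‖u‖ ≤ 1) (h1 : 1 ≤ τ) (h01 : τ0 ≤ τ)
    (hτ0 : ‖f (mk1 1 0) + τ0 • (gup f u - f (mk1 1 0))‖ = 1)
    (hlt : ‖u‖ * (2 * τ - τ0) < 1) :
    ‖f (mk1 1 0) + τ • (gup f u - f (mk1 1 0))‖ = 1 := by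
  obtain ⟨a', ha'⟩ : ∃ a', a' = f (mk1 1 0) := ⟨_, rfl⟩
  rw [← ha'] at hτ0 ⊢
  obtain ⟨p, hp⟩ : ∃ p, p = a' + τ • (gup f u - a') := ⟨_, rfl⟩
  rw [← hp]
  have na : ‖a'‖ = 1 := by rw [ha']; exact hf.norm _ n_apex
  have ng : ‖gup f u‖ = 1 := n_gup hf hu
  have hd : ‖gup f u - a'‖ = 2 * ‖u‖ := by rw [ha']; exact dist_apex hf hu
  obtain ⟨ν, hν⟩ : ∃ ν, ν = ‖p‖ := ⟨_, rfl⟩
  rw [← hν]
  have hν1 : 1 ≤ ν := by
    have e : τ • gup f u = p + (τ - 1) • a' := by rw [hp]; module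
    have h2 := norm_add_le p ((τ - 1) • a')
    rw [← e, norm_smul, norm_smul, ng, na, Real.norm_of_nonneg (by linarith),
      Real.norm_of_nonneg (by linarith), ← hν] at h2
    linarith
  have hν2 : ν ≤ 1 + 2 * (τ - τ0) * ‖u‖ := by
    have e : p = (a' + τ0 • (gup f u - a')) + (τ - τ0) • (gup f u - a') := by rw [hp]; module
    have h2 := norm_add_le (a' + τ0 • (gup f u - a')) ((τ - τ0) • (gup f u - a'))
    rw [← e, hτ0, norm_smul, hd, Real.norm_of_nonneg (by linarith), ← hν] at h2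
    linarith
  have hνpos : 0 < ν := by linarith
  obtain ⟨y, hy⟩ : ∃ y, y = ν⁻¹ • p := ⟨_, rfl⟩
  have ny : ‖y‖ = 1 := by
    rw [hy, norm_smul, norm_inv, Real.norm_of_nonneg hνpos.le, ← hν, inv_mul_cancel₀ hνpos.ne']
  have hpy : p = ν • y := by rw [hy, smul_smul, mul_inv_cancel₀ hνpos.ne', one_smul]
  have hya : ‖y - a'‖ < 2 := by
    have e : y - a' = (1 - ν) • y + τ • (gup f u - a') := by
      have : τ • (gup f u - a') = ν • y - a' := by rw [← hpy, hp]; abel
      rw [this]; module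
    have h2 := norm_add_le ((1 - ν) • y) (τ • (gup f u - a'))
    rw [← e, norm_smul, norm_smul, hd, ny, Real.norm_of_nonneg (by linarith : 0 ≤ τ),
      Real.norm_eq_abs, abs_of_nonpos (by linarith)] at h2
    nlinarith
  obtain ⟨v, hv, hgv⟩ := exists_gup_of_lt hf ny (by rw [← ha']; exact hya)
  have hfl : ‖y + a'‖ = 2 := by rw [← hgv, ha']; exact up_flat hf hv.le
  have e : τ • gup f u = ν • y + (τ - 1) • a' := by rw [← hpy, hp]; module
  have h3 := norm_comb_of_flat ny na hfl hνpos.le (by linarith : 0 ≤ τ - 1)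
  rw [← e, norm_smul, ng, Real.norm_of_nonneg (by linarith), mul_one] at h3
  linarith

/-- the ray from the apex through `gup f u` stays on the sphere as long as it should -/
lemma ray {u : F} {b : ℝ} (hu : ‖u‖ ≤ 1) (hb : ‖u‖ * b ≤ 1) {τ : ℝ} (h1 : 1 ≤ τ) (hτ : τ ≤ b) :
    ‖f (mk1 1 0) + τ • (gup f u - f (mk1 1 0))‖ = 1 := by
  by_cases hu0 : u = 0
  · rw [hu0, gup_zero, sub_self, smul_zero, add_zero]; exact hf.norm _ n_apex
  have hμ : 0 < ‖u‖ := norm_pos_iff.mpr hu0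
  set s : Set ℝ := {τ | ‖f (mk1 1 0) + τ • (gup f u - f (mk1 1 0))‖ = 1} with hs
  have hcl : IsClosed s := isClosed_eq (by fun_prop) continuous_const
  have hsub : Icc 1 b ⊆ s := by
    apply IsClosed.Icc_subset_of_forall_exists_gt (hcl.inter isClosed_Icc)
    · change ‖f (mk1 1 0) + (1 : ℝ) • (gup f u - f (mk1 1 0))‖ = 1
      rw [one_smul, add_sub_cancel]; exact n_gup hf hu
    · rintro x ⟨hxs, hx1, hxb⟩ y hy
      have hy' : x < y := hy
      have hδ : 0 < min (y - x) ((b - x) / 3) := lt_min (by linarith) (by linarith)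
      have hδ1 : min (y - x) ((b - x) / 3) ≤ y - x := min_le_left _ _
      have hδ2 : min (y - x) ((b - x) / 3) ≤ (b - x) / 3 := min_le_right _ _
      refine ⟨x + min (y - x) ((b - x) / 3), ?_, ?_, ?_⟩
      · apply ray_step hf hu (by linarith) (by linarith) hxs
        nlinarith
      · linarith
      · linarith
  exact hsub ⟨h1, hτ⟩

/-- the homothety formula on the upper hemisphere -/
lemma gup_smul {l : ℝ} (h0 : 0 < l) (h1 : l < 1) {v : F} (hv : ‖v‖ ≤ 1) :
    gup f (l • v) = (1 - l) • f (mk1 1 0) + l • gup f v := by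
  obtain ⟨a', ha'⟩ : ∃ a', a' = f (mk1 1 0) := ⟨_, rfl⟩
  rw [← ha']
  have na : ‖a'‖ = 1 := by rw [ha']; exact hf.norm _ n_apex
  have hda : ∀ v : F, ‖v‖ ≤ 1 → ‖gup f v - a'‖ = 2 * ‖v‖ := by
    intro v hv; rw [ha']; exact dist_apex hf hv
  have hex : ∀ v : F, ‖v‖ ≤ 1 → ∃ m : F, ‖m‖ ≤ 1 ∧ gup f m = (1 - l) • a' + l • gup f v := by
    intro v hv
    have hfl : ‖a' + gup f v‖ = 2 := by rw [add_comm, ha']; exact up_flat hf hv
    apply exists_gup_of_flat hf
    · rw [norm_comb_of_flat na (n_gup hf hv) hfl (by linarith : 0 ≤ 1 - l) h0.le]; ring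
    · have e : (1 - l) • a' + l • gup f v + f (mk1 1 0) = (2 - l) • a' + l • gup f v := by
        rw [← ha']; module
      rw [e, norm_comb_of_flat na (n_gup hf hv) hfl (by linarith) h0.le]; ring
  choose! m hm1 hm2 using hex
  have hmn : ∀ v, ‖v‖ ≤ 1 → ‖m v‖ = l * ‖v‖ := by
    intro v hv
    have h2 := hda _ (hm1 v hv)
    have e : gup f (m v) - a' = l • (gup f v - a') := by rw [hm2 v hv]; module
    rw [e, norm_smul, hda v hv, Real.norm_of_nonneg h0.le] at h2
    linarith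
  have hmd : ∀ v w, ‖v‖ ≤ 1 → ‖w‖ ≤ 1 → ‖m v - m w‖ = l * ‖v - w‖ := by
    intro v w hv hw
    have h2 := dist_up hf (hm1 v hv) (hm1 w hw)
    have e : gup f (m v) - gup f (m w) = l • (gup f v - gup f w) := by
      rw [hm2 v hv, hm2 w hw]; module
    rw [e, norm_smul, dist_up hf hv hw, Real.norm_of_nonneg h0.le, hmn v hv, hmn w hw, ← mul_sub,
      abs_mul, abs_of_pos h0] at h2
    linarith
  have hmv : ∀ v, ‖v‖ ≤ 1 → ‖v - m v‖ = (1 - l) * ‖v‖ := by
    intro v hv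
    have h2 := dist_up hf hv (hm1 v hv)
    have e : gup f v - gup f (m v) = (1 - l) • (gup f v - a') := by rw [hm2 v hv]; module
    rw [e, norm_smul, hda v hv, Real.norm_of_nonneg (by linarith), hmn v hv] at h2
    have h3 : |‖v‖ - l * ‖v‖| = (1 - l) * ‖v‖ := by
      rw [abs_of_nonneg (by nlinarith [norm_nonneg v])]; ring
    rw [h3] at h2; linarith
  have hms : ∀ w, ‖w‖ ≤ l → ∃ v, ‖v‖ ≤ 1 ∧ m v = w := by
    intro w hw
    have hw1 : ‖w‖ ≤ 1 := by linarith
    have hr := ray hf hw1 (b := l⁻¹) (by rw [← div_eq_mul_inv, div_le_one h0]; exact hw)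
      (τ := l⁻¹) ((one_le_inv₀ h0).mpr h1.le) le_rfl
    rw [← ha'] at hr
    obtain ⟨q, hq⟩ : ∃ q, q = a' + l⁻¹ • (gup f w - a') := ⟨_, rfl⟩
    rw [← hq] at hr
    have e : gup f w = (1 - l) • a' + l • q := by
      rw [hq, smul_add, smul_smul, mul_inv_cancel₀ h0.ne', one_smul]; module
    have hfl := flat_of_comb na hr h0 h1 (by rw [← e]; exact n_gup hf hw1)
    obtain ⟨v, hv, hgv⟩ := exists_gup_of_flat hf hr (by rw [add_comm, ← ha']; exact hfl)
    refine ⟨v, hv, ?_⟩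
    apply gup_inj hf (hm1 v hv) hw1
    rw [hm2 v hv, hgv, ← e]
  have hli : 0 < l⁻¹ := inv_pos.mpr h0
  obtain ⟨U, hU1, hU2⟩ := ball_iso_linear (fun v => l⁻¹ • m v)
    (by
      have : m 0 = 0 := by
        have := hmn 0 (by simp)
        rw [norm_zero, mul_zero] at this
        exact norm_eq_zero.mp this
      change l⁻¹ • m 0 = 0
      rw [this, smul_zero])
    (by
      intro u u' hu hu'
      change ‖l⁻¹ • m u - l⁻¹ • m u'‖ = ‖u - u'‖
      rw [← smul_sub, norm_smul, hmd u u' hu hu', Real.norm_of_nonneg hli.le, ← mul_assoc,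
        inv_mul_cancel₀ h0.ne', one_mul])
    (by
      intro w hw
      obtain ⟨u, hu, hmu⟩ := hms (l • w) (by
        rw [norm_smul, Real.norm_of_nonneg h0.le]; nlinarith)
      refine ⟨u, hu, ?_⟩
      change l⁻¹ • m u = w
      rw [hmu, smul_smul, inv_mul_cancel₀ h0.ne', one_smul])
  have hmU : ∀ v, ‖v‖ ≤ 1 → m v = l • U v := by
    intro v hv
    rw [← hU1 v hv, smul_smul, mul_inv_cancel₀ h0.ne', one_smul]
  have hid := iso_eq_id U hU2 h0 h1 (by
    intro v
    by_cases hv0 : v = 0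
    · rw [hv0, map_zero, smul_zero, sub_zero, norm_zero, mul_zero]
    · have hpos : 0 < ‖v‖ := norm_pos_iff.mpr hv0
      have hn : ‖‖v‖⁻¹ • v‖ = 1 := by
        rw [norm_smul, norm_inv, norm_norm, inv_mul_cancel₀ hpos.ne']
      have h2 := hmv _ hn.le
      rw [hmU _ hn.le, hn, mul_one, map_smul, smul_comm l, ← smul_sub, norm_smul, norm_inv,
        norm_norm] at h2
      field_simp at h2
      linarith)
  rw [← hm2 v hv, hmU v hv, hid v]

end

end Vale.Agent.P084
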