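import Vale.Agent.P084.L1c
import Vale.Agent.P084.CylMain

namespace Vale.Agent.P084

open Metric Set

set_option linter.unusedSectionVars false

universe v w

variable {F : Type v} {W : Type w}
  [NormedAddCommGroup F] [NormedSpace ℝ F] [NormedAddCommGroup W] [NormedSpace ℝ W]

/-- the positively homogeneous extension of the restriction of `f` to the equator -/
noncomputable def Hmap (f : WithLp 1 (ℝ × F) → W) (v : F) : W := ‖v‖ • f (mk1 0 (‖v‖⁻¹ • v))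

lemma Hmap_zero (f : WithLp 1 (ℝ × F) → W) : Hmap f 0 = 0 := by
  rw [Hmap, norm_zero, zero_smul]

lemma Hmap_smul (f : WithLp 1 (ℝ × F) → W) {c : ℝ} (hc : 0 ≤ c) (v : F) :
    Hmap f (c • v) = c • Hmap f v := by
  rcases hc.eq_or_lt with h | h
  · rw [← h, zero_smul, zero_smul, Hmap_zero]
  · have e : (c * ‖v‖)⁻¹ * c = ‖v‖⁻¹ := by
      rw [mul_inv, mul_comm c⁻¹, mul_assoc, inv_mul_cancel₀ h.ne', mul_one]
    rw [Hmap, Hmap, norm_smul, Real.norm_of_nonneg hc, smul_smul, e, smul_smul]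

lemma Hmap_comp_neg (f : WithLp 1 (ℝ × F) → W) (v : F) :
    Hmap (fun x => f (-x)) v = Hmap f (-v) := by
  simp only [Hmap, mk1_neg, neg_zero, norm_neg, smul_neg]

section

variable {f : WithLp 1 (ℝ × F) → W} (hf : SphIso f)
include hf

lemma upper_formula {t : ℝ} {v : F} (ht : 0 ≤ t) (h : t + ‖v‖ = 1) :
    f (mk1 t v) = t • f (mk1 1 0) + Hmap f v := by
  by_cases hv0 : v = 0
  · rw [hv0, norm_zero, add_zero] at h
    rw [hv0, h, Hmap_zero, one_smul, add_zero]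
  have hpos : 0 < ‖v‖ := norm_pos_iff.mpr hv0
  have hn : ‖‖v‖⁻¹ • v‖ = 1 := by
    rw [norm_smul, norm_inv, norm_norm, inv_mul_cancel₀ hpos.ne']
  have hvv : ‖v‖ • (‖v‖⁻¹ • v) = v := by
    rw [smul_smul, mul_inv_cancel₀ hpos.ne', one_smul]
  have hg1 : gup f (‖v‖⁻¹ • v) = f (mk1 0 (‖v‖⁻¹ • v)) := by
    rw [gup, hn, sub_self]
  have hg2 : gup f v = f (mk1 t v) := by
    rw [gup]; congr 2; linarith
  rcases (by linarith : ‖v‖ ≤ 1).eq_or_lt with h1 | h1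
  · have ht0 : t = 0 := by linarith
    rw [ht0, zero_smul, zero_add, Hmap, h1, inv_one, one_smul, one_smul]
  · have h2 := gup_smul hf hpos h1 hn.le
    rw [hvv, hg1, hg2] at h2
    rw [h2, Hmap]
    congr 2
    linarith

lemma sphere_formula {t : ℝ} {v : F} (h : |t| + ‖v‖ = 1) :
    f (mk1 t v) = t • f (mk1 1 0) + Hmap f v := by
  rcases le_total 0 t with ht | ht
  · rw [abs_of_nonneg ht] at h
    exact upper_formula hf ht h
  · rw [abs_of_nonpos ht] at h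
    have h2 := upper_formula hf.comp_neg (t := -t) (v := -v) (by linarith)
      (by rw [norm_neg]; exact h)
    rw [Hmap_comp_neg, neg_neg] at h2
    simp only [mk1_neg, neg_neg, neg_zero] at h2
    rw [h2, neg_apex hf, smul_neg, neg_smul, neg_neg]

lemma Phi_eq {t : ℝ} {v : F} {N : ℝ} (hN : 0 < N) (h : |t| + ‖v‖ = N) :
    t • f (mk1 1 0) + Hmap f v = N • f (mk1 (N⁻¹ * t) (N⁻¹ • v)) := by
  have hi : 0 < N⁻¹ := inv_pos.mpr hN
  have h1 : |N⁻¹ * t| + ‖N⁻¹ • v‖ = 1 := by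
    rw [abs_mul, abs_of_pos hi, norm_smul, Real.norm_of_nonneg hi.le, ← mul_add, h,
      inv_mul_cancel₀ hN.ne']
  rw [sphere_formula hf h1, Hmap_smul f hi.le, smul_add, smul_smul, smul_smul, ← mul_assoc,
    mul_inv_cancel₀ hN.ne', one_mul, one_smul]

lemma Phi_norm (t : ℝ) (v : F) : ‖t • f (mk1 1 0) + Hmap f v‖ = |t| + ‖v‖ := by
  rcases (add_nonneg (abs_nonneg t) (norm_nonneg v)).eq_or_lt with h | h
  · have h1 : |t| = 0 := by linarith [abs_nonneg t, norm_nonneg v]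
    have h2 : ‖v‖ = 0 := by linarith [abs_nonneg t, norm_nonneg v]
    rw [abs_eq_zero.mp h1, norm_eq_zero.mp h2, Hmap_zero, zero_smul, add_zero, norm_zero, abs_zero,
      norm_zero, add_zero]
  · have hi : 0 < (|t| + ‖v‖)⁻¹ := inv_pos.mpr h
    rw [Phi_eq hf h rfl, norm_smul, Real.norm_of_nonneg h.le, hf.norm, mul_one]
    rw [nrm1, abs_mul, abs_of_pos hi, norm_smul, Real.norm_of_nonneg hi.le, ← mul_add,
      inv_mul_cancel₀ h.ne']

lemma Phi_dist {t t' : ℝ} {v w : F} {N : ℝ} (hN : 0 < N) (h : |t| + ‖v‖ = N)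
    (h' : |t'| + ‖w‖ = N) :
    ‖(t • f (mk1 1 0) + Hmap f v) - (t' • f (mk1 1 0) + Hmap f w)‖ = |t - t'| + ‖v - w‖ := by
  have hi : 0 < N⁻¹ := inv_pos.mpr hN
  have h1 : ‖mk1 (N⁻¹ * t) (N⁻¹ • v)‖ = 1 := by
    rw [nrm1, abs_mul, abs_of_pos hi, norm_smul, Real.norm_of_nonneg hi.le, ← mul_add, h,
      inv_mul_cancel₀ hN.ne']
  have h2 : ‖mk1 (N⁻¹ * t') (N⁻¹ • w)‖ = 1 := by
    rw [nrm1, abs_mul, abs_of_pos hi, norm_smul, Real.norm_of_nonneg hi.le, ← mul_add, h',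
      inv_mul_cancel₀ hN.ne']
  rw [Phi_eq hf hN h, Phi_eq hf hN h', ← smul_sub, norm_smul, hf.iso _ _ h1 h2, mk1_sub, nrm1,
    ← mul_sub, ← smul_sub, abs_mul, abs_of_pos hi, norm_smul, Real.norm_of_nonneg hi.le,
    Real.norm_of_nonneg hN.le, ← mul_add, ← mul_assoc, mul_inv_cancel₀ hN.ne', one_mul]

lemma Phi_surj (y : W) : ∃ (t : ℝ) (u : F), y = t • f (mk1 1 0) + Hmap f u := by
  by_cases h0 : y = 0
  · exact ⟨0, 0, by rw [h0, zero_smul, Hmap_zero, add_zero]⟩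
  · have hpos : 0 < ‖y‖ := norm_pos_iff.mpr h0
    have hn : ‖‖y‖⁻¹ • y‖ = 1 := by
      rw [norm_smul, norm_inv, norm_norm, inv_mul_cancel₀ hpos.ne']
    obtain ⟨z, hz, hzy⟩ := hf.surj _ hn
    obtain ⟨t, u, rfl⟩ : ∃ t u, z = mk1 t u := ⟨z.fst, z.snd, rfl⟩
    rw [nrm1] at hz
    refine ⟨‖y‖ * t, ‖y‖ • u, ?_⟩
    rw [Hmap_smul f hpos.le, mul_smul, ← smul_add, ← sphere_formula hf hz, hzy, smul_smul,
      mul_inv_cancel₀ hpos.ne', one_smul]

lemma Hmap_sub (v w : F) : ∃ u : F, Hmap f v - Hmap f w = Hmap f u ∧ ‖u‖ = ‖v - w‖ := by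
  obtain ⟨tz, uz, hz⟩ := Phi_surj hf (Hmap f v - Hmap f w)
  obtain ⟨τ, hτ⟩ : ∃ τ, τ = |tz| + ‖v‖ + ‖w‖ + 1 := ⟨_, rfl⟩
  have hv0 := norm_nonneg v
  have hw0 := norm_nonneg w
  have ht0 := abs_nonneg tz
  have ht1 := le_abs_self tz
  have ht2 := neg_abs_le tz
  obtain ⟨s, hs⟩ : ∃ s, s = (τ - ‖v‖ + ‖w‖) / 2 := ⟨_, rfl⟩
  obtain ⟨s', hs'⟩ : ∃ s', s' = (τ + ‖v‖ - ‖w‖) / 2 := ⟨_, rfl⟩
  have hs0 : 0 ≤ s := by rw [hs]; linarith
  have hs0' : 0 ≤ s' := by rw [hs']; linarith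
  have hN : 0 < (τ + ‖v‖ + ‖w‖) / 2 := by linarith
  have A := Phi_dist hf (t := s) (t' := -s') (v := v) (w := w) hN
    (by rw [abs_of_nonneg hs0, hs]; ring) (by rw [abs_neg, abs_of_nonneg hs0', hs']; ring)
  have B := Phi_dist hf (t := -s) (t' := s') (v := v) (w := w) hN
    (by rw [abs_neg, abs_of_nonneg hs0, hs]; ring) (by rw [abs_of_nonneg hs0', hs']; ring)
  have eA : (s • f (mk1 1 0) + Hmap f v) - ((-s') • f (mk1 1 0) + Hmap f w)
      = (τ + tz) • f (mk1 1 0) + Hmap f uz := by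
    have : (s • f (mk1 1 0) + Hmap f v) - ((-s') • f (mk1 1 0) + Hmap f w)
        = (s + s') • f (mk1 1 0) + (Hmap f v - Hmap f w) := by module
    rw [this, hz, hs, hs']; module
  have eB : ((-s) • f (mk1 1 0) + Hmap f v) - (s' • f (mk1 1 0) + Hmap f w)
      = (-τ + tz) • f (mk1 1 0) + Hmap f uz := by
    have : ((-s) • f (mk1 1 0) + Hmap f v) - (s' • f (mk1 1 0) + Hmap f w)
        = (-(s + s')) • f (mk1 1 0) + (Hmap f v - Hmap f w) := by module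
    rw [this, hz, hs, hs']; module
  rw [eA, Phi_norm hf, abs_of_nonneg (by linarith), abs_of_nonneg (by linarith)] at A
  rw [eB, Phi_norm hf, abs_of_nonpos (by linarith), abs_of_nonpos (by linarith)] at B
  have hss : s + s' = τ := by rw [hs, hs']; ring
  have htz : tz = 0 := by linarith
  refine ⟨uz, ?_, by linarith⟩
  rw [hz, htz, zero_smul, zero_add]

theorem l1_raw : ∃ T : WithLp 1 (ℝ × F) →L[ℝ] W, ∀ z, ‖z‖ = 1 → T z = f z := by
  let Φ : WithLp 1 (ℝ × F) → W := fun z => z.fst • f (mk1 1 0) + Hmap f z.snd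
  have hΦ : ∀ t u, Φ (mk1 t u) = t • f (mk1 1 0) + Hmap f u := fun t u => rfl
  have hiso : Isometry Φ := by
    apply Isometry.of_dist_eq
    intro z z'
    obtain ⟨t, v, rfl⟩ : ∃ t u, z = mk1 t u := ⟨z.fst, z.snd, rfl⟩
    obtain ⟨t', w, rfl⟩ : ∃ t u, z' = mk1 t u := ⟨z'.fst, z'.snd, rfl⟩
    obtain ⟨u, hu1, hu2⟩ := Hmap_sub hf v w
    rw [dist_eq_norm, dist_eq_norm, hΦ, hΦ, mk1_sub, nrm1]
    have e : (t • f (mk1 1 0) + Hmap f v) - (t' • f (mk1 1 0) + Hmap f w)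
        = (t - t') • f (mk1 1 0) + (Hmap f v - Hmap f w) := by module
    rw [e, hu1, Phi_norm hf, hu2]
  have hsurj : Function.Surjective Φ := by
    intro y
    obtain ⟨t, u, h⟩ := Phi_surj hf y
    exact ⟨mk1 t u, by rw [hΦ, h]⟩
  let e : WithLp 1 (ℝ × F) ≃ᵢ W :=
    IsometryEquiv.mk (Equiv.ofBijective Φ ⟨hiso.injective, hsurj⟩) hiso
  have he0 : e 0 = 0 := by
    change Φ (mk1 0 0) = 0
    rw [hΦ, zero_smul, Hmap_zero, add_zero]
  let T := e.toRealLinearIsometryEquivOfMapZero he0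
  refine ⟨(T : WithLp 1 (ℝ × F) →L[ℝ] W), ?_⟩
  intro z hz
  obtain ⟨t, v, rfl⟩ : ∃ t u, z = mk1 t u := ⟨z.fst, z.snd, rfl⟩
  change Φ (mk1 t v) = f (mk1 t v)
  rw [nrm1] at hz
  rw [hΦ, sphere_formula hf hz]

end

/-- The `ℓ₁`-sum of the real line with an arbitrary real normed space has the Mazur-Ulam
property. -/
theorem l1_mup (F : Type v) [NormedAddCommGroup F] [NormedSpace ℝ F] :
    MazurUlamProperty.{v, w} (WithLp 1 (ℝ × F)) := by
  intro Y _ _ f hf hs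
  exact equiv_of_raw (fun g hg => l1_raw hg) f hf hs

end Vale.Agent.P084
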