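import Vale.Agent.P084.Extend

namespace Vale.Agent.P084

open Metric Set

set_option linter.unusedSectionVars false

universe v w

section abstractMU

variable {M : Type v} [MetricSpace M]

/-- Mazur-Ulam fixed point argument in a metric space with a point reflection. -/
theorem fixed_of_reflection (R : M ≃ᵢ M) {x y z : M} (hRx : R x = y) (hRy : R y = x)
    (hRz : R z = z) (hR : ∀ p, dist (R p) p = 2 * dist p z) :
    ∀ e : M ≃ᵢ M, e x = x → e y = y → e z = z := by
  set s := { e : M ≃ᵢ M | e x = x ∧ e y = y } with hs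
  have hne : Nonempty s := ⟨⟨IsometryEquiv.refl M, rfl, rfl⟩⟩
  have h_bdd : BddAbove (range fun e : s => dist ((e : M ≃ᵢ M) z) z) := by
    refine ⟨dist x z + dist x z, forall_mem_range.2 <| Subtype.forall.2 ?_⟩
    rintro e ⟨hx, _⟩
    calc
      dist (e z) z ≤ dist (e z) x + dist x z := dist_triangle (e z) x z
      _ = dist (e x) (e z) + dist x z := by rw [hx, dist_comm]
      _ = dist x z + dist x z := by rw [e.dist_eq x z]
  set F : M ≃ᵢ M → M ≃ᵢ M := fun e => ((e.trans R).trans e.symm).trans R with hF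
  have hFa : ∀ (e : M ≃ᵢ M) (p : M), F e p = R (e.symm (R (e p))) := fun e p => rfl
  have hf_dist : ∀ e, dist (F e z) z = 2 * dist (e z) z := by
    intro e
    rw [hFa]
    calc dist (R (e.symm (R (e z)))) z = dist (R (e.symm (R (e z)))) (R z) := by rw [hRz]
      _ = dist (e.symm (R (e z))) z := R.dist_eq _ _
      _ = dist (e (e.symm (R (e z)))) (e z) := (e.dist_eq _ _).symm
      _ = dist (R (e z)) (e z) := by rw [e.apply_symm_apply]
      _ = 2 * dist (e z) z := hR _
  have hf_maps_to : ∀ e ∈ s, F e ∈ s := by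
    rintro e ⟨hx, hy⟩
    constructor
    · rw [hFa, hx, hRx, e.symm_apply_eq.2 hy.symm, hRy]
    · rw [hFa, hy, hRy, e.symm_apply_eq.2 hx.symm, hRx]
  set c := ⨆ e : s, dist ((e : M ≃ᵢ M) z) z with hc
  have : c ≤ c / 2 := by
    apply ciSup_le
    rintro ⟨e, he⟩
    simp only [le_div_iff₀' (zero_lt_two' ℝ), ← hf_dist]
    exact le_ciSup h_bdd ⟨F e, hf_maps_to e he⟩
  replace : c ≤ 0 := by linarith
  refine fun e hx hy => dist_le_zero.1 (le_trans ?_ this)
  exact le_ciSup h_bdd ⟨e, hx, hy⟩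

end abstractMU

variable {Z : Type v} {W : Type w}
  [NormedAddCommGroup Z] [NormedSpace ℝ Z] [NormedAddCommGroup W] [NormedSpace ℝ W]

lemma norm_add_smul_of_flat {u v : W} (hu : ‖u‖ = 1) (hv : ‖v‖ = 1) (huv : ‖u + v‖ = 2)
    {n : ℝ} (hn : 0 ≤ n) : ‖u + n • v‖ = 1 + n := by
  apply le_antisymm
  · have := norm_add_le u (n • v)
    rw [norm_smul, hv, hu, Real.norm_of_nonneg hn, mul_one] at this
    exact this
  · by_cases h1 : 1 ≤ n
    · have e : n • (u + v) = (u + n • v) + (n - 1) • u := by module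
      have h2 := norm_add_le (u + n • v) ((n - 1) • u)
      rw [← e, norm_smul, norm_smul, huv, hu, Real.norm_of_nonneg hn,
        Real.norm_of_nonneg (by linarith)] at h2
      linarith
    · rw [not_le] at h1
      have e : u + v = (u + n • v) + (1 - n) • v := by module
      have h2 := norm_add_le (u + n • v) ((1 - n) • v)
      rw [← e, norm_smul, huv, hv, Real.norm_of_nonneg (by linarith)] at h2
      linarith

lemma SphIso.inj {f : Z → W} (hf : SphIso f) {x y : Z} (hx : ‖x‖ = 1) (hy : ‖y‖ = 1)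
    (h : f x = f y) : x = y := by
  have := hf.iso x y hx hy
  rw [h, sub_self, norm_zero] at this
  exact sub_eq_zero.mp (norm_eq_zero.mp this.symm)

/-- Local midpoint lemma: if near `a` the sphere is flat (symmetric about the midpoint of `a`, `b`)
and the images of nearby points are pairwise flat, then `f` preserves the midpoint of `a`, `b`. -/
theorem local_mid_flat {f : Z → W} (hf : SphIso f) {a b : Z} {r : ℝ} (hr1 : r < 1)
    (ha : ‖a‖ = 1) (hb : ‖b‖ = 1) (hab : ‖a - b‖ ≤ r)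
    (hflat : ∀ x x', ‖x‖ = 1 → ‖x'‖ = 1 → ‖x - a‖ ≤ 2 * r → ‖x' - a‖ ≤ 2 * r → ‖f x + f x'‖ = 2)
    (hsym : ∀ x, ‖x‖ = 1 → ‖x - a‖ ≤ r → ‖x - b‖ ≤ r → ‖a + b - x‖ = 1)
    (hmid : ‖(1 / 2 : ℝ) • (a + b)‖ = 1) :
    f ((1 / 2 : ℝ) • (a + b)) = (1 / 2 : ℝ) • (f a + f b) := by
  have hr0 : 0 ≤ r := le_trans (norm_nonneg _) hab
  -- existence of the reflected point
  have hex : ∀ x, ‖x‖ = 1 → ‖x - a‖ ≤ r → ‖x - b‖ ≤ r →
      ∃ p, ‖p‖ = 1 ∧ f p = f a + f b - f x := by
    intro x hx hxa hxb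
    set w : W := f a + f b - f x with hw
    have hwa : ‖w - f a‖ ≤ r := by
      have : w - f a = f b - f x := by rw [hw]; abel
      rw [this, hf.iso b x hb hx, norm_sub_rev]; exact hxb
    have hfa : ‖f a‖ = 1 := hf.norm a ha
    have hwn1 : 1 - r ≤ ‖w‖ := by
      have h2 : ‖f a‖ ≤ ‖w‖ + ‖f a - w‖ := by
        have := norm_add_le w (f a - w)
        rwa [add_sub_cancel] at this
      rw [norm_sub_rev (f a) w] at h2
      linarith
    have hwn2 : ‖w‖ ≤ 1 + r := by
      have := norm_add_le (f a) (w - f a)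
      rw [add_sub_cancel] at this
      linarith
    have hwpos : 0 < ‖w‖ := by linarith
    set wh : W := ‖w‖⁻¹ • w with hwh
    have hwhn : ‖wh‖ = 1 := by
      rw [hwh, norm_smul, norm_inv, norm_norm, inv_mul_cancel₀ hwpos.ne']
    have hww : w = ‖w‖ • wh := by
      rw [hwh, smul_smul, mul_inv_cancel₀ hwpos.ne', one_smul]
    have hdiff : ‖wh - w‖ ≤ r := by
      have : wh - w = (1 - ‖w‖) • wh := by
        rw [sub_smul, one_smul, ← hww]
      rw [this, norm_smul, hwhn, mul_one, Real.norm_eq_abs, abs_le]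
      constructor <;> linarith
    obtain ⟨p, hp, hfp⟩ := hf.surj wh hwhn
    have hpa : ‖p - a‖ ≤ 2 * r := by
      rw [← hf.iso p a hp ha, hfp]
      have : wh - f a = (wh - w) + (w - f a) := by abel
      rw [this]
      have := norm_add_le (wh - w) (w - f a)
      linarith
    have h1 := hflat x p hx hp (by linarith) hpa
    rw [hfp] at h1
    have h2 := norm_add_smul_of_flat (hf.norm x hx) hwhn h1 hwpos.le
    rw [← hww] at h2
    have h3 : f x + w = f a + f b := by rw [hw]; abel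
    have h4 := hflat a b ha hb (by rw [sub_self, norm_zero]; linarith)
      (by rw [norm_sub_rev]; linarith)
    rw [h3, h4] at h2
    have hw1 : ‖w‖ = 1 := by linarith
    refine ⟨p, hp, ?_⟩
    rw [hfp, hwh, hw1, inv_one, one_smul]
  choose! P hP1 hP2 using hex
  let M : Type v := {x : Z // ‖x‖ = 1 ∧ ‖x - a‖ ≤ r ∧ ‖x - b‖ ≤ r}
  have hdist : ∀ x y : M, dist x y = ‖x.1 - y.1‖ := fun x y => by
    rw [Subtype.dist_eq, dist_eq_norm]
  -- the reflection in the domain
  let Rf : M → M := fun x => ⟨a + b - x.1, hsym x.1 x.2.1 x.2.2.1 x.2.2.2, by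
      have : a + b - x.1 - a = -(x.1 - b) := by abel
      rw [this, norm_neg]; exact x.2.2.2, by
      have : a + b - x.1 - b = -(x.1 - a) := by abel
      rw [this, norm_neg]; exact x.2.2.1⟩
  have hRf : ∀ x : M, (Rf x).1 = a + b - x.1 := fun x => rfl
  let R : M ≃ᵢ M := IsometryEquiv.mk' Rf Rf (fun x => Subtype.ext (by rw [hRf, hRf]; abel))
    (Isometry.of_dist_eq (fun x y => by
      rw [hdist, hdist, hRf, hRf]
      have : a + b - x.1 - (a + b - y.1) = -(x.1 - y.1) := by abel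
      rw [this, norm_neg]))
  have hR : ∀ x : M, (R x).1 = a + b - x.1 := fun x => rfl
  -- the reflection transported from the target
  let Ef : M → M := fun x => ⟨P x.1, hP1 x.1 x.2.1 x.2.2.1 x.2.2.2, by
      rw [← hf.iso _ a (hP1 x.1 x.2.1 x.2.2.1 x.2.2.2) ha, hP2 x.1 x.2.1 x.2.2.1 x.2.2.2]
      have : f a + f b - f x.1 - f a = f b - f x.1 := by abel
      rw [this, hf.iso b x.1 hb x.2.1, norm_sub_rev]; exact x.2.2.2, by
      rw [← hf.iso _ b (hP1 x.1 x.2.1 x.2.2.1 x.2.2.2) hb, hP2 x.1 x.2.1 x.2.2.1 x.2.2.2]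
      have : f a + f b - f x.1 - f b = f a - f x.1 := by abel
      rw [this, hf.iso a x.1 ha x.2.1, norm_sub_rev]; exact x.2.2.1⟩
  have hEf : ∀ x : M, f (Ef x).1 = f a + f b - f x.1 :=
    fun x => hP2 x.1 x.2.1 x.2.2.1 x.2.2.2
  let E : M ≃ᵢ M := IsometryEquiv.mk' Ef Ef (fun x => Subtype.ext (by
      apply hf.inj (Ef (Ef x)).2.1 x.2.1
      rw [hEf, hEf]; abel))
    (Isometry.of_dist_eq (fun x y => by
      rw [hdist, hdist, ← hf.iso _ _ (Ef x).2.1 (Ef y).2.1, hEf, hEf, ← hf.iso _ _ x.2.1 y.2.1]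
      have : f a + f b - f x.1 - (f a + f b - f y.1) = -(f x.1 - f y.1) := by abel
      rw [this, norm_neg]))
  have hE : ∀ x : M, f (E x).1 = f a + f b - f x.1 := hEf
  let am : M := ⟨a, ha, by rw [sub_self, norm_zero]; exact hr0, hab⟩
  let bm : M := ⟨b, hb, by rw [norm_sub_rev]; exact hab, by rw [sub_self, norm_zero]; exact hr0⟩
  let zm : M := ⟨(1 / 2 : ℝ) • (a + b), hmid, by
      have : (1 / 2 : ℝ) • (a + b) - a = (-(1 / 2) : ℝ) • (a - b) := by module
      rw [this, norm_smul, Real.norm_eq_abs, abs_neg, abs_of_nonneg (by norm_num)]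
      linarith [norm_nonneg (a - b)], by
      have : (1 / 2 : ℝ) • (a + b) - b = (1 / 2 : ℝ) • (a - b) := by module
      rw [this, norm_smul, Real.norm_eq_abs, abs_of_nonneg (by norm_num)]
      linarith [norm_nonneg (a - b)]⟩
  have hRa : R am = bm := Subtype.ext (by rw [hR]; change a + b - a = b; abel)
  have hRb : R bm = am := Subtype.ext (by rw [hR]; change a + b - b = a; abel)
  have hRz : R zm = zm := Subtype.ext (by
    rw [hR]; change a + b - (1 / 2 : ℝ) • (a + b) = (1 / 2 : ℝ) • (a + b); module)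
  have hRd : ∀ p : M, dist (R p) p = 2 * dist p zm := by
    intro p
    rw [hdist, hdist, hR]
    have : a + b - p.1 - p.1 = (-2 : ℝ) • (p.1 - (1 / 2 : ℝ) • (a + b)) := by module
    change ‖a + b - p.1 - p.1‖ = 2 * ‖p.1 - (1 / 2 : ℝ) • (a + b)‖
    rw [this, norm_smul]; norm_num
  have hEa : E am = bm := Subtype.ext (by
    apply hf.inj (E am).2.1 hb
    rw [hE]; change f a + f b - f a = f b; abel)
  have hEb : E bm = am := Subtype.ext (by
    apply hf.inj (E bm).2.1 ha
    rw [hE]; change f a + f b - f b = f a; abel)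
  have hfix := fixed_of_reflection R hRa hRb hRz hRd (E.trans R)
    (by rw [IsometryEquiv.trans_apply, hEa, hRb]) (by rw [IsometryEquiv.trans_apply, hEb, hRa])
  rw [IsometryEquiv.trans_apply] at hfix
  have hEz : E zm = zm := by
    have := congrArg R hfix
    have hRR : ∀ x : M, R (R x) = x := fun x => Subtype.ext (by rw [hR, hR]; abel)
    rw [hRR, hRz] at this
    exact this
  have h5 := hE zm
  rw [hEz] at h5
  change f ((1 / 2 : ℝ) • (a + b)) = f a + f b - f ((1 / 2 : ℝ) • (a + b)) at h5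
  have h6 : (2 : ℝ) • f ((1 / 2 : ℝ) • (a + b)) = (2 : ℝ) • ((1 / 2 : ℝ) • (f a + f b)) := by
    rw [two_smul, smul_smul]
    nth_rewrite 1 [h5]
    norm_num
  exact smul_right_injective W (two_ne_zero) h6

end Vale.Agent.P084
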