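import Vale.Agent.P084.Main

namespace Vale.Agent.P084

open Metric ENNReal

universe u v w

variable {ι : Type u} [DecidableEq ι] {E : ι → Type v}
  [∀ i, NormedAddCommGroup (E i)] [∀ i, NormedSpace ℝ (E i)]

/-- coordinate projection on a subspace of the sup-normed sum containing all one-point families -/
noncomputable def lpProj (Z : Submodule ℝ (lp E ∞)) (hZ : ∀ i (e : E i), lp.single ∞ i e ∈ Z)
    (i : ι) : Z →ₗ[ℝ] Z where
  toFun z := ⟨lp.single ∞ i ((z : lp E ∞) i), hZ i _⟩
  map_add' x y := by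
    apply Subtype.ext
    simp [lp.single_add]
  map_smul' c x := by
    apply Subtype.ext
    simp [lp.single_smul]

lemma lpProj_coe (Z : Submodule ℝ (lp E ∞)) (hZ : ∀ i (e : E i), lp.single ∞ i e ∈ Z)
    (i : ι) (z : Z) : ((lpProj Z hZ i z : Z) : lp E ∞) = lp.single ∞ i ((z : lp E ∞) i) := rfl

lemma lpProj_norm (Z : Submodule ℝ (lp E ∞)) (hZ : ∀ i (e : E i), lp.single ∞ i e ∈ Z)
    (i : ι) (z : Z) : ‖lpProj Z hZ i z‖ = ‖(z : lp E ∞) i‖ := by
  rw [Submodule.coe_norm, lpProj_coe, lp.norm_single (by simp)]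

noncomputable def lpDecomp [Nonempty ι] [∀ i, StrictConvexSpace ℝ (E i)] [∀ i, Nontrivial (E i)]
    (Z : Submodule ℝ (lp E ∞)) (hZ : ∀ i (e : E i), lp.single ∞ i e ∈ Z) :
    SupDecomp ι Z where
  p := lpProj Z hZ
  idem := by
    intro i z
    apply Subtype.ext
    rw [lpProj_coe, lpProj_coe, lp.single_apply_self]
  orth := by
    intro i j z hij
    apply Subtype.ext
    rw [lpProj_coe, lpProj_coe, lp.single_apply_ne _ _ _ hij, lp.single_zero]
    rfl
  le := by
    intro i z
    rw [lpProj_norm, Submodule.coe_norm]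
    exact lp.norm_apply_le_norm (by simp) _ i
  bound := by
    intro z c h
    rw [Submodule.coe_norm]
    apply lp.norm_le_of_forall_le'
    intro i
    rw [← lpProj_norm Z hZ]
    exact h i
  ray := by
    intro i x y h
    rw [← map_add, lpProj_norm, lpProj_norm, lpProj_norm] at h
    have h' : ‖(x : lp E ∞) i + (y : lp E ∞) i‖ = ‖(x : lp E ∞) i‖ + ‖(y : lp E ∞) i‖ := by
      simpa using h
    have hr := (sameRay_iff_norm_add (x := (x : lp E ∞) i) (y := (y : lp E ∞) i)).mpr h'
    let S : E i →ₗ[ℝ] Z :=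
      { toFun := fun e => ⟨lp.single ∞ i e, hZ i e⟩
        map_add' := fun a b => Subtype.ext (lp.single_add _ _ _ _)
        map_smul' := fun c a => Subtype.ext (lp.single_smul _ _ _ _) }
    exact hr.map S
  unit := by
    intro i
    obtain ⟨e, he⟩ := exists_norm_eq (E i) (c := 1) zero_le_one
    refine ⟨⟨lp.single ∞ i e, hZ i e⟩, ?_, ?_⟩
    · apply Subtype.ext
      rw [lpProj_coe]
      simp
    · rw [Submodule.coe_norm]
      simp only
      rw [lp.norm_single (by simp), he]

end Vale.Agent.P084
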