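import Vale.Agent.P084.Sc2

/-! Leaf affinity for `E × F` with `E` strictly convex, without any further assumption on `E`. -/

namespace Vale.Agent.P084

open Metric Set

set_option linter.unusedSectionVars false

universe u v w

variable {E : Type u} {F : Type v} {W : Type w}
  [NormedAddCommGroup E] [NormedSpace ℝ E] [NormedAddCommGroup F] [NormedSpace ℝ F]
  [NormedAddCommGroup W] [NormedSpace ℝ W] [StrictConvexSpace ℝ E]

variable {f : E × F → W} (hf : SphIso f)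
include hf

lemma crux' {e0 : E} (he0 : ‖e0‖ = 1)
    {η r : ℝ} (h2r : 2 * r < η)
    {u1 u2 : F} (h1 : ‖u1‖ ≤ 1 - η) (h2 : ‖u2‖ ≤ 1 - η) (h12 : ‖u1 - u2‖ ≤ r) :
    ∃ v, ‖v‖ ≤ 1 ∧ f (e0, v) = (2 : ℝ) • f (e0, u1) - f (e0, u2) := by
  have hr0 : 0 ≤ r := le_trans (norm_nonneg _) h12
  have hη0 : 0 < η := by linarith
  have hη1 : η ≤ 1 := by linarith [norm_nonneg u1]
  have n1 : ‖((e0, u1) : E × F)‖ = 1 := norm_face he0 (by linarith)
  have n2 : ‖((e0, u2) : E × F)‖ = 1 := norm_face he0 (by linarith)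
  set k1 := f (e0, u1) with hk1
  set k2 := f (e0, u2) with hk2
  have nk1 : ‖k1‖ = 1 := hf.norm _ n1
  have nk2 : ‖k2‖ = 1 := hf.norm _ n2
  set w : W := (2 : ℝ) • k1 - k2 with hw
  have hk12 : ‖k1 - k2‖ ≤ r := by
    rw [hk1, hk2, hf.iso _ _ n1 n2, pnrm_sub, sub_self, norm_zero]
    exact max_le hr0 h12
  have hwk : ‖w - k1‖ ≤ r := by
    have : w - k1 = k1 - k2 := by rw [hw]; module
    rw [this]; exact hk12
  have hwk2 : w + k2 = (2 : ℝ) • k1 := by rw [hw]; abel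
  have hwk2n : ‖w + k2‖ = 2 := by rw [hwk2, norm_smul, nk1]; norm_num
  have hw1 : 1 ≤ ‖w‖ := by
    have := norm_add_le w k2
    rw [hwk2n, nk2] at this; linarith
  have hw2 : ‖w‖ ≤ 1 + r := by
    have := norm_add_le k1 (w - k1)
    rw [add_sub_cancel] at this
    linarith
  have hwpos : 0 < ‖w‖ := by linarith
  set wh : W := ‖w‖⁻¹ • w with hwh
  have hwhn : ‖wh‖ = 1 := by
    rw [hwh, norm_smul, norm_inv, norm_norm, inv_mul_cancel₀ hwpos.ne']
  have hww : w = ‖w‖ • wh := by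
    rw [hwh, smul_smul, mul_inv_cancel₀ hwpos.ne', one_smul]
  have hdiff : ‖w - wh‖ = ‖w‖ - 1 := by
    have : w - wh = (‖w‖ - 1) • wh := by
      rw [sub_smul, one_smul, ← hww]
    rw [this, norm_smul, hwhn, mul_one, Real.norm_of_nonneg (by linarith)]
  obtain ⟨⟨e', u'⟩, hp, hfp⟩ := hf.surj wh hwhn
  have hpa : ‖((e', u') : E × F) - (e0, u1)‖ ≤ 2 * r := by
    rw [← hf.iso _ _ hp n1, hfp]
    have e1 : wh - k1 = (w - k1) - (w - wh) := by abel
    rw [← hk1, e1]
    have := norm_sub_le (w - k1) (w - wh)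
    linarith
  rw [pnrm_sub] at hpa
  have hd1 : ‖e' - e0‖ ≤ 2 * r := le_trans (le_max_left _ _) hpa
  have hd2 : ‖u' - u1‖ ≤ 2 * r := le_trans (le_max_right _ _) hpa
  have hu' : ‖u'‖ < 1 := by
    have := norm_add_le (u' - u1) u1
    rw [sub_add_cancel] at this
    linarith
  have he' : ‖e'‖ = 1 := by
    rw [pnrm] at hp
    rcases max_choice ‖e'‖ ‖u'‖ with h | h
    · rw [h] at hp; exact hp
    · rw [h] at hp; linarith
  -- Claim A
  have n3 : ‖((e', u2) : E × F)‖ = 1 := norm_face he' (by linarith)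
  obtain ⟨v, hv, hfv⟩ := leaf_mid hf he' hu' (by linarith : ‖u2‖ ≤ 1)
  have n4 : ‖((e', v) : E × F)‖ = 1 := norm_face he' hv
  have hA : ‖e' - e0‖ ≤ ‖w‖ - 1 := by
    have hlow : ‖e' - e0‖ ≤ ‖k1 - f (e', v)‖ := by
      rw [hk1, hf.iso _ _ n1 n4, pnrm_sub, norm_sub_rev e' e0]
      exact le_max_left _ _
    have e1 : k1 - f (e', v) = (1 / 2 : ℝ) • ((w - wh) + (k2 - f (e', u2))) := by
      rw [hfv, hfp, hw]; module
    have h3 : ‖k2 - f (e', u2)‖ = ‖e' - e0‖ := by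
      rw [hk2, hf.iso _ _ n2 n3, pnrm_sub, sub_self, norm_zero, norm_sub_rev e0 e']
      exact max_eq_left (norm_nonneg _)
    have h4 := norm_add_le (w - wh) (k2 - f (e', u2))
    rw [e1, norm_smul, Real.norm_of_nonneg (by norm_num)] at hlow
    rw [hdiff, h3] at h4
    linarith
  -- a functional that is one on `wh` and on `f (e', u2)`
  have hfl2 : ‖wh + f (e', u2)‖ = 2 := by
    rw [← hfp, add_comm]
    exact flat_leaf hf he' (by linarith : ‖u2‖ ≤ 1) hu'
  obtain ⟨ψ, hψn, hψv⟩ := exists_dual_vector ℝ (wh + f (e', u2))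
    (by intro h0; rw [h0] at hfl2; simp at hfl2)
  have hψle : ∀ y : W, ψ y ≤ ‖y‖ := by
    intro y
    have h1 := ψ.le_opNorm y
    rw [hψn, one_mul] at h1
    exact le_trans (le_abs_self _) h1
  have hψv' : ψ wh + ψ (f (e', u2)) = 2 := by
    rw [← map_add, hψv, hfl2]; rfl
  have hψ1 : ψ wh ≤ 1 := by rw [← hwhn]; exact hψle _
  have hψ2 : ψ (f (e', u2)) ≤ 1 := by rw [← hf.norm _ n3]; exact hψle _
  have hψwh : ψ wh = 1 := by linarith
  have hψe2 : ψ (f (e', u2)) = 1 := by linarith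
  have hψk2 : 1 - ‖e' - e0‖ ≤ ψ k2 := by
    have h3 : ‖f (e', u2) - k2‖ = ‖e' - e0‖ := by
      rw [hk2, hf.iso _ _ n3 n2, pnrm_sub, sub_self, norm_zero]
      exact max_eq_left (norm_nonneg _)
    have h4 := hψle (f (e', u2) - k2)
    rw [map_sub, hψe2, h3] at h4
    linarith
  have hψw : ψ w = ‖w‖ := by
    rw [hww, map_smul, hψwh, norm_smul, norm_norm, hwhn]; simp
  have hψk1 : ψ k1 = 1 := by
    have h3 : ψ w + ψ k2 = 2 * ψ k1 := by
      rw [← map_add, hwk2, map_smul]; simp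
    have h4 : ψ k1 ≤ 1 := by rw [← nk1]; exact hψle _
    linarith
  have hfl3 : ‖wh + k1‖ = 2 := by
    apply le_antisymm
    · have := norm_add_le wh k1
      rw [hwhn, nk1] at this; linarith
    · have := hψle (wh + k1)
      rw [map_add, hψwh, hψk1] at this; linarith
  obtain ⟨y1, hy1, hfy1⟩ := hf.surj (-k1) (by rw [norm_neg]; exact nk1)
  have h3 := hf.anti_two n1 hy1 hfy1
  have h4 := ant he0 (by linarith : ‖u1‖ < 1) hy1 h3
  have hsum : ‖e' + e0‖ = 2 := by
    have e1 : wh + k1 = f (e', u') - f y1 := by rw [hfy1, hfp]; abel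
    rw [e1, hf.iso _ _ hp hy1] at hfl3
    obtain ⟨t, z⟩ := y1
    change t = -e0 at h4
    rw [pnrm_sub, h4, sub_neg_eq_add] at hfl3
    have hz : ‖z‖ ≤ 1 := by
      rw [pnrm] at hy1
      exact hy1 ▸ le_max_right _ _
    have hlt : ‖u' - z‖ < 2 := by
      have := norm_sub_le u' z
      linarith
    rcases max_choice ‖e' + e0‖ ‖u' - z‖ with h | h
    · rw [h] at hfl3; exact hfl3
    · rw [h] at hfl3; linarith
  have hee : e' = e0 := by
    have h6 : SameRay ℝ e' e0 := by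
      rw [sameRay_iff_norm_add, hsum, he', he0]; norm_num
    have h7 := h6.norm_smul_eq
    rw [he', he0, one_smul, one_smul] at h7
    exact h7.symm
  subst hee
  have h5 := flat_leaf hf he' (by linarith : ‖u2‖ ≤ 1) hu'
  rw [hfp, ← hk2] at h5
  have h6 := norm_add_smul_of_flat nk2 hwhn h5 hwpos.le
  rw [← hww, add_comm, hwk2n] at h6
  have hw1' : ‖w‖ = 1 := by linarith
  refine ⟨u', hu'.le, ?_⟩
  rw [hfp, hwh, hw1', inv_one, one_smul]

lemma leaf_mid_local' {e0 : E} (he0 : ‖e0‖ = 1)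
    {η : ℝ} (hη : 0 < η) {ua ub : F} (ha : ‖ua‖ ≤ 1 - η) (hb : ‖ub‖ ≤ 1 - η)
    (hab : ‖ua - ub‖ ≤ η / 9) :
    f (e0, (1 / 2 : ℝ) • (ua + ub)) = (1 / 2 : ℝ) • (f (e0, ua) + f (e0, ub)) := by
  set r0 : ℝ := η / 9 with hr0
  have hr0pos : 0 < r0 := by positivity
  have hr1 : 9 * r0 ≤ η := by rw [hr0]; linarith
  set S : Set F := {u | ‖u - ua‖ ≤ r0 ∧ ‖u - ub‖ ≤ r0} with hS
  have hSn : ∀ u ∈ S, ‖u‖ ≤ 1 - η / 2 := by
    intro u hu
    have := norm_add_le (u - ua) ua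
    rw [sub_add_cancel] at this
    linarith [hu.1]
  have hiso1 : ∀ x y : F, ‖x‖ ≤ 1 → ‖y‖ ≤ 1 → ‖f (e0, x) - f (e0, y)‖ = ‖x - y‖ := by
    intro x y hx hy
    rw [hf.iso _ _ (norm_face he0 hx) (norm_face he0 hy), pnrm_sub, sub_self, norm_zero]
    exact max_eq_right (norm_nonneg _)
  apply local_mid_abs (fun u => f (e0, u)) S
  · exact ⟨by rw [sub_self, norm_zero]; exact hr0pos.le, hab⟩
  · exact ⟨by rw [norm_sub_rev]; exact hab, by rw [sub_self, norm_zero]; exact hr0pos.le⟩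
  · constructor
    · have : (1 / 2 : ℝ) • (ua + ub) - ua = (-(1 / 2) : ℝ) • (ua - ub) := by module
      rw [this, norm_smul, Real.norm_eq_abs, abs_neg, abs_of_nonneg (by norm_num)]
      linarith [norm_nonneg (ua - ub)]
    · have : (1 / 2 : ℝ) • (ua + ub) - ub = (1 / 2 : ℝ) • (ua - ub) := by module
      rw [this, norm_smul, Real.norm_eq_abs, abs_of_nonneg (by norm_num)]
      linarith [norm_nonneg (ua - ub)]
  · intro x hx y hy
    exact hiso1 x y (by linarith [hSn x hx]) (by linarith [hSn y hy])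
  · intro x hx
    constructor
    · have : ua + ub - x - ua = -(x - ub) := by abel
      rw [this, norm_neg]; exact hx.2
    · have : ua + ub - x - ub = -(x - ua) := by abel
      rw [this, norm_neg]; exact hx.1
  · intro x hx
    obtain ⟨vm, hvm, hfvm⟩ := leaf_mid hf he0 (by linarith : ‖ua‖ < 1) (by linarith : ‖ub‖ ≤ 1)
    have hvma : ‖vm - ua‖ ≤ r0 / 2 := by
      rw [← hiso1 vm ua hvm (by linarith), hfvm]
      have : (1 / 2 : ℝ) • (f (e0, ua) + f (e0, ub)) - f (e0, ua)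
          = (-(1 / 2) : ℝ) • (f (e0, ua) - f (e0, ub)) := by module
      rw [this, norm_smul, hiso1 ua ub (by linarith) (by linarith), Real.norm_eq_abs, abs_neg,
        abs_of_nonneg (by norm_num)]
      linarith
    have hvmn : ‖vm‖ ≤ 1 - η / 2 := by
      have := norm_add_le (vm - ua) ua
      rw [sub_add_cancel] at this
      linarith
    have hvmx : ‖vm - x‖ ≤ 2 * r0 := by
      have e1 : vm - x = (vm - ua) - (x - ua) := by abel
      have := norm_sub_le (vm - ua) (x - ua)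
      rw [← e1] at this
      linarith [hx.1]
    obtain ⟨v, hv, hfv⟩ := crux' hf he0 (η := η / 2) (r := 2 * r0) (by linarith)
      hvmn (hSn x hx) hvmx
    have hfv' : f (e0, v) = f (e0, ua) + f (e0, ub) - f (e0, x) := by
      rw [hfv, hfvm]; module
    have hx1 : ‖x‖ ≤ 1 := by linarith [hSn x hx]
    refine ⟨v, ⟨?_, ?_⟩, hfv'⟩
    · rw [← hiso1 v ua hv (by linarith), hfv']
      have : f (e0, ua) + f (e0, ub) - f (e0, x) - f (e0, ua) = f (e0, ub) - f (e0, x) := by abel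
      rw [this, hiso1 ub x (by linarith) hx1, norm_sub_rev]; exact hx.2
    · rw [← hiso1 v ub hv (by linarith), hfv']
      have : f (e0, ua) + f (e0, ub) - f (e0, x) - f (e0, ub) = f (e0, ua) - f (e0, x) := by abel
      rw [this, hiso1 ua x (by linarith) hx1, norm_sub_rev]; exact hx.1

lemma leaf_mid_global' {e0 : E} (he0 : ‖e0‖ = 1) {ua ub : F}
    (ha : ‖ua‖ < 1) (hb : ‖ub‖ < 1) :
    f (e0, (1 / 2 : ℝ) • (ua + ub)) = (1 / 2 : ℝ) • (f (e0, ua) + f (e0, ub)) := by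
  set δ : ℝ := 1 - max ‖ua‖ ‖ub‖ with hδ
  have hδ0 : 0 < δ := by
    have := max_lt ha hb
    linarith
  have h := doubling (closedBall (0 : F) (1 - δ)) (convex_closedBall _ _)
    (fun u => f (e0, u)) (ε := δ / 9) (by positivity)
    (fun x hx y hy hxy => leaf_mid_local' hf he0 hδ0 (mem_closedBall_zero_iff.mp hx)
      (mem_closedBall_zero_iff.mp hy) hxy)
  apply h
  · rw [mem_closedBall_zero_iff, hδ]
    have := le_max_left ‖ua‖ ‖ub‖
    linarith
  · rw [mem_closedBall_zero_iff, hδ]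
    have := le_max_right ‖ua‖ ‖ub‖
    linarith

/-- `f` is affine on every leaf `{e} × B_F` -/
lemma exists_leaf_map' {e : E} (he : ‖e‖ = 1) :
    ∃ A : F →L[ℝ] W, (∀ u, ‖u‖ ≤ 1 → f (e, u) = f (e, 0) + A u) ∧ ∀ u, ‖A u‖ = ‖u‖ := by
  apply slice_affine (fun u => f (e, u))
  · intro u u' hu hu'
    rw [hf.iso _ _ (norm_face he hu) (norm_face he hu'), pnrm_sub, sub_self, norm_zero]
    exact max_eq_right (norm_nonneg _)
  · intro u u' hu hu'
    exact leaf_mid_global' hf he hu hu'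


end Vale.Agent.P084
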