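import Vale.Agent.P084.Sc3
import Vale.Agent.P084.Sd2

namespace Vale.Agent.P084

open Metric Set

set_option linter.unusedSectionVars false

universe u v w

variable {E : Type u} {F : Type v} {W : Type w}
  [NormedAddCommGroup E] [NormedSpace ℝ E] [NormedAddCommGroup F] [NormedSpace ℝ F]
  [NormedAddCommGroup W] [NormedSpace ℝ W] [StrictConvexSpace ℝ E]

lemma unit_of_ne {Z : Type*} [NormedAddCommGroup Z] [NormedSpace ℝ Z] {x : Z} (hx : x ≠ 0) :
    ‖‖x‖⁻¹ • x‖ = 1 ∧ x = ‖x‖ • (‖x‖⁻¹ • x) := by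
  have hpos : 0 < ‖x‖ := norm_pos_iff.mpr hx
  constructor
  · rw [norm_smul, norm_inv, norm_norm, inv_mul_cancel₀ hpos.ne']
  · rw [smul_smul, mul_inv_cancel₀ hpos.ne', one_smul]

/-- first part: `f (x, u) = G x + A u` with `G` homogeneous -/
lemma sc_split (hEn : ∃ e : E, ‖e‖ = 1) {f : E × F → W} (hf : SphIso f) :
    ∃ (G : E → W) (A : F →L[ℝ] W), (∀ (l : ℝ) (x : E), G (l • x) = l • G x) ∧
      ∀ z : E × F, ‖z‖ = 1 → f z = G z.1 + A z.2 := by
  obtain ⟨es, hes⟩ := hEn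
  obtain ⟨A, hA1, hA2⟩ := exists_leaf_map' hf hes
  have hAall : ∀ e : E, ‖e‖ = 1 → ∀ u, ‖u‖ ≤ 1 → f (e, u) = f (e, 0) + A u := by
    intro e he u hu
    obtain ⟨A', hA1', hA2'⟩ := exists_leaf_map' hf he
    rw [hA1' u hu]
    congr 1
    by_cases h0 : u = 0
    · rw [h0, map_zero, map_zero]
    · obtain ⟨h1, h2⟩ := unit_of_ne h0
      have h3 : A' (‖u‖⁻¹ • u) = A (‖u‖⁻¹ • u) := by
        rw [← side_zero hf he A' hA1' hA2' h1, ← side_zero hf hes A hA1 hA2 h1]
      have h4 : A' u = ‖u‖ • A' (‖u‖⁻¹ • u) := by rw [← map_smul, ← h2]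
      have h5 : A u = ‖u‖ • A (‖u‖⁻¹ • u) := by rw [← map_smul, ← h2]
      rw [h4, h5, h3]
  let G : E → W := fun x => ‖x‖ • f (‖x‖⁻¹ • x, 0)
  have hGdef : ∀ x, G x = ‖x‖ • f (‖x‖⁻¹ • x, 0) := fun x => rfl
  have hG1 : ∀ e : E, ‖e‖ = 1 → G e = f (e, 0) := by
    intro e he
    rw [hGdef, he, inv_one, one_smul, one_smul]
  have hG0 : G 0 = 0 := by rw [hGdef, norm_zero, zero_smul]
  have hGpos : ∀ (l : ℝ) (x : E), 0 < l → G (l • x) = l • G x := by
    intro l x hl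
    rw [hGdef, hGdef, norm_smul, Real.norm_of_nonneg hl.le, smul_smul, smul_smul, mul_inv,
      mul_assoc, mul_comm ‖x‖⁻¹ l, ← mul_assoc, inv_mul_cancel₀ hl.ne', one_mul]
  have hGneg : ∀ x : E, G (-x) = - G x := by
    intro x
    by_cases h0 : x = 0
    · rw [h0, neg_zero, hG0, neg_zero]
    · obtain ⟨h1, -⟩ := unit_of_ne h0
      rw [hGdef, hGdef, norm_neg, smul_neg, pole hf h1, smul_neg]
  have hGs : ∀ (l : ℝ) (x : E), G (l • x) = l • G x := by
    intro l x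
    rcases lt_trichotomy l 0 with h | h | h
    · have : l • x = -((-l) • x) := by module
      rw [this, hGneg, hGpos _ _ (by linarith)]; module
    · rw [h, zero_smul, zero_smul, hG0]
    · exact hGpos l x h
  refine ⟨G, A, hGs, ?_⟩
  rintro ⟨x, u⟩ hz
  change f (x, u) = G x + A u
  have hz' := hz
  rw [pnrm] at hz'
  have hx1 : ‖x‖ ≤ 1 := hz' ▸ le_max_left _ _
  have hu1 : ‖u‖ ≤ 1 := hz' ▸ le_max_right _ _
  rcases lt_or_eq_of_le hx1 with h | h
  · have hu : ‖u‖ = 1 := by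
      rcases max_choice ‖x‖ ‖u‖ with h' | h'
      · rw [h'] at hz'; linarith
      · rw [h'] at hz'; exact hz'
    by_cases h0 : x = 0
    · rw [h0, hG0, zero_add]
      exact side_zero hf hes A hA1 hA2 hu
    · obtain ⟨h1, h2⟩ := unit_of_ne h0
      have hpos : 0 < ‖x‖ := norm_pos_iff.mpr h0
      have := side_open hf h1 A (hAall _ h1) hA2 hpos h hu
      rw [← h2] at this
      rw [this, hGdef]
  · rw [hAall x h u hu1, hG1 x h]

theorem sc_raw (hEn : ∃ e : E, ‖e‖ = 1) (hFn : ∃ s : F, ‖s‖ = 1)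
    {f : E × F → W} (hf : SphIso f) :
    ∃ T : E × F →L[ℝ] W, ∀ z, ‖z‖ = 1 → T z = f z := by
  obtain ⟨G, A, hGs, hfz⟩ := sc_split hEn hf
  obtain ⟨ss, hss⟩ := hFn
  have hG0 : G 0 = 0 := by
    have := hGs 0 0
    rwa [zero_smul, zero_smul] at this
  let Φ : E × F → W := fun z => G z.1 + A z.2
  have hΦdef : ∀ z, Φ z = G z.1 + A z.2 := fun z => rfl
  have hΦs : ∀ (l : ℝ) (z : E × F), Φ (l • z) = l • Φ z := by
    intro l z
    rw [hΦdef, hΦdef, Prod.smul_fst, Prod.smul_snd, hGs, map_smul, smul_add]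
  have hΦ0 : Φ 0 = 0 := by
    have := hΦs 0 0
    rwa [zero_smul, zero_smul] at this
  have hΦnorm : ∀ z, ‖Φ z‖ = ‖z‖ := by
    intro z
    by_cases h0 : z = 0
    · rw [h0, hΦ0, norm_zero, norm_zero]
    · obtain ⟨h1, h2⟩ := unit_of_ne h0
      have h3 : Φ z = ‖z‖ • Φ (‖z‖⁻¹ • z) := by rw [← hΦs, ← h2]
      rw [h3, norm_smul, norm_norm, hΦdef, ← hfz _ h1, hf.norm _ h1, mul_one]
  have hΦiso : ∀ z z', ‖z‖ = ‖z'‖ → ‖Φ z - Φ z'‖ = ‖z - z'‖ := by
    intro z z' hzz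
    by_cases h0 : z = 0
    · have h0' : z' = 0 := by
        rw [h0, norm_zero] at hzz
        exact norm_eq_zero.mp hzz.symm
      rw [h0, h0', sub_self, sub_self, norm_zero, norm_zero]
    · have hpos : 0 < ‖z‖ := norm_pos_iff.mpr h0
      have h0' : z' ≠ 0 := by
        intro h
        rw [h, norm_zero] at hzz
        linarith
      obtain ⟨h1, h2⟩ := unit_of_ne h0
      obtain ⟨h1', h2'⟩ := unit_of_ne h0'
      rw [← hzz] at h1' h2'
      have h3 : Φ z - Φ z' = ‖z‖ • (f (‖z‖⁻¹ • z) - f (‖z‖⁻¹ • z')) := by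
        rw [hfz _ h1, hfz _ h1', ← hΦdef, ← hΦdef, smul_sub, ← hΦs, ← hΦs, ← h2, ← h2']
      rw [h3, norm_smul, norm_norm, hf.iso _ _ h1 h1', ← smul_sub, norm_smul, norm_inv, norm_norm,
        ← mul_assoc, mul_inv_cancel₀ hpos.ne', one_mul]
  have hΦsurj : ∀ y : W, ∃ z, Φ z = y := by
    intro y
    by_cases h0 : y = 0
    · exact ⟨0, by rw [hΦ0, h0]⟩
    · obtain ⟨h1, h2⟩ := unit_of_ne h0
      obtain ⟨z, hz, hzy⟩ := hf.surj _ h1
      refine ⟨‖y‖ • z, ?_⟩
      rw [hΦs, hΦdef, ← hfz z hz, hzy, ← h2]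
  have hGiso : ∀ x x' : E, ‖G x - G x'‖ = ‖x - x'‖ := by
    intro x x'
    set R : ℝ := max ‖x‖ ‖x'‖ + 1 with hR
    have hRpos : 0 < R := by
      have := le_max_left ‖x‖ ‖x'‖
      linarith [norm_nonneg x]
    have hu : ‖R • ss‖ = R := by rw [norm_smul, hss, mul_one, Real.norm_of_nonneg hRpos.le]
    have n1 : ‖((x, R • ss) : E × F)‖ = R := by
      rw [pnrm, hu]; exact max_eq_right (by linarith [le_max_left ‖x‖ ‖x'‖])
    have n2 : ‖((x', R • ss) : E × F)‖ = R := by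
      rw [pnrm, hu]; exact max_eq_right (by linarith [le_max_right ‖x‖ ‖x'‖])
    have := hΦiso (x, R • ss) (x', R • ss) (by rw [n1, n2])
    rw [hΦdef, hΦdef, pnrm_sub, sub_self, norm_zero, max_eq_left (norm_nonneg _)] at this
    rw [← this]
    congr 1
    abel
  have hclosed : ∀ x1 x2 : E, ∃ x', G x1 + G x2 = G x' := by
    intro x1 x2
    obtain ⟨⟨x', u'⟩, hz⟩ := hΦsurj (G x1 + G x2)
    rw [hΦdef] at hz
    change G x' + A u' = G x1 + G x2 at hz
    have hu' : u' = 0 := by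
      by_contra hne
      have hpos : 0 < ‖u'‖ := norm_pos_iff.mpr hne
      set R : ℝ := ‖x1‖ + ‖x2‖ + 1 with hR
      have hRpos : 0 < R := by positivity
      set κ : ℝ := R / ‖u'‖ with hκ
      have hκpos : 0 < κ := by positivity
      have hκu : κ * ‖u'‖ = R := by rw [hκ, div_mul_cancel₀ _ hpos.ne']
      have hn : ‖κ • u'‖ = R := by rw [norm_smul, Real.norm_of_nonneg hκpos.le, hκu]
      have n1 : ‖((x1, κ • u') : E × F)‖ = R := by
        rw [pnrm, hn]; exact max_eq_right (by rw [hR]; linarith [norm_nonneg x2])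
      have n2 : ‖((-x2, -(κ • u')) : E × F)‖ = R := by
        rw [pnrm, norm_neg, norm_neg, hn]; exact max_eq_right (by rw [hR]; linarith [norm_nonneg x1])
      have h1 := hΦiso (x1, κ • u') (-x2, -(κ • u')) (by rw [n1, n2])
      rw [hΦdef, hΦdef, pnrm_sub] at h1
      have hGn : G (-x2) = - G x2 := by
        have := hGs (-1) x2
        rwa [neg_one_smul, neg_one_smul] at this
      have e1 : G x1 + A (κ • u') - (G (-x2) + A (-(κ • u'))) = Φ (x', (1 + 2 * κ) • u') := by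
        rw [hΦdef, hGn, map_neg, map_smul, map_smul]
        change _ = G x' + (1 + 2 * κ) • A u'
        have : G x' = G x1 + G x2 - A u' := by rw [← hz]; abel
        rw [this]; module
      change ‖G x1 + A (κ • u') - (G (-x2) + A (-(κ • u')))‖ = _ at h1
      rw [e1, hΦnorm, pnrm] at h1
      have h2 : ‖(1 + 2 * κ) • u'‖ = ‖u'‖ + 2 * R := by
        rw [norm_smul, Real.norm_of_nonneg (by positivity), add_mul, one_mul, mul_assoc, hκu]
      have h3 : ‖κ • u' - -(κ • u')‖ = 2 * R := by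
        have : κ • u' - -(κ • u') = (2 : ℝ) • (κ • u') := by module
        rw [this, norm_smul, hn]; norm_num
      have h4 : ‖x1 - -x2‖ ≤ 2 * R := by
        have := norm_sub_le x1 (-x2)
        rw [norm_neg] at this
        rw [hR]; linarith [norm_nonneg x1, norm_nonneg x2]
      rw [h2, h3, max_eq_right h4] at h1
      have := le_max_right ‖x'‖ (‖u'‖ + 2 * R)
      linarith
    refine ⟨x', ?_⟩
    rw [← hz, hu', map_zero, add_zero]
  have hadd : ∀ x1 x2 : E, G (x1 + x2) = G x1 + G x2 := by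
    intro x1 x2
    obtain ⟨x', hx'⟩ := hclosed x1 x2
    set m : E := (1 / 2 : ℝ) • x' with hm
    have hGm : G m = (1 / 2 : ℝ) • (G x1 + G x2) := by rw [hm, hGs, hx']
    have d1 : dist x1 m = dist x1 x2 / 2 := by
      rw [dist_eq_norm, dist_eq_norm, ← hGiso, ← hGiso, hGm]
      have : G x1 - (1 / 2 : ℝ) • (G x1 + G x2) = (1 / 2 : ℝ) • (G x1 - G x2) := by module
      rw [this, norm_smul]; norm_num; ring
    have d2 : dist m x2 = dist x1 x2 / 2 := by
      rw [dist_eq_norm, dist_eq_norm, ← hGiso, ← hGiso, hGm]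
      have : (1 / 2 : ℝ) • (G x1 + G x2) - G x2 = (1 / 2 : ℝ) • (G x1 - G x2) := by module
      rw [this, norm_smul]; norm_num; ring
    have h3 := eq_midpoint_of_dist_eq_half d1 d2
    rw [midpoint_eq_smul_add] at h3
    have h4 : x' = x1 + x2 := by
      have : (1 / 2 : ℝ) • x' = (1 / 2 : ℝ) • (x1 + x2) := by
        rw [← hm, h3]; congr 1; norm_num
      exact smul_right_injective E (by norm_num : (1 / 2 : ℝ) ≠ 0) this
    rw [← h4, hx']
  let Gl : E →ₗ[ℝ] W := { toFun := G, map_add' := hadd, map_smul' := fun l x => hGs l x }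
  let Gc : E →L[ℝ] W := Gl.mkContinuous 1 (fun x => by
    have := hGiso x 0
    rw [hG0, sub_zero, sub_zero] at this
    change ‖G x‖ ≤ 1 * ‖x‖
    rw [this, one_mul])
  have hGc : ∀ x, Gc x = G x := fun x => rfl
  refine ⟨Gc.comp (ContinuousLinearMap.fst ℝ E F) + A.comp (ContinuousLinearMap.snd ℝ E F), ?_⟩
  intro z hz
  rw [hfz z hz]
  rfl

end Vale.Agent.P084
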