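import Vale.Agent.P084.Extend

namespace Vale.Agent.P084

open Metric Set

set_option linter.unusedSectionVars false

universe u v w

variable {ι : Type u} {Z : Type v} {W : Type w}
  [NormedAddCommGroup Z] [NormedSpace ℝ Z] [NormedAddCommGroup W] [NormedSpace ℝ W]

section assemble

variable (D : SupDecomp ι Z) {f : Z → W} (hf : SphIso f)

include D in
lemma face_pt (i : ι) {u x : Z} (hu : D.p i u = u) (hun : ‖u‖ = 1) (hx : ‖x‖ ≤ 1) :
    D.p i (u + (x - D.p i x)) = u ∧ ‖u + (x - D.p i x)‖ = 1 := by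
  have h1 : D.p i (u + (x - D.p i x)) = u := by
    rw [map_add, map_sub, D.idem, sub_self, add_zero, hu]
  refine ⟨h1, D.norm_eq_one i (by rw [h1, hun]) ?_⟩
  intro j hj
  rw [map_add, map_sub, D.orth j i x hj, sub_zero, ← hu, D.orth j i u hj, zero_add]
  exact le_trans (D.le j x) hx

include D hf in
lemma exists_L (i : ι) (u : Z) (hu : D.p i u = u) (hun : ‖u‖ = 1) :
    ∃ L : Z →L[ℝ] W, ∀ z, ‖z‖ ≤ 1 → L z = f (u + (z - D.p i z)) - f u := by
  apply extend_ball (fun z => f (u + (z - D.p i z)) - f u) (by simp) ?_ 1 ?_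
  · intro x y hx hy
    obtain ⟨a1, a2⟩ := face_pt D i hu hun hx
    obtain ⟨b1, b2⟩ := face_pt D i hu hun hy
    have := face_mid D hf i a2 b2 (by rw [a1, hun]) (by rw [a1, b1])
    have e : u + ((1 / 2 : ℝ) • (x + y) - D.p i ((1 / 2 : ℝ) • (x + y))) =
        (1 / 2 : ℝ) • (u + (x - D.p i x) + (u + (y - D.p i y))) := by
      rw [map_smul, map_add]; module
    rw [e, this]; module
  · intro x hx
    obtain ⟨a1, a2⟩ := face_pt D i hu hun hx
    rw [hf.iso _ _ a2 hun, one_mul]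
    have : u + (x - D.p i x) - u = x - D.p i x := by abel
    rw [this]
    exact D.norm_sub_proj_le i x

include D in
lemma approx {z : Z} (hz : ‖z‖ = 1) {ε : ℝ} (hε : 0 < ε) (hε1 : ε < 1) :
    ∃ (j : ι) (z' : Z), ‖z'‖ = 1 ∧ ‖D.p j z'‖ = 1 ∧ ‖z - z'‖ ≤ ε ∧
      (∀ k, k ≠ j → D.p k z' = D.p k z) ∧ D.p j z ≠ 0 := by
  obtain ⟨j, hj⟩ : ∃ j, 1 - ε < ‖D.p j z‖ := by
    by_contra hcon
    simp only [not_exists, not_lt] at hcon
    have := D.bound z (1 - ε) hcon
    linarith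
  have hpos : 0 < ‖D.p j z‖ := by linarith
  have hle : ‖D.p j z‖ ≤ 1 := by rw [← hz]; exact D.le j z
  set v : Z := ‖D.p j z‖⁻¹ • D.p j z with hv
  have hvp : D.p j v = v := by rw [hv, map_smul, D.idem]
  have hvn : ‖v‖ = 1 := by rw [hv, norm_smul, norm_inv, norm_norm, inv_mul_cancel₀ hpos.ne']
  have hzv : D.p j z = ‖D.p j z‖ • v := by
    rw [hv, smul_smul, mul_inv_cancel₀ hpos.ne', one_smul]
  have hpj : D.p j (z - D.p j z + v) = v := by
    rw [map_add, map_sub, D.idem, sub_self, zero_add, hvp]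
  have hpk : ∀ k, k ≠ j → D.p k (z - D.p j z + v) = D.p k z := by
    intro k hk
    rw [map_add, map_sub, D.orth k j z hk, sub_zero, ← hvp, D.orth k j v hk, add_zero]
  refine ⟨j, z - D.p j z + v, ?_, by rw [hpj, hvn], ?_, hpk, norm_pos_iff.mp hpos⟩
  · exact D.norm_eq_one j (by rw [hpj, hvn]) (fun k hk => by
      rw [hpk k hk, ← hz]; exact D.le k z)
  · have : z - (z - D.p j z + v) = (-(1 - ‖D.p j z‖)) • v := by
      have e : z - (z - D.p j z + v) = D.p j z - v := by abel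
      rw [e]
      nth_rewrite 1 [hzv]
      module
    rw [this, norm_smul, hvn, mul_one, Real.norm_eq_abs, abs_neg, abs_of_nonneg (by linarith)]
    linarith

include D in
lemma norm_add_orth (i : ι) {u k : Z} (hu : D.p i u = u) (hun : ‖u‖ = 1) (hk : D.p i k = 0)
    (hkn : ‖k‖ ≤ 1) : ‖u + k‖ = 1 := by
  have := (face_pt D i hu hun hkn).2
  rwa [hk, sub_zero] at this

include D hf in
lemma corner_att (i j : ι) {u k : Z} (hu : D.p i u = u) (hun : ‖u‖ = 1) (hk : D.p i k = 0)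
    (hkn : ‖k‖ = 1) (hj : ‖D.p j k‖ = 1) : f (u + k) = f u + f k := by
  have hji : j ≠ i := by
    intro h; subst h; rw [hk, norm_zero] at hj; norm_num at hj
  have hju : D.p j u = 0 := by rw [← hu, D.orth j i u hji]
  have n1 : ‖u + k‖ = 1 := norm_add_orth D i hu hun hk hkn.le
  have n2 : ‖u - k‖ = 1 := by
    have := norm_add_orth D i hu hun (k := -k) (by rw [map_neg, hk, neg_zero])
      (by rw [norm_neg]; exact hkn.le)
    rwa [← sub_eq_add_neg] at this
  have n3 : ‖-u + k‖ = 1 := by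
    have : -u + k = -(u - k) := by abel
    rw [this, norm_neg, n2]
  have m1 := face_mid D hf i n1 n2 (by rw [map_add, hu, hk, add_zero, hun])
    (by rw [map_add, map_sub, hk, add_zero, sub_zero])
  have m2 := face_mid D hf j n1 n3 (by rw [map_add, hju, zero_add, hj])
    (by rw [map_add, map_add, map_neg, hju, neg_zero])
  have e1 : (1 / 2 : ℝ) • (u + k + (u - k)) = u := by module
  have e2 : (1 / 2 : ℝ) • (u + k + (-u + k)) = k := by module
  have e3 : f (-u + k) = - f (u - k) := by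
    have : -u + k = -(u - k) := by abel
    rw [this, odd D hf n2]
  rw [e1] at m1
  rw [e2, e3] at m2
  rw [m1, m2]; module

include D hf in
lemma corner (i : ι) {u k : Z} (hu : D.p i u = u) (hun : ‖u‖ = 1) (hk : D.p i k = 0)
    (hkn : ‖k‖ = 1) : f (u + k) = f u + f k := by
  apply eq_of_forall_norm_le
  intro ε hε hε1
  obtain ⟨j, k', hk'n, hj, hd, hco, hne⟩ := approx D hkn (ε := ε / 2) (by positivity) (by linarith)
  have hij : i ≠ j := by
    intro h; subst h; exact hne hk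
  have hk' : D.p i k' = 0 := by rw [hco i hij, hk]
  have hc := corner_att D hf i j hu hun hk' hk'n hj
  have n1 : ‖u + k‖ = 1 := norm_add_orth D i hu hun hk hkn.le
  have n2 : ‖u + k'‖ = 1 := norm_add_orth D i hu hun hk' hk'n.le
  have e1 := hf.iso _ _ n1 n2
  have e2 := hf.iso _ _ hkn hk'n
  have : f (u + k) - (f u + f k) = (f (u + k) - f (u + k')) - (f k - f k') := by
    rw [hc]; abel
  rw [this]
  have t := norm_sub_le (f (u + k) - f (u + k')) (f k - f k')
  rw [e1, e2] at t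
  have : u + k - (u + k') = k - k' := by abel
  rw [this] at t
  linarith

include D hf in
lemma L_unit {i : ι} {u : Z} (hu : D.p i u = u) (hun : ‖u‖ = 1) (L : Z →L[ℝ] W)
    (hL : ∀ z, ‖z‖ ≤ 1 → L z = f (u + (z - D.p i z)) - f u) {k : Z} (hk : D.p i k = 0)
    (hkn : ‖k‖ = 1) : L k = f k := by
  rw [hL k hkn.le, hk, sub_zero, corner D hf i hu hun hk hkn]; abel

include D hf in
lemma L_agree {i j : ι} {u v : Z} (hu : D.p i u = u) (hun : ‖u‖ = 1) (hv : D.p j v = v)
    (hvn : ‖v‖ = 1) (L L' : Z →L[ℝ] W)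
    (hL : ∀ z, ‖z‖ ≤ 1 → L z = f (u + (z - D.p i z)) - f u)
    (hL' : ∀ z, ‖z‖ ≤ 1 → L' z = f (v + (z - D.p j z)) - f v) {k : Z} (hki : D.p i k = 0)
    (hkj : D.p j k = 0) : L k = L' k := by
  by_cases h0 : k = 0
  · rw [h0, map_zero, map_zero]
  · have hpos : 0 < ‖k‖ := norm_pos_iff.mpr h0
    have hkk : k = ‖k‖ • (‖k‖⁻¹ • k) := by
      rw [smul_smul, mul_inv_cancel₀ hpos.ne', one_smul]
    have hn : ‖‖k‖⁻¹ • k‖ = 1 := by
      rw [norm_smul, norm_inv, norm_norm, inv_mul_cancel₀ hpos.ne']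
    have a1 := L_unit D hf hu hun L hL (k := ‖k‖⁻¹ • k) (by rw [map_smul, hki, smul_zero]) hn
    have a2 := L_unit D hf hv hvn L' hL' (k := ‖k‖⁻¹ • k) (by rw [map_smul, hkj, smul_zero]) hn
    have b1 : L k = ‖k‖ • L (‖k‖⁻¹ • k) := by rw [← map_smul, ← hkk]
    have b2 : L' k = ‖k‖ • L' (‖k‖⁻¹ • k) := by rw [← map_smul, ← hkk]
    rw [b1, b2, a1, a2]

include D in
lemma L_kill {i : ι} {u : Z} (L : Z →L[ℝ] W)
    (hL : ∀ z, ‖z‖ ≤ 1 → L z = f (u + (z - D.p i z)) - f u) {h : Z} (hh : D.p i h = h)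
    (hhn : ‖h‖ ≤ 1) : L h = 0 := by
  rw [hL h hhn, hh, sub_self, add_zero, sub_self]

include D hf in
theorem main_raw (i0 i1 : ι) (hne : i0 ≠ i1) :
    ∃ T : Z →L[ℝ] W, ∀ z, ‖z‖ = 1 → T z = f z := by
  obtain ⟨u0, hu0, hu0n⟩ := D.unit i0
  obtain ⟨u1, hu1, hu1n⟩ := D.unit i1
  obtain ⟨L0, hL0⟩ := exists_L D hf i0 u0 hu0 hu0n
  obtain ⟨L1, hL1⟩ := exists_L D hf i1 u1 hu1 hu1n
  let P : Z →L[ℝ] Z := (D.p i0).mkContinuous 1 (fun x => by rw [one_mul]; exact D.le i0 x)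
  have hP : ∀ x, P x = D.p i0 x := fun x => rfl
  let T : Z →L[ℝ] W := L0 + L1.comp P
  have hT : ∀ x, T x = L0 x + L1 (D.p i0 x) := fun x => rfl
  have hatt : ∀ (j : ι) (z : Z), ‖z‖ = 1 → ‖D.p j z‖ = 1 → T z = f z := by
    intro j z hz hj
    set h : Z := D.p i0 z with hh
    have hhp : D.p i0 h = h := D.idem i0 z
    have hhn : ‖h‖ ≤ 1 := by rw [← hz]; exact D.le i0 z
    have hh1 : D.p i1 h = 0 := D.orth i1 i0 z hne.symm
    by_cases hji : j = i0
    · subst hji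
      obtain ⟨Lh, hLh⟩ := exists_L D hf j h hhp hj
      have e1 : f z = f h + Lh z := by
        rw [hLh z hz.le]
        have : h + (z - D.p j z) = z := by rw [← hh]; abel
        rw [this]; abel
      have e2 : Lh z = Lh (z - h) := by
        rw [map_sub, L_kill D Lh hLh hhp hhn, sub_zero]
      have e3 : L0 z = L0 (z - h) := by
        rw [map_sub, L_kill D L0 hL0 hhp hhn, sub_zero]
      have hz0 : D.p j (z - h) = 0 := by rw [map_sub, hhp, ← hh, sub_self]
      have e4 : Lh (z - h) = L0 (z - h) := L_agree D hf hhp hj hu0 hu0n Lh L0 hLh hL0 hz0 hz0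
      have e5 : L1 h = f h := L_unit D hf hu1 hu1n L1 hL1 hh1 hj
      rw [hT, e1, e2, e3, e4, e5]; abel
    · set v : Z := D.p j z with hv
      have hvp : D.p j v = v := D.idem j z
      obtain ⟨Lv, hLv⟩ := exists_L D hf j v hvp hj
      have e1 : f z = f v + Lv z := by
        rw [hLv z hz.le]
        have : v + (z - D.p j z) = z := by rw [← hv]; abel
        rw [this]; abel
      have hv0 : D.p i0 v = 0 := D.orth i0 j z (fun h => hji h.symm)
      have hhj : D.p j h = 0 := D.orth j i0 z hji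
      set r : Z := z - h - v with hr
      have hr0 : D.p i0 r = 0 := by rw [hr, map_sub, map_sub, hhp, hv0, ← hh]; abel
      have hrj : D.p j r = 0 := by rw [hr, map_sub, map_sub, hvp, hhj, ← hv]; abel
      have hzr : z = h + v + r := by rw [hr]; abel
      have e2 : Lv z = Lv h + Lv r := by
        rw [hzr, map_add, map_add, L_kill D Lv hLv hvp hj.le, add_zero]
      have e3 : L0 z = f v + L0 r := by
        rw [hzr, map_add, map_add, L_kill D L0 hL0 hhp hhn, zero_add,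
          L_unit D hf hu0 hu0n L0 hL0 hv0 hj]
      have e4 : L0 r = Lv r := L_agree D hf hu0 hu0n hvp hj L0 Lv hL0 hLv hr0 hrj
      have e5 : L1 h = Lv h := L_agree D hf hu1 hu1n hvp hj L1 Lv hL1 hLv hh1 hhj
      rw [hT, e1, e2, e3, e4, ← hh, e5]; abel
  refine ⟨T, ?_⟩
  intro z hz
  apply eq_of_forall_norm_le
  intro ε hε hε1
  have hc : 0 < ‖T‖ + 1 := by positivity
  set η : ℝ := ε / (‖T‖ + 1) with hη
  have hη0 : 0 < η := by positivity
  have hη1 : η < 1 := by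
    rw [hη, div_lt_one hc]
    have := norm_nonneg T
    linarith
  obtain ⟨j, z', hz', hj, hd, -, -⟩ := approx D hz hη0 hη1
  have e1 := hatt j z' hz' hj
  have : T z - f z = T (z - z') - (f z - f z') := by rw [map_sub, e1]; abel
  rw [this]
  have t1 := norm_sub_le (T (z - z')) (f z - f z')
  rw [hf.iso z z' hz hz'] at t1
  have t2 := T.le_opNorm (z - z')
  have t3 : ‖T‖ * ‖z - z'‖ ≤ ‖T‖ * η := mul_le_mul_of_nonneg_left hd (norm_nonneg T)
  have t4 : (‖T‖ + 1) * η = ε := by rw [hη]; field_simp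
  linarith

end assemble

theorem main_equiv (D : SupDecomp ι Z) (i0 i1 : ι) (hne : i0 ≠ i1)
    (f : sphere (0 : Z) 1 → sphere (0 : W) 1) (hiso : Isometry f)
    (hsurj : Function.Surjective f) :
    ∃ T : Z ≃ₗᵢ[ℝ] W, ∀ x : sphere (0 : Z) 1, T x = f x := by
  classical
  let g : Z → W := fun z => if h : ‖z‖ = 1 then (f ⟨z, mem_sphere_zero_iff_norm.mpr h⟩ : W) else 0
  have hg : ∀ (z : Z) (h : ‖z‖ = 1), g z = (f ⟨z, mem_sphere_zero_iff_norm.mpr h⟩ : W) := by
    intro z h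
    simp only [g, dif_pos h]
  have hS : SphIso g := by
    refine ⟨?_, ?_, ?_⟩
    · intro z hz
      rw [hg z hz]
      exact mem_sphere_zero_iff_norm.mp (f _).2
    · intro z z' hz hz'
      rw [hg z hz, hg z' hz', ← dist_eq_norm, ← dist_eq_norm, ← Subtype.dist_eq, hiso.dist_eq,
        Subtype.dist_eq]
    · intro y hy
      obtain ⟨x, hx⟩ := hsurj ⟨y, mem_sphere_zero_iff_norm.mpr hy⟩
      have hxn : ‖(x : Z)‖ = 1 := mem_sphere_zero_iff_norm.mp x.2
      refine ⟨x, hxn, ?_⟩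
      rw [hg _ hxn]
      have : (⟨(x : Z), mem_sphere_zero_iff_norm.mpr hxn⟩ : sphere (0 : Z) 1) = x := rfl
      rw [this, hx]
  obtain ⟨T, hT⟩ := main_raw D hS i0 i1 hne
  have hnorm : ∀ z : Z, ‖T z‖ = ‖z‖ := by
    intro z
    by_cases h0 : z = 0
    · rw [h0, map_zero, norm_zero, norm_zero]
    · have hpos : 0 < ‖z‖ := norm_pos_iff.mpr h0
      have hn : ‖‖z‖⁻¹ • z‖ = 1 := by
        rw [norm_smul, norm_inv, norm_norm, inv_mul_cancel₀ hpos.ne']
      have hzz : z = ‖z‖ • (‖z‖⁻¹ • z) := by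
        rw [smul_smul, mul_inv_cancel₀ hpos.ne', one_smul]
      have h1 : T z = ‖z‖ • T (‖z‖⁻¹ • z) := by rw [← map_smul, ← hzz]
      rw [h1, norm_smul, norm_norm, hT _ hn, hS.norm _ hn, mul_one]
  let I : Z →ₗᵢ[ℝ] W := ⟨T.toLinearMap, hnorm⟩
  have hI : ∀ z, I z = T z := fun z => rfl
  have hsur : Function.Surjective I := by
    intro y
    by_cases h0 : y = 0
    · exact ⟨0, by rw [h0, map_zero]⟩
    · have hpos : 0 < ‖y‖ := norm_pos_iff.mpr h0
      have hn : ‖‖y‖⁻¹ • y‖ = 1 := by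
        rw [norm_smul, norm_inv, norm_norm, inv_mul_cancel₀ hpos.ne']
      obtain ⟨z, hz, hzy⟩ := hS.surj _ hn
      refine ⟨‖y‖ • z, ?_⟩
      rw [map_smul, hI, hT z hz, hzy, smul_smul, mul_inv_cancel₀ hpos.ne', one_smul]
  refine ⟨LinearIsometryEquiv.ofSurjective I hsur, ?_⟩
  intro x
  have hxn : ‖(x : Z)‖ = 1 := mem_sphere_zero_iff_norm.mp x.2
  change T (x : Z) = f x
  rw [hT _ hxn, hg _ hxn]

end Vale.Agent.P084
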