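import Vale.Agent.P084.Main

namespace Vale.Agent.P084

open Metric

universe u v w

variable {ι : Type u} [DecidableEq ι] [Fintype ι] {E : ι → Type v}
  [∀ i, NormedAddCommGroup (E i)] [∀ i, NormedSpace ℝ (E i)]

lemma pi_single_norm (i : ι) (e : E i) : ‖(Pi.single i e : ∀ j, E j)‖ = ‖e‖ := by
  apply le_antisymm
  · rw [pi_norm_le_iff_of_nonneg (norm_nonneg _)]
    intro j
    by_cases hj : j = i
    · subst hj; simp
    · rw [Pi.single_eq_of_ne hj, norm_zero]; exact norm_nonneg _
  · have := norm_le_pi_norm (Pi.single i e : ∀ j, E j) i
    simpa using this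

noncomputable def piDecomp [Nonempty ι] [∀ i, StrictConvexSpace ℝ (E i)] [∀ i, Nontrivial (E i)] :
    SupDecomp ι (∀ i, E i) where
  p := fun i => (LinearMap.single ℝ E i).comp (LinearMap.proj i)
  idem := by
    intro i z
    simp
  orth := by
    intro i j z hij
    simp [Pi.single_eq_of_ne hij]
  le := by
    intro i z
    simp only [LinearMap.comp_apply, LinearMap.proj_apply, LinearMap.coe_single]
    rw [pi_single_norm]
    exact norm_le_pi_norm z i
  bound := by
    intro z c h
    rw [pi_norm_le_iff_of_nonempty]
    intro i
    have := h i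
    simp only [LinearMap.comp_apply, LinearMap.proj_apply, LinearMap.coe_single] at this
    rwa [pi_single_norm] at this
  ray := by
    intro i x y h
    rw [← map_add] at h
    simp only [LinearMap.comp_apply, LinearMap.proj_apply, LinearMap.coe_single] at h
    rw [pi_single_norm, pi_single_norm, pi_single_norm] at h
    have hr := (sameRay_iff_norm_add (x := x i) (y := y i)).mpr (by simpa using h)
    exact hr.map (LinearMap.single ℝ E i)
  unit := by
    intro i
    obtain ⟨e, he⟩ := exists_norm_eq (E i) (c := 1) zero_le_one
    refine ⟨Pi.single i e, by simp, ?_⟩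
    rw [pi_single_norm, he]

end Vale.Agent.P084
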