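import Mathlib

namespace Vale.Agent.P084

universe v

/-- `E 0 < E 1 < ... < E (n-1)` are successive nonempty finite sets of positive integers whose
set of minima `{min E 0, ..., min E (n-1)}` belongs to the family `𝓕`. -/
def IsAdmissible (𝓕 : Set (Finset ℕ+)) {n : ℕ} (E : Fin n → Finset ℕ+) : Prop :=
  (∀ j j', j < j' → ∀ i ∈ E j, ∀ i' ∈ E j', i < i') ∧
    ∃ m : Fin n → ℕ+, (∀ j, m j ∈ E j ∧ ∀ i ∈ E j, m j ≤ i) ∧ Finset.univ.image m ∈ 𝓕

/-- `e` is the unit vector system of the combinatorial Tsirelson space `T[θ, 𝓕]`: the span of the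
`e i` is dense and the norm satisfies the implicit Tsirelson equation
`‖x‖ = max (sup_i |a i|) (θ * sup ∑_j ‖E j x‖)` for `x = ∑ a i • e i`, the second supremum being
over all `𝓕`-admissible families `E 0 < ... < E (n-1)`; `E j x` is the restriction of `x`. -/
def IsTsirelsonSystem (𝓕 : Set (Finset ℕ+)) (θ : ℝ) {X : Type v} [NormedAddCommGroup X]
    [NormedSpace ℝ X] (e : ℕ+ → X) : Prop :=
  Dense ((Submodule.span ℝ (Set.range e) : Submodule ℝ X) : Set X) ∧
    ∀ a : ℕ+ →₀ ℝ,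
      IsLUB ({r : ℝ | ∃ i, r = |a i|} ∪
        {r : ℝ | ∃ (n : ℕ) (E : Fin n → Finset ℕ+), IsAdmissible 𝓕 E ∧
          r = θ * ∑ j, ‖(a.filter (· ∈ E j)).sum fun i c => c • e i‖})
        ‖a.sum fun i c => c • e i‖

end Vale.Agent.P084
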