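import Vale.Agent.P084.Comb2
import Vale.Agent.P084.TsiDefs

namespace Vale.Agent.P084

open Metric Set Filter Topology

universe u v w

section key

variable {ι : Type u} {X : Type v} [NormedAddCommGroup X] [NormedSpace ℝ X]

/-- abstract form: the vector `e k` spans a sup-norm summand on finite linear combinations -/
theorem mup_of_key (e : ι → X) (k : ι)
    (hdense : Dense ((Submodule.span ℝ (Set.range e) : Submodule ℝ X) : Set X))
    (key : ∀ (t : ℝ) (a' : ι →₀ ℝ), a' k = 0 →
      ‖t • e k + Finsupp.linearCombination ℝ e a'‖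
        = max |t| ‖Finsupp.linearCombination ℝ e a'‖) :
    MazurUlamProperty.{v, w} X := by
  classical
  set T : (ι →₀ ℝ) →ₗ[ℝ] X := Finsupp.linearCombination ℝ e with hT
  have hTa : ∀ a : ι →₀ ℝ, (a.sum fun i c => c • e i) = T a := fun a => by
    rw [hT, Finsupp.linearCombination_apply]
  set V0 : Submodule ℝ X := Submodule.span ℝ (e '' {i | i ≠ k}) with hV0
  have hV0mem : ∀ v ∈ V0, ∃ a' : ι →₀ ℝ, a' k = 0 ∧ T a' = v := by
    intro v hv
    rw [hV0, Finsupp.mem_span_image_iff_linearCombination] at hv
    obtain ⟨l, hl, hlv⟩ := hv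
    refine ⟨l, ?_, hlv⟩
    rw [Finsupp.mem_supported'] at hl
    exact hl k (by simp)
  apply mup_of_line_summand (e k) V0.topologicalClosure V0.isClosed_topologicalClosure
  · intro t v hv
    have hcl : IsClosed {v : X | ‖t • e k + v‖ = max |t| ‖v‖} :=
      isClosed_eq (by fun_prop) (by fun_prop)
    have hsub : (V0 : Set X) ⊆ {v : X | ‖t • e k + v‖ = max |t| ‖v‖} := by
      intro v hv
      obtain ⟨a', ha', rfl⟩ := hV0mem v hv
      exact key t a' ha'
    have := closure_minimal hsub hcl
    rw [← Submodule.topologicalClosure_coe] at this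
    exact this hv
  · apply hdense.mono
    intro x hx
    rw [SetLike.mem_coe, Finsupp.mem_span_range_iff_exists_finsupp] at hx
    obtain ⟨a, rfl⟩ := hx
    refine ⟨a k, T (a.erase k), ?_, ?_⟩
    · apply Submodule.le_topologicalClosure
      rw [hV0, Finsupp.mem_span_image_iff_linearCombination]
      refine ⟨a.erase k, ?_, rfl⟩
      rw [Finsupp.mem_supported']
      intro i hi
      have : i = k := by simpa using hi
      rw [this, Finsupp.erase_same]
    · rw [hTa]
      conv_lhs => rw [← Finsupp.single_add_erase k a]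
      rw [map_add, hT, Finsupp.linearCombination_single]

end key

variable {X : Type v} [NormedAddCommGroup X] [NormedSpace ℝ X]

lemma adm_one {𝓕 : Set (Finset ℕ+)} (h1 : ∀ F ∈ 𝓕, (1 : ℕ+) ∈ F → F = {1}) {n : ℕ}
    {E : Fin n → Finset ℕ+} (hE : IsAdmissible 𝓕 E) {j0 : Fin n} (hj0 : (1 : ℕ+) ∈ E j0) :
    ∀ j, j = j0 := by
  obtain ⟨hsucc, m, hm, hmF⟩ := hE
  have hm0 : m j0 = 1 := le_antisymm ((hm j0).2 1 hj0) one_le
  have himg : Finset.univ.image m = {1} := by
    apply h1 _ hmF
    rw [Finset.mem_image]
    exact ⟨j0, Finset.mem_univ _, hm0⟩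
  intro j
  have hmj : m j = 1 := by
    have : m j ∈ Finset.univ.image m := Finset.mem_image_of_mem m (Finset.mem_univ j)
    rw [himg, Finset.mem_singleton] at this
    exact this
  have hj1 : (1 : ℕ+) ∈ E j := hmj ▸ (hm j).1
  rcases lt_trichotomy j j0 with h | h | h
  · exact absurd (hsucc j j0 h 1 hj1 1 hj0) (lt_irrefl _)
  · exact h
  · exact absurd (hsucc j0 j h 1 hj0 1 hj1) (lt_irrefl _)

lemma adm_single {𝓕 : Set (Finset ℕ+)} (hs : ∀ i : ℕ+, {i} ∈ 𝓕) {E0 : Finset ℕ+}
    (hne : E0.Nonempty) : IsAdmissible 𝓕 (fun _ : Fin 1 => E0) := by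
  refine ⟨?_, fun _ => E0.min' hne, ?_, ?_⟩
  · intro j j' hjj
    exact absurd hjj (by
      have : j = j' := Subsingleton.elim _ _
      rw [this]; exact lt_irrefl _)
  · intro j
    exact ⟨E0.min'_mem hne, fun i hi => E0.min'_le i hi⟩
  · have : Finset.univ.image (fun _ : Fin 1 => E0.min' hne) = {E0.min' hne} := by
      ext x; simp
    rw [this]; exact hs _

theorem tsirelson_mup (𝓕 : Set (Finset ℕ+)) (h1 : ∀ F ∈ 𝓕, (1 : ℕ+) ∈ F → F = {1})
    (hs : ∀ i : ℕ+, {i} ∈ 𝓕) {θ : ℝ} (hθ0 : 0 ≤ θ) (hθ1 : θ < 1) (e : ℕ+ → X)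
    (h : IsTsirelsonSystem 𝓕 θ e) : MazurUlamProperty.{v, w} X := by
  classical
  obtain ⟨hdense, hnorm⟩ := h
  set T : (ℕ+ →₀ ℝ) →ₗ[ℝ] X := Finsupp.linearCombination ℝ e with hT
  have hTa : ∀ a : ℕ+ →₀ ℝ, (a.sum fun i c => c • e i) = T a := fun a => by
    rw [hT, Finsupp.linearCombination_apply]
  simp only [hTa] at hnorm
  have F1 : ∀ (a : ℕ+ →₀ ℝ) (i : ℕ+), |a i| ≤ ‖T a‖ := fun a i =>
    (hnorm a).1 (Or.inl ⟨i, rfl⟩)
  have F2 : ∀ (a : ℕ+ →₀ ℝ) (n : ℕ) (E : Fin n → Finset ℕ+), IsAdmissible 𝓕 E →
      θ * ∑ j, ‖T (a.filter (· ∈ E j))‖ ≤ ‖T a‖ := fun a n E hE =>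
    (hnorm a).1 (Or.inr ⟨n, E, hE, rfl⟩)
  have F3 : ∀ (a : ℕ+ →₀ ℝ) (b : ℝ), (∀ i, |a i| ≤ b) →
      (∀ (n : ℕ) (E : Fin n → Finset ℕ+), IsAdmissible 𝓕 E →
        θ * ∑ j, ‖T (a.filter (· ∈ E j))‖ ≤ b) → ‖T a‖ ≤ b := by
    intro a b hb1 hb2
    apply (hnorm a).2
    rintro r (⟨i, rfl⟩ | ⟨n, E, hE, rfl⟩)
    · exact hb1 i
    · exact hb2 n E hE
  have F4 : ∀ (a : ℕ+ →₀ ℝ) (E0 : Finset ℕ+), θ * ‖T (a.filter (· ∈ E0))‖ ≤ ‖T a‖ := by
    intro a E0
    rcases E0.eq_empty_or_nonempty with h0 | hne
    · have : a.filter (· ∈ E0) = 0 := by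
        ext i; simp [h0]
      rw [this, map_zero, norm_zero, mul_zero]; exact norm_nonneg _
    · have := F2 a 1 (fun _ => E0) (adm_single hs hne)
      simpa using this
  have main : ∀ (n : ℕ) (a' : ℕ+ →₀ ℝ), a'.support.card = n → a' 1 = 0 → ∀ t : ℝ,
      ‖T (Finsupp.single 1 t + a')‖ = max |t| ‖T a'‖ := by
    intro n
    induction n using Nat.strong_induction_on with
    | _ n ih =>
      intro a' hcard ha' t
      set a : ℕ+ →₀ ℝ := Finsupp.single 1 t + a' with ha
      have hak : a 1 = t := by rw [ha, Finsupp.add_apply, Finsupp.single_eq_same, ha', add_zero]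
      have hai : ∀ i, i ≠ 1 → a i = a' i := by
        intro i hi
        rw [ha, Finsupp.add_apply, Finsupp.single_eq_of_ne hi, zero_add]
      have hfil0 : ∀ E0 : Finset ℕ+, (1 : ℕ+) ∉ E0 →
          a.filter (· ∈ E0) = a'.filter (· ∈ E0) := by
        intro E0 hE0
        ext i
        by_cases hi : i ∈ E0
        · rw [Finsupp.filter_apply_pos _ _ hi, Finsupp.filter_apply_pos _ _ hi,
            hai i (fun h => hE0 (h ▸ hi))]
        · rw [Finsupp.filter_apply_neg _ _ hi, Finsupp.filter_apply_neg _ _ hi]
      have hfil1 : ∀ E0 : Finset ℕ+, (1 : ℕ+) ∈ E0 →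
          a.filter (· ∈ E0) = Finsupp.single 1 t + a'.filter (· ∈ E0) := by
        intro E0 hE0
        ext i
        by_cases hi : i ∈ E0
        · rw [Finsupp.filter_apply_pos _ _ hi, ha, Finsupp.add_apply, Finsupp.add_apply,
            Finsupp.filter_apply_pos _ _ hi]
        · have hi1 : i ≠ 1 := fun h => hi (h ▸ hE0)
          rw [Finsupp.filter_apply_neg _ _ hi, Finsupp.add_apply, Finsupp.filter_apply_neg _ _ hi,
            Finsupp.single_eq_of_ne hi1, add_zero]
      have hfil2 : ∀ E0 : Finset ℕ+, a'.filter (· ∈ E0) = a.filter (· ∈ E0.erase 1) := by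
        intro E0
        ext i
        by_cases hi1 : i = 1
        · subst hi1
          rw [Finsupp.filter_apply_neg (· ∈ E0.erase 1) _ (by simp)]
          by_cases hi : (1 : ℕ+) ∈ E0
          · rw [Finsupp.filter_apply_pos _ _ hi, ha']
          · rw [Finsupp.filter_apply_neg _ _ hi]
        · by_cases hi : i ∈ E0
          · rw [Finsupp.filter_apply_pos _ _ hi,
              Finsupp.filter_apply_pos (· ∈ E0.erase 1) _ (Finset.mem_erase.mpr ⟨hi1, hi⟩),
              hai i hi1]
          · rw [Finsupp.filter_apply_neg _ _ hi,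
              Finsupp.filter_apply_neg (· ∈ E0.erase 1) _
                (fun h => hi (Finset.mem_of_mem_erase h))]
      set M : ℝ := max |t| ‖T a'‖ with hM
      have hM0 : 0 ≤ M := le_trans (abs_nonneg t) (le_max_left _ _)
      apply le_antisymm
      · -- upper bound
        have hstep : ‖T a‖ ≤ max M (θ * ‖T a‖) := by
          apply F3
          · intro i
            by_cases hi : i = 1
            · rw [hi, hak]; exact le_trans (le_max_left _ _) (le_max_left _ _)
            · rw [hai i hi]
              exact le_trans (F1 a' i) (le_trans (le_max_right _ _) (le_max_left _ _))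
          · intro m E hE
            by_cases hex : ∃ j0, (1 : ℕ+) ∈ E j0
            · obtain ⟨j0, hj0⟩ := hex
              have hall := adm_one h1 hE hj0
              have hsum : ∑ j, ‖T (a.filter (· ∈ E j))‖ = ‖T (a.filter (· ∈ E j0))‖ := by
                apply Finset.sum_eq_single j0
                · intro j _ hj; exact absurd (hall j) hj
                · intro hj; exact absurd (Finset.mem_univ _) hj
              rw [hsum, hfil1 _ hj0]
              by_cases hsame : a'.filter (· ∈ E j0) = a'
              · rw [hsame]; exact le_max_right _ _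
              · have hlt : (a'.filter (· ∈ E j0)).support.card < n := by
                  rw [← hcard, Finsupp.support_filter]
                  apply Finset.card_lt_card
                  rw [Finset.filter_ssubset]
                  by_contra hcon
                  push Not at hcon
                  apply hsame
                  rw [Finsupp.filter_eq_self_iff]
                  intro x hx
                  exact hcon x (Finsupp.mem_support_iff.mpr hx)
                have h10 : (a'.filter (· ∈ E j0)) 1 = 0 := by
                  rw [Finsupp.filter_apply_pos _ _ hj0, ha']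
                rw [ih _ hlt _ rfl h10 t]
                refine le_trans ?_ (le_max_left _ _)
                rw [mul_max_of_nonneg _ _ hθ0]
                apply max_le_max
                · nlinarith [abs_nonneg t]
                · exact F4 a' _
            · push Not at hex
              have hsum : ∑ j, ‖T (a.filter (· ∈ E j))‖ = ∑ j, ‖T (a'.filter (· ∈ E j))‖ := by
                apply Finset.sum_congr rfl
                intro j _
                rw [hfil0 _ (hex j)]
              rw [hsum]
              exact le_trans (F2 a' m E hE) (le_trans (le_max_right _ _) (le_max_left _ _))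
        rcases le_max_iff.mp hstep with h' | h'
        · exact h'
        · have : ‖T a‖ ≤ 0 := by nlinarith [norm_nonneg (T a)]
          linarith
      · -- lower bound
        apply max_le
        · rw [← hak]; exact F1 a 1
        · apply F3
          · intro i
            by_cases hi : i = 1
            · rw [hi, ha', abs_zero]; exact norm_nonneg _
            · rw [← hai i hi]; exact F1 a i
          · intro m E hE
            by_cases hex : ∃ j0, (1 : ℕ+) ∈ E j0
            · obtain ⟨j0, hj0⟩ := hex
              have hall := adm_one h1 hE hj0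
              have hsum : ∑ j, ‖T (a'.filter (· ∈ E j))‖ = ‖T (a'.filter (· ∈ E j0))‖ := by
                apply Finset.sum_eq_single j0
                · intro j _ hj; exact absurd (hall j) hj
                · intro hj; exact absurd (Finset.mem_univ _) hj
              rw [hsum, hfil2]
              exact F4 a _
            · push Not at hex
              have hsum : ∑ j, ‖T (a'.filter (· ∈ E j))‖ = ∑ j, ‖T (a.filter (· ∈ E j))‖ := by
                apply Finset.sum_congr rfl
                intro j _
                rw [hfil0 _ (hex j)]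
              rw [hsum]
              exact F2 a m E hE
  apply mup_of_key e 1 hdense
  intro t a' ha'
  have := main _ a' rfl ha' t
  rw [map_add, hT, Finsupp.linearCombination_single] at this
  exact this

/-- generalized Schreier families contain all singletons -/
lemma IsSchreierFamily.singleton_mem {𝓕 : Set (Finset ℕ+)} (h : IsSchreierFamily 𝓕) :
    ∀ i : ℕ+, {i} ∈ 𝓕 := by
  induction h with
  | zero => intro i; simp
  | succ 𝓕 _ ih =>
    intro i
    refine ⟨1, fun _ => {i}, fun _ => ih i, ?_, ?_, ?_⟩
    · intro j x hx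
      rw [Finset.mem_singleton] at hx
      rw [hx]; exact_mod_cast (one_le : (1 : ℕ+) ≤ i)
    · intro j j' hjj
      exact absurd hjj (by
        have : j = j' := Subsingleton.elim _ _
        rw [this]; exact lt_irrefl _)
    · ext x; simp
  | lim 𝓕 _ ih =>
    intro i
    exact ⟨0, fun _ _ => Nat.zero_le _, ih 0 i⟩

end Vale.Agent.P084
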