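import Vale.Agent.P084.Main

namespace Vale.Agent.P084

open Metric

universe u v w

/-- The sup-decomposition of `E × F` (with its sup norm) into the two factors. -/
noncomputable def prodDecomp (E : Type u) (F : Type v)
    [NormedAddCommGroup E] [NormedSpace ℝ E] [StrictConvexSpace ℝ E] [Nontrivial E]
    [NormedAddCommGroup F] [NormedSpace ℝ F] [StrictConvexSpace ℝ F] [Nontrivial F] :
    SupDecomp Bool (E × F) where
  p := fun b => if b then (LinearMap.inl ℝ E F).comp (LinearMap.fst ℝ E F)
    else (LinearMap.inr ℝ E F).comp (LinearMap.snd ℝ E F)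
  idem := by
    intro i z
    cases i <;> simp
  orth := by
    intro i j z hij
    cases i <;> cases j <;> simp at hij ⊢
  le := by
    intro i z
    cases i <;> simp [Prod.norm_def]
  bound := by
    intro z c h
    have h1 := h true
    have h2 := h false
    simp [Prod.norm_def] at h1 h2
    rw [Prod.norm_def]
    exact max_le h1 h2
  ray := by
    intro i x y h
    cases i
    · simp [Prod.norm_def] at h
      have := (sameRay_iff_norm_add (x := x.2) (y := y.2)).mpr h
      simpa using this.map (LinearMap.inr ℝ E F)
    · simp [Prod.norm_def] at h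
      have := (sameRay_iff_norm_add (x := x.1) (y := y.1)).mpr h
      simpa using this.map (LinearMap.inl ℝ E F)
  unit := by
    intro i
    cases i
    · obtain ⟨y, hy⟩ := exists_norm_eq F (c := 1) zero_le_one
      exact ⟨(0, y), by simp, by simp [Prod.norm_def, hy]⟩
    · obtain ⟨x, hx⟩ := exists_norm_eq E (c := 1) zero_le_one
      exact ⟨(x, 0), by simp, by simp [Prod.norm_def, hx]⟩

end Vale.Agent.P084
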