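import Vale.Agent.P084.Cyl2

namespace Vale.Agent.P084

open Metric Set

set_option linter.unusedSectionVars false

universe v w

section abs

variable {Z : Type v} {W : Type w}
  [NormedAddCommGroup Z] [NormedSpace ℝ Z] [NormedAddCommGroup W] [NormedSpace ℝ W]

/-- Abstract local Mazur-Ulam lemma: `g` is isometric on a set `S` that is symmetric about the
midpoint of `a`, `b`, and the image of `S` is symmetric about the midpoint of `g a`, `g b`. -/
theorem local_mid_abs (g : Z → W) (S : Set Z) {a b : Z} (ha : a ∈ S) (hb : b ∈ S)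
    (hm : (1 / 2 : ℝ) • (a + b) ∈ S)
    (hiso : ∀ x ∈ S, ∀ y ∈ S, ‖g x - g y‖ = ‖x - y‖)
    (hsym : ∀ x ∈ S, a + b - x ∈ S)
    (hex : ∀ x ∈ S, ∃ p ∈ S, g p = g a + g b - g x) :
    g ((1 / 2 : ℝ) • (a + b)) = (1 / 2 : ℝ) • (g a + g b) := by
  have hinj : ∀ x ∈ S, ∀ y ∈ S, g x = g y → x = y := by
    intro x hx y hy h
    have := hiso x hx y hy
    rw [h, sub_self, norm_zero] at this
    exact sub_eq_zero.mp (norm_eq_zero.mp this.symm)
  choose! P hP1 hP2 using hex
  let M : Type v := {x : Z // x ∈ S}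
  have hdist : ∀ x y : M, dist x y = ‖x.1 - y.1‖ := fun x y => by
    rw [Subtype.dist_eq, dist_eq_norm]
  let Rf : M → M := fun x => ⟨a + b - x.1, hsym x.1 x.2⟩
  have hRf : ∀ x : M, (Rf x).1 = a + b - x.1 := fun x => rfl
  let R : M ≃ᵢ M := IsometryEquiv.mk' Rf Rf (fun x => Subtype.ext (by rw [hRf, hRf]; abel))
    (Isometry.of_dist_eq (fun x y => by
      rw [hdist, hdist, hRf, hRf]
      have : a + b - x.1 - (a + b - y.1) = -(x.1 - y.1) := by abel
      rw [this, norm_neg]))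
  have hR : ∀ x : M, (R x).1 = a + b - x.1 := fun x => rfl
  let Ef : M → M := fun x => ⟨P x.1, hP1 x.1 x.2⟩
  have hEf : ∀ x : M, g (Ef x).1 = g a + g b - g x.1 := fun x => hP2 x.1 x.2
  let E : M ≃ᵢ M := IsometryEquiv.mk' Ef Ef (fun x => Subtype.ext (by
      apply hinj _ (Ef (Ef x)).2 _ x.2
      rw [hEf, hEf]; abel))
    (Isometry.of_dist_eq (fun x y => by
      rw [hdist, hdist, ← hiso _ (Ef x).2 _ (Ef y).2, hEf, hEf, ← hiso _ x.2 _ y.2]
      have : g a + g b - g x.1 - (g a + g b - g y.1) = -(g x.1 - g y.1) := by abel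
      rw [this, norm_neg]))
  have hE : ∀ x : M, g (E x).1 = g a + g b - g x.1 := hEf
  let am : M := ⟨a, ha⟩
  let bm : M := ⟨b, hb⟩
  let zm : M := ⟨(1 / 2 : ℝ) • (a + b), hm⟩
  have hRa : R am = bm := Subtype.ext (by rw [hR]; change a + b - a = b; abel)
  have hRb : R bm = am := Subtype.ext (by rw [hR]; change a + b - b = a; abel)
  have hRz : R zm = zm := Subtype.ext (by
    rw [hR]; change a + b - (1 / 2 : ℝ) • (a + b) = (1 / 2 : ℝ) • (a + b); module)
  have hRd : ∀ p : M, dist (R p) p = 2 * dist p zm := by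
    intro p
    rw [hdist, hdist, hR]
    have : a + b - p.1 - p.1 = (-2 : ℝ) • (p.1 - (1 / 2 : ℝ) • (a + b)) := by module
    change ‖a + b - p.1 - p.1‖ = 2 * ‖p.1 - (1 / 2 : ℝ) • (a + b)‖
    rw [this, norm_smul]; norm_num
  have hEa : E am = bm := Subtype.ext (by
    apply hinj _ (E am).2 _ hb
    rw [hE]; change g a + g b - g a = g b; abel)
  have hEb : E bm = am := Subtype.ext (by
    apply hinj _ (E bm).2 _ ha
    rw [hE]; change g a + g b - g b = g a; abel)
  have hfix := fixed_of_reflection R hRa hRb hRz hRd (E.trans R)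
    (by rw [IsometryEquiv.trans_apply, hEa, hRb]) (by rw [IsometryEquiv.trans_apply, hEb, hRa])
  rw [IsometryEquiv.trans_apply] at hfix
  have hEz : E zm = zm := by
    have := congrArg R hfix
    have hRR : ∀ x : M, R (R x) = x := fun x => Subtype.ext (by rw [hR, hR]; abel)
    rw [hRR, hRz] at this
    exact this
  have h5 := hE zm
  rw [hEz] at h5
  change g ((1 / 2 : ℝ) • (a + b)) = g a + g b - g ((1 / 2 : ℝ) • (a + b)) at h5
  have h6 : (2 : ℝ) • g ((1 / 2 : ℝ) • (a + b)) = (2 : ℝ) • ((1 / 2 : ℝ) • (g a + g b)) := by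
    rw [two_smul, smul_smul]
    nth_rewrite 1 [h5]
    norm_num
  exact smul_right_injective W (two_ne_zero) h6

end abs

section slice

variable {F : Type v} {W : Type w}
  [NormedAddCommGroup F] [NormedSpace ℝ F] [NormedAddCommGroup W] [NormedSpace ℝ W]

/-- an isometry of the unit ball that preserves midpoints in the open ball is affine -/
theorem slice_affine (h : F → W)
    (hiso : ∀ u u', ‖u‖ ≤ 1 → ‖u'‖ ≤ 1 → ‖h u - h u'‖ = ‖u - u'‖)
    (hmid : ∀ u u', ‖u‖ < 1 → ‖u'‖ < 1 →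
      h ((1 / 2 : ℝ) • (u + u')) = (1 / 2 : ℝ) • (h u + h u')) :
    ∃ A : F →L[ℝ] W, (∀ u, ‖u‖ ≤ 1 → h u = h 0 + A u) ∧ ∀ u, ‖A u‖ = ‖u‖ := by
  have hhalf : ∀ x : F, ‖x‖ ≤ 1 → ‖(1 / 2 : ℝ) • x‖ < 1 := by
    intro x hx
    rw [norm_smul, Real.norm_of_nonneg (by norm_num)]
    linarith
  obtain ⟨L2, hL2⟩ := extend_ball (fun u : F => h ((1 / 2 : ℝ) • u) - h 0)
    (by simp)
    (by
      intro x y hx hy
      have e : (1 / 2 : ℝ) • ((1 / 2 : ℝ) • (x + y))
          = (1 / 2 : ℝ) • ((1 / 2 : ℝ) • x + (1 / 2 : ℝ) • y) := by module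
      rw [e, hmid _ _ (hhalf x hx) (hhalf y hy)]
      module)
    (1 / 2)
    (by
      intro x hx
      rw [hiso _ _ (hhalf x hx).le (by simp), sub_zero, norm_smul,
        Real.norm_of_nonneg (by norm_num)])
  have hlt : ∀ u : F, ‖u‖ < 1 → h u = h 0 + (2 : ℝ) • L2 u := by
    intro u hu
    rw [hL2 u hu.le]
    have := hmid u 0 hu (by simp : ‖(0 : F)‖ < 1)
    rw [add_zero] at this
    rw [this]
    module
  have hall : ∀ u, ‖u‖ ≤ 1 → h u = h 0 + ((2 : ℝ) • L2) u := by
    intro u hu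
    rcases lt_or_eq_of_le hu with h' | h'
    · exact hlt u h'
    · apply eq_of_forall_norm_le
      intro ε hε hε1
      set K : ℝ := 1 + ‖((2 : ℝ) • L2) u‖ with hK
      have hK1 : 1 ≤ K := by rw [hK]; linarith [norm_nonneg (((2 : ℝ) • L2) u)]
      set μ : ℝ := ε / K with hμ
      have hμ0 : 0 < μ := by positivity
      have hμ1 : μ < 1 := by
        rw [hμ, div_lt_one (by linarith)]; linarith
      have hn : ‖(1 - μ) • u‖ < 1 := by
        rw [norm_smul, h', mul_one, Real.norm_of_nonneg (by linarith)]; linarith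
      have h1 := hlt _ hn
      have h2 : ‖h u - h ((1 - μ) • u)‖ = μ := by
        rw [hiso _ _ hu hn.le]
        have : u - (1 - μ) • u = μ • u := by module
        rw [this, norm_smul, h', mul_one, Real.norm_of_nonneg hμ0.le]
      have e : h u - (h 0 + ((2 : ℝ) • L2) u)
          = (h u - h ((1 - μ) • u)) - μ • ((2 : ℝ) • L2) u := by
        rw [h1]
        have : (2 : ℝ) • L2 ((1 - μ) • u) = (1 - μ) • ((2 : ℝ) • L2) u := by
          rw [map_smul]; simp only [smul_apply]; module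
        rw [this]; module
      rw [e]
      have h3 := norm_sub_le (h u - h ((1 - μ) • u)) (μ • ((2 : ℝ) • L2) u)
      rw [h2, norm_smul, Real.norm_of_nonneg hμ0.le] at h3
      have h4 : μ * K = ε := by rw [hμ]; field_simp
      rw [hK] at h4
      linarith
  refine ⟨(2 : ℝ) • L2, hall, ?_⟩
  set A : F →L[ℝ] W := (2 : ℝ) • L2 with hAdef
  have hAn1 : ∀ v : F, ‖v‖ ≤ 1 → ‖A v‖ = ‖v‖ := by
    intro v hv
    have : A v = h v - h 0 := by rw [hall v hv]; abel
    rw [this, hiso _ _ hv (by simp), sub_zero]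
  intro v
  by_cases h0 : v = 0
  · rw [h0, map_zero, norm_zero, norm_zero]
  · have hpos : 0 < ‖v‖ := norm_pos_iff.mpr h0
    have hn : ‖‖v‖⁻¹ • v‖ = 1 := by
      rw [norm_smul, norm_inv, norm_norm, inv_mul_cancel₀ hpos.ne']
    have hzz : v = ‖v‖ • (‖v‖⁻¹ • v) := by
      rw [smul_smul, mul_inv_cancel₀ hpos.ne', one_smul]
    have h1 : A v = ‖v‖ • A (‖v‖⁻¹ • v) := by rw [← map_smul, ← hzz]
    rw [h1, norm_smul, norm_norm, hAn1 _ hn.le, hn, mul_one]

/-- the cylinder norm formula -/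
theorem slice_norm (c : W) (A : F →L[ℝ] W) (h1 : ∀ u, ‖u‖ ≤ 1 → ‖c + A u‖ = 1)
    (hAn : ∀ u, ‖A u‖ = ‖u‖) (t : ℝ) (v : F) : ‖t • c + A v‖ = max |t| ‖v‖ := by
  have hbig : ∀ (t : ℝ) (v : F), ‖v‖ ≤ |t| → t ≠ 0 → ‖t • c + A v‖ = |t| := by
    intro t v hv ht
    have hn : ‖t⁻¹ • v‖ ≤ 1 := by
      rw [norm_smul, norm_inv, Real.norm_eq_abs, inv_mul_le_iff₀ (abs_pos.mpr ht), mul_one]
      exact hv
    have e : t • c + A v = t • (c + A (t⁻¹ • v)) := by
      rw [map_smul, smul_add, smul_smul, mul_inv_cancel₀ ht, one_smul]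
    rw [e, norm_smul, h1 _ hn, mul_one, Real.norm_eq_abs]
  have hsmall_le : ∀ (t : ℝ) (v : F), |t| ≤ ‖v‖ → v ≠ 0 → ‖t • c + A v‖ ≤ ‖v‖ := by
    intro t v ht hv
    have hpos : 0 < ‖v‖ := norm_pos_iff.mpr hv
    set n : ℝ := ‖v‖ with hn
    have h1 := hbig n v (by rw [abs_of_pos hpos]) hpos.ne'
    have h2 := hbig (-n) v (by rw [abs_neg, abs_of_pos hpos]) (by linarith)
    rw [abs_of_pos hpos] at h1
    rw [abs_neg, abs_of_pos hpos] at h2
    rw [abs_le] at ht
    have e : t • c + A v = ((n + t) / (2 * n)) • (n • c + A v)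
        + ((n - t) / (2 * n)) • (-n • c + A v) := by
      have k1 : (n + t) / (2 * n) * n - (n - t) / (2 * n) * n = t := by field_simp; ring
      have k2 : (n + t) / (2 * n) + (n - t) / (2 * n) = 1 := by field_simp; ring
      have : ((n + t) / (2 * n)) • (n • c + A v) + ((n - t) / (2 * n)) • (-n • c + A v)
          = ((n + t) / (2 * n) * n - (n - t) / (2 * n) * n) • c
            + ((n + t) / (2 * n) + (n - t) / (2 * n)) • A v := by module
      rw [this, k1, k2, one_smul]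
    rw [e]
    have h3 := norm_add_le (((n + t) / (2 * n)) • (n • c + A v))
      (((n - t) / (2 * n)) • (-n • c + A v))
    rw [norm_smul, norm_smul, h1, h2, Real.norm_of_nonneg (div_nonneg (by linarith) (by linarith)),
      Real.norm_of_nonneg (div_nonneg (by linarith) (by linarith))] at h3
    have k3 : (n + t) / (2 * n) * n + (n - t) / (2 * n) * n = n := by field_simp; ring
    linarith
  have hsmall : ∀ (t : ℝ) (v : F), |t| ≤ ‖v‖ → v ≠ 0 → ‖t • c + A v‖ = ‖v‖ := by
    intro t v ht hv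
    apply le_antisymm (hsmall_le t v ht hv)
    have h1 := hsmall_le (-t) v (by rw [abs_neg]; exact ht) hv
    have e : (2 : ℝ) • A v = (t • c + A v) + (-t • c + A v) := by module
    have h2 := norm_add_le (t • c + A v) (-t • c + A v)
    rw [← e, norm_smul, hAn, Real.norm_of_nonneg (by norm_num)] at h2
    linarith
  rcases le_total |t| ‖v‖ with h | h
  · rw [max_eq_right h]
    by_cases hv : v = 0
    · rw [hv, norm_zero] at h
      have ht : t = 0 := abs_eq_zero.mp (le_antisymm h (abs_nonneg _))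
      rw [hv, ht, norm_zero, zero_smul, map_zero, add_zero, norm_zero]
    · exact hsmall t v h hv
  · rw [max_eq_left h]
    by_cases ht : t = 0
    · rw [ht, abs_zero] at h
      have hv : v = 0 := norm_eq_zero.mp (le_antisymm h (norm_nonneg _))
      rw [hv, ht, abs_zero, zero_smul, map_zero, add_zero, norm_zero]
    · exact hbig t v h ht

end slice

end Vale.Agent.P084
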