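import Vale.Agent.P084.Sc1

namespace Vale.Agent.P084

open Metric Set

set_option linter.unusedSectionVars false

universe u v w

/-- Chord flatness: near every unit vector `e₀`, the chords of the unit sphere issuing from `e₀`
are not of maximal depth: `2 - ‖e₀ + e'‖ ≤ c ‖e' - e₀‖` with a constant `c < 1`. -/
def ChordFlat (E : Type u) [NormedAddCommGroup E] : Prop :=
  ∀ e₀ : E, ‖e₀‖ = 1 → ∃ c : ℝ, c < 1 ∧ ∃ ρ : ℝ, 0 < ρ ∧ ∀ e' : E, ‖e'‖ = 1 → ‖e' - e₀‖ < ρ →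
    2 - ‖e₀ + e'‖ ≤ c * ‖e' - e₀‖

variable {E : Type u} {F : Type v} {W : Type w}
  [NormedAddCommGroup E] [NormedSpace ℝ E] [NormedAddCommGroup F] [NormedSpace ℝ F]
  [NormedAddCommGroup W] [NormedSpace ℝ W]

lemma pnrm (x : E) (u : F) : ‖((x, u) : E × F)‖ = max ‖x‖ ‖u‖ := Prod.norm_mk x u

lemma pnrm_sub (x x' : E) (u u' : F) :
    ‖((x, u) : E × F) - (x', u')‖ = max ‖x - x'‖ ‖u - u'‖ := by
  rw [Prod.mk_sub_mk, pnrm]

lemma norm_face {e : E} {u : F} (he : ‖e‖ = 1) (hu : ‖u‖ ≤ 1) : ‖((e, u) : E × F)‖ = 1 := by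
  rw [pnrm, he, max_eq_left hu]

lemma norm_side {x : E} {s : F} (hx : ‖x‖ ≤ 1) (hs : ‖s‖ = 1) : ‖((x, s) : E × F)‖ = 1 := by
  rw [pnrm, hs, max_eq_right hx]

lemma sm_use (hE : ChordFlat E) {e0 : E} (he0 : ‖e0‖ = 1) :
    ∃ ρ1 : ℝ, 0 < ρ1 ∧ ∀ e' : E, ‖e'‖ = 1 → ‖e' - e0‖ < ρ1 →
      ‖e' - e0‖ * (1 - (2 - ‖e0 + e'‖)) ≤ 2 - ‖e0 + e'‖ → e' = e0 := by
  obtain ⟨c, hc, ρ, hρ, H⟩ := hE e0 he0
  refine ⟨min ρ (1 - c), lt_min hρ (by linarith), ?_⟩
  intro e' he' hd hle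
  by_contra hne
  have hδ : 0 < ‖e' - e0‖ := norm_pos_iff.mpr (sub_ne_zero.mpr hne)
  have h1 := H e' he' (lt_of_lt_of_le hd (min_le_left _ _))
  have h2 : ‖e' - e0‖ < 1 - c := lt_of_lt_of_le hd (min_le_right _ _)
  have h3 : 2 - ‖e0 + e'‖ ≤ ‖e' - e0‖ := by
    have e : (2 : ℝ) • e0 = (e0 + e') - (e' - e0) := by module
    have := norm_sub_le (e0 + e') (e' - e0)
    rw [← e, norm_smul, he0] at this
    norm_num at this
    linarith
  nlinarith

section sc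

variable [StrictConvexSpace ℝ E]

lemma ant {e : E} {u : F} (he : ‖e‖ = 1) (hu : ‖u‖ < 1) {y : E × F} (hy : ‖y‖ = 1)
    (h : ‖y - (e, u)‖ = 2) : y.1 = -e := by
  obtain ⟨x, v⟩ := y
  rw [pnrm_sub] at h
  rw [pnrm] at hy
  have h1 : ‖x‖ ≤ 1 := hy ▸ le_max_left _ _
  have h2 : ‖v‖ ≤ 1 := hy ▸ le_max_right _ _
  have h3 : ‖v - u‖ < 2 := by
    have := norm_sub_le v u
    linarith
  have h4 : ‖x - e‖ = 2 := by
    rcases max_choice ‖x - e‖ ‖v - u‖ with h' | h'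
    · rw [h'] at h; exact h
    · rw [h'] at h; linarith
  have h5 : ‖x‖ = 1 := by
    have := norm_sub_le x e
    linarith
  have h6 : SameRay ℝ x (-e) := by
    rw [sameRay_iff_norm_add, ← sub_eq_add_neg, h4, h5, norm_neg, he]
    norm_num
  have h7 := h6.norm_smul_eq
  rw [h5, norm_neg, he, one_smul, one_smul] at h7
  exact h7.symm

variable {f : E × F → W} (hf : SphIso f)
include hf

lemma flat_leaf {e : E} (he : ‖e‖ = 1) {u u' : F} (hu : ‖u‖ ≤ 1) (hu' : ‖u'‖ < 1) :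
    ‖f (e, u) + f (e, u')‖ = 2 := by
  have n1 := norm_face (F := F) he hu
  have n2 := norm_face (F := F) he hu'.le
  obtain ⟨y, hy, hfy⟩ := hf.surj (- f (e, u')) (by rw [norm_neg]; exact hf.norm _ n2)
  have h2 := hf.anti_two n2 hy hfy
  have h3 := ant he hu' hy h2
  have e1 : f (e, u) + f (e, u') = f (e, u) - f y := by rw [hfy]; abel
  rw [e1, hf.iso _ _ n1 hy]
  apply le_antisymm
  · have := norm_sub_le (e, u) y
    rw [n1, hy] at this; linarith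
  · obtain ⟨t, v⟩ := y
    change t = -e at h3
    rw [pnrm_sub, h3]
    refine le_trans ?_ (le_max_left _ _)
    have : e - -e = (2 : ℝ) • e := by module
    rw [this, norm_smul, he]; norm_num

lemma leaf_mid {e : E} (he : ‖e‖ = 1) {u1 u2 : F} (h1 : ‖u1‖ < 1) (h2 : ‖u2‖ ≤ 1) :
    ∃ v, ‖v‖ ≤ 1 ∧ f (e, v) = (1 / 2 : ℝ) • (f (e, u1) + f (e, u2)) := by
  have n1 := norm_face (F := F) he h1.le
  have n2 := norm_face (F := F) he h2
  have hn : ‖(1 / 2 : ℝ) • (f (e, u1) + f (e, u2))‖ = 1 := by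
    rw [norm_smul, add_comm, flat_leaf hf he h2 h1]; norm_num
  obtain ⟨q, hq, hfq⟩ := hf.surj _ hn
  have hq' : ‖-q‖ = 1 := by rw [norm_neg]; exact hq
  have h3 : ‖f q - f (-q)‖ = 2 := by
    rw [hf.iso q (-q) hq hq']
    have : q - -q = (2 : ℝ) • q := by module
    rw [this, norm_smul, hq]; norm_num
  have h4 : f q - f (-q) = (1 / 2 : ℝ) • ((f (e, u1) - f (-q)) + (f (e, u2) - f (-q))) := by
    rw [hfq]; module
  have h5 : ‖f (e, u1) - f (-q)‖ ≤ 2 := by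
    rw [hf.iso _ _ n1 hq']
    have := norm_sub_le ((e, u1) : E × F) (-q)
    rw [n1, hq'] at this; linarith
  have h6 : ‖f (e, u2) - f (-q)‖ ≤ 2 := by
    rw [hf.iso _ _ n2 hq']
    have := norm_sub_le ((e, u2) : E × F) (-q)
    rw [n2, hq'] at this; linarith
  have h7 : 2 ≤ ‖f (e, u1) - f (-q)‖ := by
    have := norm_add_le (f (e, u1) - f (-q)) (f (e, u2) - f (-q))
    rw [h4, norm_smul, Real.norm_of_nonneg (by norm_num)] at h3
    linarith
  have h8 : ‖-q - (e, u1)‖ = 2 := by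
    rw [norm_sub_rev, ← hf.iso _ _ n1 hq']
    exact le_antisymm h5 h7
  have h9 := ant he h1 hq' h8
  have h10 : q.1 = e := by
    have : -q.1 = -e := h9
    exact neg_injective this
  refine ⟨q.2, ?_, ?_⟩
  · calc ‖q.2‖ ≤ ‖q‖ := norm_snd_le q
      _ = 1 := hq
  · rw [← hfq, ← h10]

lemma crux {e0 : E} (he0 : ‖e0‖ = 1) {ρ1 : ℝ}
    (hρ : ∀ e' : E, ‖e'‖ = 1 → ‖e' - e0‖ < ρ1 →
      ‖e' - e0‖ * (1 - (2 - ‖e0 + e'‖)) ≤ 2 - ‖e0 + e'‖ → e' = e0)
    {η r : ℝ} (h2r : 2 * r < η) (h2r' : 2 * r < ρ1)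
    {u1 u2 : F} (h1 : ‖u1‖ ≤ 1 - η) (h2 : ‖u2‖ ≤ 1 - η) (h12 : ‖u1 - u2‖ ≤ r) :
    ∃ v, ‖v‖ ≤ 1 ∧ f (e0, v) = (2 : ℝ) • f (e0, u1) - f (e0, u2) := by
  have hr0 : 0 ≤ r := le_trans (norm_nonneg _) h12
  have hη0 : 0 < η := by linarith
  have hη1 : η ≤ 1 := by linarith [norm_nonneg u1]
  have n1 : ‖((e0, u1) : E × F)‖ = 1 := norm_face he0 (by linarith)
  have n2 : ‖((e0, u2) : E × F)‖ = 1 := norm_face he0 (by linarith)
  set k1 := f (e0, u1) with hk1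
  set k2 := f (e0, u2) with hk2
  have nk1 : ‖k1‖ = 1 := hf.norm _ n1
  have nk2 : ‖k2‖ = 1 := hf.norm _ n2
  set w : W := (2 : ℝ) • k1 - k2 with hw
  have hk12 : ‖k1 - k2‖ ≤ r := by
    rw [hk1, hk2, hf.iso _ _ n1 n2, pnrm_sub, sub_self, norm_zero]
    exact max_le hr0 h12
  have hwk : ‖w - k1‖ ≤ r := by
    have : w - k1 = k1 - k2 := by rw [hw]; module
    rw [this]; exact hk12
  have hwk2 : w + k2 = (2 : ℝ) • k1 := by rw [hw]; abel
  have hwk2n : ‖w + k2‖ = 2 := by rw [hwk2, norm_smul, nk1]; norm_num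
  have hw1 : 1 ≤ ‖w‖ := by
    have := norm_add_le w k2
    rw [hwk2n, nk2] at this; linarith
  have hw2 : ‖w‖ ≤ 1 + r := by
    have := norm_add_le k1 (w - k1)
    rw [add_sub_cancel] at this
    linarith
  have hwpos : 0 < ‖w‖ := by linarith
  set wh : W := ‖w‖⁻¹ • w with hwh
  have hwhn : ‖wh‖ = 1 := by
    rw [hwh, norm_smul, norm_inv, norm_norm, inv_mul_cancel₀ hwpos.ne']
  have hww : w = ‖w‖ • wh := by
    rw [hwh, smul_smul, mul_inv_cancel₀ hwpos.ne', one_smul]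
  have hdiff : ‖w - wh‖ = ‖w‖ - 1 := by
    have : w - wh = (‖w‖ - 1) • wh := by
      rw [sub_smul, one_smul, ← hww]
    rw [this, norm_smul, hwhn, mul_one, Real.norm_of_nonneg (by linarith)]
  obtain ⟨⟨e', u'⟩, hp, hfp⟩ := hf.surj wh hwhn
  have hpa : ‖((e', u') : E × F) - (e0, u1)‖ ≤ 2 * r := by
    rw [← hf.iso _ _ hp n1, hfp]
    have e1 : wh - k1 = (w - k1) - (w - wh) := by abel
    rw [← hk1, e1]
    have := norm_sub_le (w - k1) (w - wh)
    linarith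
  rw [pnrm_sub] at hpa
  have hd1 : ‖e' - e0‖ ≤ 2 * r := le_trans (le_max_left _ _) hpa
  have hd2 : ‖u' - u1‖ ≤ 2 * r := le_trans (le_max_right _ _) hpa
  have hu' : ‖u'‖ < 1 := by
    have := norm_add_le (u' - u1) u1
    rw [sub_add_cancel] at this
    linarith
  have he' : ‖e'‖ = 1 := by
    rw [pnrm] at hp
    rcases max_choice ‖e'‖ ‖u'‖ with h | h
    · rw [h] at hp; exact hp
    · rw [h] at hp; linarith
  -- Claim A
  have n3 : ‖((e', u2) : E × F)‖ = 1 := norm_face he' (by linarith)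
  obtain ⟨v, hv, hfv⟩ := leaf_mid hf he' hu' (by linarith : ‖u2‖ ≤ 1)
  have n4 : ‖((e', v) : E × F)‖ = 1 := norm_face he' hv
  have hA : ‖e' - e0‖ ≤ ‖w‖ - 1 := by
    have hlow : ‖e' - e0‖ ≤ ‖k1 - f (e', v)‖ := by
      rw [hk1, hf.iso _ _ n1 n4, pnrm_sub, norm_sub_rev e' e0]
      exact le_max_left _ _
    have e1 : k1 - f (e', v) = (1 / 2 : ℝ) • ((w - wh) + (k2 - f (e', u2))) := by
      rw [hfv, hfp, hw]; module
    have h3 : ‖k2 - f (e', u2)‖ = ‖e' - e0‖ := by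
      rw [hk2, hf.iso _ _ n2 n3, pnrm_sub, sub_self, norm_zero, norm_sub_rev e0 e']
      exact max_eq_left (norm_nonneg _)
    have h4 := norm_add_le (w - wh) (k2 - f (e', u2))
    rw [e1, norm_smul, Real.norm_of_nonneg (by norm_num)] at hlow
    rw [hdiff, h3] at h4
    linarith
  -- Claim B
  obtain ⟨y2, hy2, hfy2⟩ := hf.surj (-k2) (by rw [norm_neg]; exact nk2)
  have h3 := hf.anti_two n2 hy2 hfy2
  have h4 := ant he0 (by linarith : ‖u2‖ < 1) hy2 h3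
  have hB1 : ‖e0 + e'‖ ≤ ‖wh + k2‖ := by
    have e1 : wh + k2 = f (e', u') - f y2 := by rw [hfy2, hfp]; abel
    rw [e1, hf.iso _ _ hp hy2]
    obtain ⟨t, z⟩ := y2
    change t = -e0 at h4
    rw [pnrm_sub, h4, sub_neg_eq_add, add_comm e0 e']
    exact le_max_left _ _
  have hB2 : ‖w‖ * ‖wh + k2‖ ≤ 2 + (‖w‖ - 1) := by
    have e1 : ‖w‖ • (wh + k2) = (w + k2) + (‖w‖ - 1) • k2 := by
      rw [smul_add, ← hww]; module
    have := norm_add_le (w + k2) ((‖w‖ - 1) • k2)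
    rw [← e1, norm_smul, norm_norm, norm_smul, nk2, hwk2n, mul_one,
      Real.norm_of_nonneg (by linarith)] at this
    exact this
  have hγ : 2 - ‖e0 + e'‖ ≤ ‖e' - e0‖ := by
    have e : (2 : ℝ) • e0 = (e0 + e') - (e' - e0) := by module
    have := norm_sub_le (e0 + e') (e' - e0)
    rw [← e, norm_smul, he0] at this
    norm_num at this
    linarith
  have hee : e' = e0 := by
    apply hρ e' he' (by linarith)
    have hB3 : ‖w‖ * ‖e0 + e'‖ ≤ 2 + (‖w‖ - 1) :=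
      le_trans (mul_le_mul_of_nonneg_left hB1 hwpos.le) hB2
    have h5 : 0 ≤ 1 - (2 - ‖e0 + e'‖) := by linarith
    have h6 : ‖e' - e0‖ * (1 - (2 - ‖e0 + e'‖)) ≤ (‖w‖ - 1) * (1 - (2 - ‖e0 + e'‖)) :=
      mul_le_mul_of_nonneg_right hA h5
    nlinarith
  subst hee
  have h5 := flat_leaf hf he' (by linarith : ‖u2‖ ≤ 1) hu'
  rw [hfp, ← hk2] at h5
  have h6 := norm_add_smul_of_flat nk2 hwhn h5 hwpos.le
  rw [← hww, add_comm, hwk2n] at h6
  have hw1' : ‖w‖ = 1 := by linarith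
  refine ⟨u', hu'.le, ?_⟩
  rw [hfp, hwh, hw1', inv_one, one_smul]

lemma leaf_mid_local {e0 : E} (he0 : ‖e0‖ = 1) {ρ1 : ℝ} (hρ0 : 0 < ρ1)
    (hρ : ∀ e' : E, ‖e'‖ = 1 → ‖e' - e0‖ < ρ1 →
      ‖e' - e0‖ * (1 - (2 - ‖e0 + e'‖)) ≤ 2 - ‖e0 + e'‖ → e' = e0)
    {η : ℝ} (hη : 0 < η) {ua ub : F} (ha : ‖ua‖ ≤ 1 - η) (hb : ‖ub‖ ≤ 1 - η)
    (hab : ‖ua - ub‖ ≤ min η ρ1 / 9) :
    f (e0, (1 / 2 : ℝ) • (ua + ub)) = (1 / 2 : ℝ) • (f (e0, ua) + f (e0, ub)) := by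
  set r0 : ℝ := min η ρ1 / 9 with hr0
  have hr0pos : 0 < r0 := by
    have := lt_min hη hρ0
    positivity
  have hr1 : 9 * r0 ≤ η := by rw [hr0]; linarith [min_le_left η ρ1]
  have hr2 : 9 * r0 ≤ ρ1 := by rw [hr0]; linarith [min_le_right η ρ1]
  set S : Set F := {u | ‖u - ua‖ ≤ r0 ∧ ‖u - ub‖ ≤ r0} with hS
  have hSn : ∀ u ∈ S, ‖u‖ ≤ 1 - η / 2 := by
    intro u hu
    have := norm_add_le (u - ua) ua
    rw [sub_add_cancel] at this
    linarith [hu.1]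
  have hiso1 : ∀ x y : F, ‖x‖ ≤ 1 → ‖y‖ ≤ 1 → ‖f (e0, x) - f (e0, y)‖ = ‖x - y‖ := by
    intro x y hx hy
    rw [hf.iso _ _ (norm_face he0 hx) (norm_face he0 hy), pnrm_sub, sub_self, norm_zero]
    exact max_eq_right (norm_nonneg _)
  apply local_mid_abs (fun u => f (e0, u)) S
  · exact ⟨by rw [sub_self, norm_zero]; exact hr0pos.le, hab⟩
  · exact ⟨by rw [norm_sub_rev]; exact hab, by rw [sub_self, norm_zero]; exact hr0pos.le⟩
  · constructor
    · have : (1 / 2 : ℝ) • (ua + ub) - ua = (-(1 / 2) : ℝ) • (ua - ub) := by module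
      rw [this, norm_smul, Real.norm_eq_abs, abs_neg, abs_of_nonneg (by norm_num)]
      linarith [norm_nonneg (ua - ub)]
    · have : (1 / 2 : ℝ) • (ua + ub) - ub = (1 / 2 : ℝ) • (ua - ub) := by module
      rw [this, norm_smul, Real.norm_eq_abs, abs_of_nonneg (by norm_num)]
      linarith [norm_nonneg (ua - ub)]
  · intro x hx y hy
    exact hiso1 x y (by linarith [hSn x hx]) (by linarith [hSn y hy])
  · intro x hx
    constructor
    · have : ua + ub - x - ua = -(x - ub) := by abel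
      rw [this, norm_neg]; exact hx.2
    · have : ua + ub - x - ub = -(x - ua) := by abel
      rw [this, norm_neg]; exact hx.1
  · intro x hx
    obtain ⟨vm, hvm, hfvm⟩ := leaf_mid hf he0 (by linarith : ‖ua‖ < 1) (by linarith : ‖ub‖ ≤ 1)
    have hvma : ‖vm - ua‖ ≤ r0 / 2 := by
      rw [← hiso1 vm ua hvm (by linarith), hfvm]
      have : (1 / 2 : ℝ) • (f (e0, ua) + f (e0, ub)) - f (e0, ua)
          = (-(1 / 2) : ℝ) • (f (e0, ua) - f (e0, ub)) := by module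
      rw [this, norm_smul, hiso1 ua ub (by linarith) (by linarith), Real.norm_eq_abs, abs_neg,
        abs_of_nonneg (by norm_num)]
      linarith
    have hvmn : ‖vm‖ ≤ 1 - η / 2 := by
      have := norm_add_le (vm - ua) ua
      rw [sub_add_cancel] at this
      linarith
    have hvmx : ‖vm - x‖ ≤ 2 * r0 := by
      have e1 : vm - x = (vm - ua) - (x - ua) := by abel
      have := norm_sub_le (vm - ua) (x - ua)
      rw [← e1] at this
      linarith [hx.1]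
    obtain ⟨v, hv, hfv⟩ := crux hf he0 hρ (η := η / 2) (r := 2 * r0) (by linarith) (by linarith)
      hvmn (hSn x hx) hvmx
    have hfv' : f (e0, v) = f (e0, ua) + f (e0, ub) - f (e0, x) := by
      rw [hfv, hfvm]; module
    have hx1 : ‖x‖ ≤ 1 := by linarith [hSn x hx]
    refine ⟨v, ⟨?_, ?_⟩, hfv'⟩
    · rw [← hiso1 v ua hv (by linarith), hfv']
      have : f (e0, ua) + f (e0, ub) - f (e0, x) - f (e0, ua) = f (e0, ub) - f (e0, x) := by abel
      rw [this, hiso1 ub x (by linarith) hx1, norm_sub_rev]; exact hx.2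
    · rw [← hiso1 v ub hv (by linarith), hfv']
      have : f (e0, ua) + f (e0, ub) - f (e0, x) - f (e0, ub) = f (e0, ua) - f (e0, x) := by abel
      rw [this, hiso1 ua x (by linarith) hx1, norm_sub_rev]; exact hx.1

lemma leaf_mid_global (hE : ChordFlat E) {e0 : E} (he0 : ‖e0‖ = 1) {ua ub : F}
    (ha : ‖ua‖ < 1) (hb : ‖ub‖ < 1) :
    f (e0, (1 / 2 : ℝ) • (ua + ub)) = (1 / 2 : ℝ) • (f (e0, ua) + f (e0, ub)) := by
  obtain ⟨ρ1, hρ0, hρ⟩ := sm_use hE he0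
  set δ : ℝ := 1 - max ‖ua‖ ‖ub‖ with hδ
  have hδ0 : 0 < δ := by
    have := max_lt ha hb
    linarith
  have h := doubling (closedBall (0 : F) (1 - δ)) (convex_closedBall _ _)
    (fun u => f (e0, u)) (ε := min δ ρ1 / 9) (by have := lt_min hδ0 hρ0; positivity)
    (fun x hx y hy hxy => leaf_mid_local hf he0 hρ0 hρ hδ0 (mem_closedBall_zero_iff.mp hx)
      (mem_closedBall_zero_iff.mp hy) hxy)
  apply h
  · rw [mem_closedBall_zero_iff, hδ]
    have := le_max_left ‖ua‖ ‖ub‖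
    linarith
  · rw [mem_closedBall_zero_iff, hδ]
    have := le_max_right ‖ua‖ ‖ub‖
    linarith

/-- `f` is affine on every leaf `{e} × B_F` -/
lemma exists_leaf_map (hE : ChordFlat E) {e : E} (he : ‖e‖ = 1) :
    ∃ A : F →L[ℝ] W, (∀ u, ‖u‖ ≤ 1 → f (e, u) = f (e, 0) + A u) ∧ ∀ u, ‖A u‖ = ‖u‖ := by
  apply slice_affine (fun u => f (e, u))
  · intro u u' hu hu'
    rw [hf.iso _ _ (norm_face he hu) (norm_face he hu'), pnrm_sub, sub_self, norm_zero]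
    exact max_eq_right (norm_nonneg _)
  · intro u u' hu hu'
    exact leaf_mid_global hf hE he hu hu'

end sc

end Vale.Agent.P084
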