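import Vale.Agent.P084.Sc2

namespace Vale.Agent.P084

open Metric Set

set_option linter.unusedSectionVars false

universe u v w

variable {E : Type u} {F : Type v} {W : Type w}
  [NormedAddCommGroup E] [NormedSpace ℝ E] [NormedAddCommGroup F] [NormedSpace ℝ F]
  [NormedAddCommGroup W] [NormedSpace ℝ W] [StrictConvexSpace ℝ E]

section asm

variable {f : E × F → W} (hf : SphIso f)
include hf

lemma pole {e : E} (he : ‖e‖ = 1) : f (-e, 0) = - f (e, 0) := by
  have n0 : ‖((e, 0) : E × F)‖ = 1 := norm_face he (by simp)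
  have he' : ‖-e‖ = 1 := by rw [norm_neg]; exact he
  obtain ⟨y, hy, hfy⟩ := hf.surj (- f (e, 0)) (by rw [norm_neg]; exact hf.norm _ n0)
  have h2 := hf.anti_two n0 hy hfy
  have h3 := ant he (by simp) hy h2
  obtain ⟨t, u0⟩ := y
  change t = -e at h3
  subst h3
  have hu0 : u0 = 0 := by
    by_contra hne
    have hpos : 0 < ‖u0‖ := norm_pos_iff.mpr hne
    have hu01 : ‖u0‖ ≤ 1 := by
      calc ‖u0‖ ≤ ‖((-e, u0) : E × F)‖ := norm_snd_le ((-e, u0) : E × F)
        _ = 1 := hy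
    set t' : ℝ := 1 - ‖u0‖ / 2 with ht'
    have ht'0 : 0 < t' := by linarith
    set w : F := (-(t' / ‖u0‖)) • u0 with hw
    have hwn : ‖w‖ = t' := by
      rw [hw, norm_smul, norm_neg, Real.norm_of_nonneg (by positivity), div_mul_cancel₀ _ hpos.ne']
    have hw1 : ‖w‖ < 1 := by rw [hwn]; linarith
    have n5 : ‖((-e, w) : E × F)‖ = 1 := norm_face he' hw1.le
    obtain ⟨z, hz, hfz⟩ := hf.surj (- f (-e, w)) (by rw [norm_neg]; exact hf.norm _ n5)
    have h4 := hf.anti_two n5 hz hfz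
    have h5 := ant he' hw1 hz h4
    obtain ⟨t2, uw⟩ := z
    change t2 = - -e at h5
    rw [neg_neg] at h5
    subst h5
    have huw : ‖uw‖ ≤ 1 := by
      calc ‖uw‖ ≤ ‖((t2, uw) : E × F)‖ := norm_snd_le ((t2, uw) : E × F)
        _ = 1 := hz
    have h6 := hf.iso _ _ n5 hy
    rw [pnrm_sub, sub_self, norm_zero, max_eq_right (norm_nonneg _)] at h6
    have e1 : f (-t2, w) - f (-t2, u0) = -(f (t2, uw) - f (t2, 0)) := by
      rw [hfy, hfz]; abel
    rw [e1, norm_neg, hf.iso _ _ hz n0, pnrm_sub, sub_self, norm_zero, sub_zero,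
      max_eq_right (norm_nonneg _)] at h6
    have e2 : w - u0 = (-(t' / ‖u0‖ + 1)) • u0 := by rw [hw]; module
    have h7 : ‖w - u0‖ = t' + ‖u0‖ := by
      rw [e2, norm_smul, norm_neg, Real.norm_of_nonneg (by positivity), add_mul, one_mul,
        div_mul_cancel₀ _ hpos.ne']
    rw [h7] at h6
    linarith
  rw [← hfy, hu0]

lemma side_open {e : E} (he : ‖e‖ = 1) (A : F →L[ℝ] W)
    (hA1 : ∀ u, ‖u‖ ≤ 1 → f (e, u) = f (e, 0) + A u) (hA2 : ∀ u, ‖A u‖ = ‖u‖)
    {t : ℝ} (ht0 : 0 < t) (ht1 : t < 1) {s : F} (hs : ‖s‖ = 1) :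
    f (t • e, s) = t • f (e, 0) + A s := by
  set c : W := f (e, 0) with hc
  have hN := slice_norm c A (fun u hu => by rw [← hA1 u hu]; exact hf.norm _ (norm_face he hu)) hA2
  have hyn : ‖t • c + A s‖ = 1 := by
    rw [hN, hs, abs_of_pos ht0]; exact max_eq_right ht1.le
  obtain ⟨⟨e', s'⟩, hp', hfp'⟩ := hf.surj _ hyn
  have star : ∀ u : F, ‖u‖ ≤ 1 → max ‖e' - e‖ ‖s' - u‖ = max |t - 1| ‖s - u‖ := by
    intro u hu
    rw [← pnrm_sub, ← hf.iso _ _ hp' (norm_face he hu), hfp', hA1 u hu, ← hN]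
    congr 1
    rw [map_sub]; module
  have hp'' := hp'
  rw [pnrm] at hp''
  have hs'1 : ‖s'‖ ≤ 1 := hp'' ▸ le_max_right _ _
  have a1 : |t - 1| = 1 - t := by rw [abs_sub_comm, abs_of_pos (by linarith)]
  have h1 := star s hs.le
  rw [sub_self, norm_zero, a1, max_eq_left (by linarith : (0 : ℝ) ≤ 1 - t)] at h1
  have h2 := star s' hs'1
  rw [sub_self, norm_zero, a1, max_eq_left (norm_nonneg _)] at h2
  have h3 : ‖e' - e‖ ≤ 1 - t := h1 ▸ le_max_left _ _
  have h4 : 1 - t ≤ ‖e' - e‖ := h2 ▸ le_max_left _ _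
  have hee : ‖e' - e‖ = 1 - t := le_antisymm h3 h4
  have hss : s' = s := by
    apply sphere_determined (ε := 1 - t) (by linarith) hs
    intro u hu
    have := star u hu
    rwa [a1, hee] at this
  subst hss
  have he' : ‖-e‖ = 1 := by rw [norm_neg]; exact he
  have h5 := hf.iso _ _ hp' (norm_face (F := F) he' (by simp : ‖(0 : F)‖ ≤ 1))
  rw [hfp', pole hf he, ← hc, pnrm_sub, sub_zero, hs, sub_neg_eq_add, sub_neg_eq_add] at h5
  have e1 : t • c + A s' + c = (t + 1) • c + A s' := by module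
  rw [e1, hN, hs, abs_of_pos (by linarith), max_eq_left (by linarith)] at h5
  have h6 : ‖e' + e‖ = t + 1 := by
    rcases max_choice ‖e' + e‖ 1 with h | h
    · rw [h] at h5; exact h5.symm
    · rw [h] at h5; linarith
  have h7 : SameRay ℝ (e - e') (e' + e) := by
    rw [sameRay_iff_norm_add, norm_sub_rev, hee, h6]
    have : e - e' + (e' + e) = (2 : ℝ) • e := by module
    rw [this, norm_smul, he]; norm_num; ring
  have h8 := h7.norm_smul_eq
  rw [norm_sub_rev, hee, h6] at h8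
  have h9 : (2 : ℝ) • e' = (2 : ℝ) • (t • e) := by
    linear_combination (norm := module) h8
  have h10 : e' = t • e := smul_right_injective E (two_ne_zero) h9
  rw [← hfp', h10]

lemma side_zero {e : E} (he : ‖e‖ = 1) (A : F →L[ℝ] W)
    (hA1 : ∀ u, ‖u‖ ≤ 1 → f (e, u) = f (e, 0) + A u) (hA2 : ∀ u, ‖A u‖ = ‖u‖)
    {s : F} (hs : ‖s‖ = 1) : f (0, s) = A s := by
  apply eq_of_forall_norm_le
  intro ε hε hε1
  have hn : ‖(ε / 2) • e‖ = ε / 2 := by
    rw [norm_smul, he, mul_one, Real.norm_of_nonneg (by positivity)]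
  have hq : ‖(((ε / 2) • e, s) : E × F)‖ = 1 := norm_side (by rw [hn]; linarith) hs
  have hp : ‖((0, s) : E × F)‖ = 1 := norm_side (by simp) hs
  have h2 := side_open hf he A hA1 hA2 (t := ε / 2) (by positivity) (by linarith) hs
  have e1 : f (0, s) - A s = (f (0, s) - f ((ε / 2) • e, s)) + (ε / 2) • f (e, 0) := by
    rw [h2]; abel
  rw [e1]
  have h3 := norm_add_le (f (0, s) - f ((ε / 2) • e, s)) ((ε / 2) • f (e, 0))
  rw [hf.iso _ _ hp hq, pnrm_sub, sub_self, norm_zero, zero_sub, norm_neg, hn,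
    max_eq_left (by positivity), norm_smul, hf.norm _ (norm_face he (by simp)), mul_one,
    Real.norm_of_nonneg (by positivity)] at h3
  linarith

end asm

end Vale.Agent.P084
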