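import Vale.Agent.P084.Sc4
import Vale.Agent.P084.CylMain

namespace Vale.Agent.P084

open Metric Set Filter Topology

universe u v w

/-- a norm satisfying the parallelogram identity is chord flat -/
lemma chordFlat_of_parallelogram {E : Type u} [NormedAddCommGroup E]
    (h : ∀ x y : E, ‖x + y‖ ^ 2 + ‖x - y‖ ^ 2 = 2 * (‖x‖ ^ 2 + ‖y‖ ^ 2)) :
    ChordFlat E := by
  intro e0 he0
  refine ⟨1 / 2, by norm_num, 1, one_pos, ?_⟩
  intro e' he' hd
  have h1 := h e0 e'
  rw [he0, he', norm_sub_rev] at h1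
  have h2 := norm_nonneg (e0 + e')
  have h3 := norm_nonneg (e' - e0)
  nlinarith

lemma chordFlat_of_inner {E : Type u} [NormedAddCommGroup E] [InnerProductSpace ℝ E] :
    ChordFlat E :=
  chordFlat_of_parallelogram (fun x y => parallelogram_law_with_norm ℝ x y)

/-- every finite dimensional real normed space is chord flat -/
lemma chordFlat_of_finiteDimensional {E : Type u} [NormedAddCommGroup E] [NormedSpace ℝ E]
    [FiniteDimensional ℝ E] : ChordFlat E := by
  intro e0 he0
  refine ⟨1 / 2, by norm_num, ?_⟩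
  by_contra hcon
  push Not at hcon
  have hseq : ∀ n : ℕ, ∃ e' : E, ‖e'‖ = 1 ∧ ‖e' - e0‖ < 1 / ((n : ℝ) + 1) ∧
      1 / 2 * ‖e' - e0‖ < 2 - ‖e0 + e'‖ := fun n => hcon _ (by positivity)
  choose e' he' hd hdeep using hseq
  set δ : ℕ → ℝ := fun n => ‖e' n - e0‖ with hδ
  have hδpos : ∀ n, 0 < δ n := by
    intro n
    rcases (norm_nonneg (e' n - e0)).lt_or_eq with h | h
    · exact h
    · exfalso
      have h0 : e' n = e0 := sub_eq_zero.mp (norm_eq_zero.mp h.symm)
      have := hdeep n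
      rw [h0, sub_self, norm_zero] at this
      have e2 : e0 + e0 = (2 : ℝ) • e0 := by module
      rw [e2, norm_smul, he0] at this
      norm_num at this
  set τ : ℕ → E := fun n => (δ n)⁻¹ • (e' n - e0) with hτ
  have hτn : ∀ n, τ n ∈ sphere (0 : E) 1 := by
    intro n
    rw [mem_sphere_zero_iff_norm, hτ]
    change ‖(δ n)⁻¹ • (e' n - e0)‖ = 1
    rw [norm_smul, norm_inv, Real.norm_of_nonneg (hδpos n).le]
    exact inv_mul_cancel₀ (hδpos n).ne'
  have hrep : ∀ n, e' n = e0 + δ n • τ n := by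
    intro n
    change e' n = e0 + δ n • ((δ n)⁻¹ • (e' n - e0))
    rw [smul_smul, mul_inv_cancel₀ (hδpos n).ne', one_smul]; abel
  have hd' : ∀ n, δ n < 1 / ((n : ℝ) + 1) := hd
  have hdeep' : ∀ n, 1 / 2 * δ n < 2 - ‖e0 + e' n‖ := hdeep
  clear_value τ δ
  obtain ⟨τ0, -, φ, hφ, hlim⟩ := (isCompact_sphere (0 : E) 1).tendsto_subseq hτn
  have hδlim : Tendsto δ atTop (𝓝 0) := by
    apply squeeze_zero (fun n => (hδpos n).le) (fun n => (hd' n).le)
    exact tendsto_one_div_add_atTop_nhds_zero_nat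
  have hδφ : Tendsto (δ ∘ φ) atTop (𝓝 0) := hδlim.comp hφ.tendsto_atTop
  -- Fact 1
  have fact1 : ∀ t : ℝ, 0 < t → 1 ≤ ‖e0 + t • τ0‖ := by
    intro t ht
    have hl : Tendsto (fun n => ‖e0 + t • τ (φ n)‖) atTop (𝓝 ‖e0 + t • τ0‖) :=
      ((hlim.const_smul t).const_add e0).norm
    apply ge_of_tendsto hl
    have hev : ∀ᶠ n in atTop, (δ ∘ φ) n < t := hδφ.eventually (gt_mem_nhds ht)
    filter_upwards [hev] with n hn
    have hn' : δ (φ n) < t := hn
    have hp := hδpos (φ n)
    set d := δ (φ n) with hdd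
    have e1 : e' (φ n) = (1 - d / t) • e0 + (d / t) • (e0 + t • τ (φ n)) := by
      rw [hrep (φ n), smul_add, smul_smul, div_mul_cancel₀ _ ht.ne']
      module
    have h1 := norm_add_le ((1 - d / t) • e0) ((d / t) • (e0 + t • τ (φ n)))
    have hdt : d / t < 1 := by rw [div_lt_one ht]; exact hn'
    have hdt0 : 0 < d / t := by positivity
    rw [← e1, he', norm_smul, norm_smul, he0, mul_one, Real.norm_of_nonneg (by linarith),
      Real.norm_of_nonneg hdt0.le] at h1
    by_contra hlt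
    rw [not_le] at hlt
    nlinarith
  -- Fact 2
  have hev2 : ∀ᶠ n in atTop, dist (τ (φ n)) τ0 < 1 / 2 :=
    (tendsto_iff_dist_tendsto_zero.mp hlim).eventually (gt_mem_nhds (by norm_num))
  obtain ⟨n, hn⟩ := hev2.exists
  have hp := hδpos (φ n)
  set d := δ (φ n) with hdd
  have h1 := fact1 (d / 2) (by positivity)
  have e1 : e0 + (d / 2) • τ0 = (1 / 2 : ℝ) • (e0 + e' (φ n)) + (d / 2) • (τ0 - τ (φ n)) := by
    rw [hrep (φ n)]; module
  have h2 := norm_add_le ((1 / 2 : ℝ) • (e0 + e' (φ n))) ((d / 2) • (τ0 - τ (φ n)))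
  rw [← e1, norm_smul, norm_smul, Real.norm_of_nonneg (by norm_num),
    Real.norm_of_nonneg (by positivity)] at h2
  have h3 := hdeep' (φ n)
  have h4 : ‖τ0 - τ (φ n)‖ < 1 / 2 := by rw [← dist_eq_norm, dist_comm]; exact hn
  nlinarith

/-- a norm that is Frechet differentiable at every unit vector is chord flat -/
lemma chordFlat_of_differentiable {E : Type u} [NormedAddCommGroup E] [NormedSpace ℝ E]
    (h : ∀ e : E, ‖e‖ = 1 → DifferentiableAt ℝ (fun x : E => ‖x‖) e) : ChordFlat E := by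
  intro e0 he0
  refine ⟨1 / 2, by norm_num, ?_⟩
  obtain ⟨φ, hφ⟩ := h e0 he0
  rw [hasFDerivAt_iff_isLittleO_nhds_zero, Asymptotics.isLittleO_iff] at hφ
  have h1 := hφ (c := 1 / 4) (by norm_num)
  rw [Metric.eventually_nhds_iff] at h1
  obtain ⟨ρ, hρ, H⟩ := h1
  refine ⟨ρ, hρ, ?_⟩
  intro e' he' hd
  set k : E := e' - e0 with hk
  have a1 := H (y := k) (by rw [dist_zero_right]; exact hd)
  have a2 := H (y := (1 / 2 : ℝ) • k) (by
    rw [dist_zero_right, norm_smul, Real.norm_of_nonneg (by norm_num)]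
    linarith [norm_nonneg k])
  have e1 : e0 + k = e' := by rw [hk]; abel
  have e2 : e0 + (1 / 2 : ℝ) • k = (1 / 2 : ℝ) • (e0 + e') := by rw [hk]; module
  rw [e1, he', he0, Real.norm_eq_abs] at a1
  rw [e2, he0, map_smul, norm_smul, norm_smul, Real.norm_of_nonneg (by norm_num : (0:ℝ) ≤ 1 / 2),
    Real.norm_eq_abs, smul_eq_mul] at a2
  rw [abs_le] at a1 a2
  obtain ⟨b1, b2⟩ := a1
  obtain ⟨b3, b4⟩ := a2
  linarith

section main

variable (E : Type u) (F : Type v) [NormedAddCommGroup E] [NormedSpace ℝ E]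
  [NormedAddCommGroup F] [NormedSpace ℝ F]

/-- The sup-normed product of a nonzero strictly convex space with an arbitrary nonzero normed
space has the Mazur-Ulam property. -/
theorem sc_mup' [StrictConvexSpace ℝ E] [Nontrivial E] [Nontrivial F] :
    MazurUlamProperty.{max u v, w} (E × F) := by
  intro Y _ _ f hf hs
  obtain ⟨e, he⟩ := exists_norm_eq E (zero_le_one' ℝ)
  obtain ⟨s, hs'⟩ := exists_norm_eq F (zero_le_one' ℝ)
  exact equiv_of_raw (fun g hg => sc_raw ⟨e, he⟩ ⟨s, hs'⟩ hg) f hf hs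

/-- The sup-normed product of a nonzero strictly convex chord flat space with an arbitrary
nonzero normed space has the Mazur-Ulam property. -/
theorem sc_mup [StrictConvexSpace ℝ E] [Nontrivial E] [Nontrivial F] (_hE : ChordFlat E) :
    MazurUlamProperty.{max u v, w} (E × F) := sc_mup' E F

end main

end Vale.Agent.P084
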