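import Vale.Agent.P084.ScInst

namespace Vale.Agent.P084

universe u

/-- uniformly convex spaces are chord flat -/
lemma chordFlat_of_uniformConvex {E : Type u} [NormedAddCommGroup E] [NormedSpace ℝ E]
    [UniformConvexSpace E] : ChordFlat E := by
  intro e₀ he₀
  obtain ⟨δ, hδ, H⟩ := exists_forall_sphere_dist_add_le_two_sub E (ε := 1) one_pos
  refine ⟨1 - δ, by linarith, 1, one_pos, ?_⟩
  intro e' he' hd
  by_cases hne : e' = e₀
  · subst hne
    have : ‖e' + e'‖ = 2 := by
      rw [← two_smul ℝ e', norm_smul, he₀]; norm_num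
    rw [this]; simp
  have hr : 0 < ‖e' - e₀‖ := norm_pos_iff.mpr (sub_ne_zero.mpr hne)
  set r : ℝ := ‖e' - e₀‖ with hrdef
  set d : E := r⁻¹ • (e' - e₀) with hddef
  have hdn : ‖d‖ = 1 := by
    rw [hddef, norm_smul, norm_inv, Real.norm_of_nonneg hr.le, ← hrdef, inv_mul_cancel₀ hr.ne']
  have hrd : r • d = e' - e₀ := by
    rw [hddef, smul_smul, mul_inv_cancel₀ hr.ne', one_smul]
  -- `‖e₀ + d‖ ≥ 1`
  have h1 : 1 ≤ ‖e₀ + d‖ := by
    have e : e' = (1 - r) • e₀ + r • (e₀ + d) := by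
      rw [smul_add, hrd]; module
    have h2 := norm_add_le ((1 - r) • e₀) (r • (e₀ + d))
    rw [← e, he', norm_smul, norm_smul, he₀, Real.norm_of_nonneg hr.le,
      Real.norm_of_nonneg (by linarith)] at h2
    nlinarith
  -- uniform convexity for `e₀` and `-d`
  have h2 : ‖e₀ + -d‖ ≤ 2 - δ := by
    apply H he₀ (by rw [norm_neg]; exact hdn)
    rw [sub_neg_eq_add]; exact h1
  -- convexity along the line
  have e3 : (1 + r / 2) • e₀ = (r / 2) • (e₀ + -d) + (1 / 2 : ℝ) • (e₀ + e') := by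
    have : e' = e₀ + r • d := by rw [hrd]; abel
    rw [this]; module
  have h3 := norm_add_le ((r / 2) • (e₀ + -d)) ((1 / 2 : ℝ) • (e₀ + e'))
  rw [← e3, norm_smul, norm_smul, norm_smul, he₀, Real.norm_of_nonneg (by positivity),
    Real.norm_of_nonneg (by positivity), Real.norm_of_nonneg (by norm_num)] at h3
  nlinarith

end Vale.Agent.P084
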