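import Vale.Agent.P084.CombDefs

namespace Vale.Agent.P084

/-- the classical Schreier family `|F| ≤ min F` is the successor of `S_0` -/
lemma classical_eq_succ :
    {F : Finset ℕ+ | ∀ i ∈ F, F.card ≤ (i : ℕ)} = schreierSucc {F | F.card ≤ 1} := by
  ext F
  constructor
  · intro hF
    refine ⟨F.card, fun j => {F.orderEmbOfFin rfl j}, ?_, ?_, ?_, ?_⟩
    · intro j; simp
    · intro j i hi
      rw [Finset.mem_singleton] at hi
      rw [hi]
      exact hF _ (Finset.orderEmbOfFin_mem F rfl j)
    · intro j j' hjj i hi i' hi'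
      rw [Finset.mem_singleton] at hi hi'
      rw [hi, hi']
      exact (F.orderEmbOfFin rfl).strictMono hjj
    · ext x
      simp only [Finset.mem_biUnion, Finset.mem_univ, true_and, Finset.mem_singleton]
      constructor
      · intro hx
        have : x ∈ Set.range (F.orderEmbOfFin rfl) := by
          rw [Finset.range_orderEmbOfFin]; exact hx
        obtain ⟨j, hj⟩ := this
        exact ⟨j, hj.symm⟩
      · rintro ⟨j, rfl⟩
        exact Finset.orderEmbOfFin_mem F rfl j
  · rintro ⟨n, E, hE, hn, -, rfl⟩ i hi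
    rw [Finset.mem_biUnion] at hi
    obtain ⟨j, -, hj⟩ := hi
    refine le_trans ?_ (hn j i hj)
    calc (Finset.univ.biUnion E).card ≤ ∑ j : Fin n, (E j).card := Finset.card_biUnion_le
      _ ≤ ∑ _j : Fin n, 1 := Finset.sum_le_sum (fun j _ => hE j)
      _ = n := by simp

lemma classical_isSchreier : IsSchreierFamily {F : Finset ℕ+ | ∀ i ∈ F, F.card ≤ (i : ℕ)} := by
  rw [classical_eq_succ]
  exact IsSchreierFamily.succ _ IsSchreierFamily.zero

end Vale.Agent.P084
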