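import Vale.Agent.P084.Defs

namespace Vale.Agent.P084

open Metric

universe u v w

/-- The Mazur-Ulam property is invariant under surjective linear isometries. -/
theorem mup_transfer {X' : Type u} {X : Type v}
    [NormedAddCommGroup X'] [NormedSpace ℝ X'] [NormedAddCommGroup X] [NormedSpace ℝ X]
    (Φ : X' ≃ₗᵢ[ℝ] X) (h : MazurUlamProperty.{u, w} X') : MazurUlamProperty.{v, w} X := by
  intro Y _ _ f hf hs
  have hmem : ∀ x : sphere (0 : X') 1, Φ x ∈ sphere (0 : X) 1 := by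
    intro x
    have := x.2
    rw [mem_sphere_zero_iff_norm] at this ⊢
    rw [Φ.norm_map]; exact this
  let g : sphere (0 : X') 1 → sphere (0 : Y) 1 := fun x => f ⟨Φ x, hmem x⟩
  have hg : Isometry g := by
    refine Isometry.of_dist_eq fun a b => ?_
    have h1 := hf.dist_eq ⟨Φ a, hmem a⟩ ⟨Φ b, hmem b⟩
    rw [show dist (g a) (g b) = dist (f ⟨Φ a, hmem a⟩) (f ⟨Φ b, hmem b⟩) from rfl, h1,
      Subtype.dist_eq, Subtype.dist_eq]
    exact Φ.dist_map _ _
  have hgs : Function.Surjective g := by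
    intro y
    obtain ⟨x, hx⟩ := hs y
    have hx' : Φ.symm x ∈ sphere (0 : X') 1 := by
      have := x.2
      rw [mem_sphere_zero_iff_norm] at this ⊢
      rw [Φ.symm.norm_map]; exact this
    refine ⟨⟨Φ.symm x, hx'⟩, ?_⟩
    show f ⟨Φ (Φ.symm x), _⟩ = y
    rw [← hx]
    congr 1
    exact Subtype.ext (Φ.apply_symm_apply _)
  obtain ⟨T, hT⟩ := h Y g hg hgs
  refine ⟨Φ.symm.trans T, fun x => ?_⟩
  have hx' : Φ.symm x ∈ sphere (0 : X') 1 := by
    have := x.2
    rw [mem_sphere_zero_iff_norm] at this ⊢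
    rw [Φ.symm.norm_map]; exact this
  have := hT ⟨Φ.symm x, hx'⟩
  show T (Φ.symm x) = f x
  rw [this]
  show ((f ⟨Φ (Φ.symm x), _⟩ : sphere (0 : Y) 1) : Y) = f x
  congr 2
  exact Subtype.ext (Φ.apply_symm_apply _)

end Vale.Agent.P084
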