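import Vale.Agent.P084.TsiW

namespace Vale.Agent.P084

open Set

lemma tpair_add (φ a b : ℕ+ →₀ ℝ) : tpair φ (a + b) = tpair φ a + tpair φ b := by
  unfold tpair
  exact Finsupp.sum_add_index' (fun i => mul_zero _) (fun i c d => mul_add _ _ _)

lemma tpair_smul (φ : ℕ+ →₀ ℝ) (c : ℝ) (a : ℕ+ →₀ ℝ) : tpair φ (c • a) = c * tpair φ a := by
  unfold tpair
  rw [Finsupp.sum_smul_index' (fun i => mul_zero _), Finsupp.mul_sum]
  congr 1
  ext i d
  simp only [smul_eq_mul]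
  ring

/-- TASK T2.  Existence of the (complete) Tsirelson space `T[θ, 𝓕]`.
Copy the construction of `exists_combSystem` in `Vale/Agent/P084/CombExist.lean`: let
`J : (ℕ+ →₀ ℝ) →ₗ[ℝ] lp (fun _ : {φ // TsiW 𝓕 θ φ} => ℝ) ∞`, `J a = (tpair φ a)_φ` (bounded by
`isLUB_tnorm_abs`), `X` the closure of the range of `J`, `e i = J (single i 1)`.  Then
`(a.sum fun i c => c • e i) = J a`, `‖J a‖ = tnorm 𝓕 θ a` (`lp.isLUB_norm`, `isLUB_tnorm_abs`,
`IsLUB.unique`), and the equation is `tnorm_eq`. -/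
theorem exists_tsirelsonSystem (𝓕 : Set (Finset ℕ+)) (θ : ℝ) (hθ0 : 0 ≤ θ) (hθ1 : θ ≤ 1) :
    ∃ (X : Type) (_ : NormedAddCommGroup X) (_ : NormedSpace ℝ X) (e : ℕ+ → X),
      CompleteSpace X ∧ IsTsirelsonSystem 𝓕 θ e := by
  classical
  let W : Type := {φ : ℕ+ →₀ ℝ // TsiW 𝓕 θ φ}
  have hne : Nonempty W := ⟨⟨Finsupp.single 1 1, TsiW.pos 1⟩⟩
  let Ef : W → Type := fun _ => ℝ
  let J0 : (ℕ+ →₀ ℝ) → ∀ φ : W, Ef φ := fun a φ => tpair φ.1 a
  have hmem : ∀ a : ℕ+ →₀ ℝ, Memℓp (J0 a) ⊤ := by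
    intro a
    apply memℓp_infty
    refine ⟨tnorm 𝓕 θ a, ?_⟩
    rintro r ⟨φ, rfl⟩
    exact (isLUB_tnorm_abs hθ0 hθ1 a).1 ⟨φ.1, φ.2, rfl⟩
  let J : (ℕ+ →₀ ℝ) →ₗ[ℝ] lp Ef ⊤ :=
    { toFun := fun a => ⟨J0 a, hmem a⟩
      map_add' := fun a b => by ext φ; exact tpair_add φ.1 a b
      map_smul' := fun c a => by ext φ; exact tpair_smul φ.1 c a }
  let XS : Submodule ℝ (lp Ef ⊤) := (LinearMap.range J).topologicalClosure
  have hJX : ∀ a, J a ∈ XS := fun a => Submodule.le_topologicalClosure _ ⟨a, rfl⟩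
  let e : ℕ+ → XS := fun i => ⟨J (Finsupp.single i 1), hJX _⟩
  have hsum : ∀ a : ℕ+ →₀ ℝ, ((a.sum fun i c => c • e i : XS) : lp Ef ⊤) = J a := by
    intro a
    have h1 : ((a.sum fun i c => c • e i : XS) : lp Ef ⊤)
        = a.sum fun i c => c • J (Finsupp.single i 1) := by
      have := map_finsuppSum XS.subtype a (fun i c => c • e i)
      simpa using this
    rw [h1]
    conv_rhs => rw [← Finsupp.sum_single a]
    rw [map_finsuppSum]
    congr 1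
    ext i c
    rw [← map_smul, Finsupp.smul_single_one]
  have hnorm : ∀ a : ℕ+ →₀ ℝ, ‖a.sum fun i c => c • e i‖ = tnorm 𝓕 θ a := by
    intro a
    have h1 : ‖a.sum fun i c => c • e i‖ = ‖J a‖ := by
      rw [← hsum a]; rfl
    rw [h1]
    have h2 := lp.isLUB_norm (J a)
    have h3 := isLUB_tnorm_abs (𝓕 := 𝓕) hθ0 hθ1 a
    have hset : {r : ℝ | ∃ φ, TsiW 𝓕 θ φ ∧ r = |tpair φ a|}
        = Set.range fun φ : W => ‖(J a : ∀ φ, Ef φ) φ‖ := by
      ext r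
      constructor
      · rintro ⟨φ, hφ, rfl⟩
        exact ⟨⟨φ, hφ⟩, rfl⟩
      · rintro ⟨φ, rfl⟩
        exact ⟨φ.1, φ.2, rfl⟩
    rw [hset] at h3
    exact IsLUB.unique h2 h3
  have hspan : ∀ a : ℕ+ →₀ ℝ,
      (a.sum fun i c => c • e i) ∈ (Submodule.span ℝ (Set.range e) : Submodule ℝ XS) := by
    intro a
    exact Submodule.sum_mem _
      (fun i _ => Submodule.smul_mem _ _ (Submodule.subset_span ⟨i, rfl⟩))
  refine ⟨↥XS, inferInstance, inferInstance, e, ?_, ?_, ?_⟩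
  · exact (Submodule.isClosed_topologicalClosure _).completeSpace_coe
  · rw [Subtype.dense_iff]
    intro x hx
    have hx' : x ∈ closure ((LinearMap.range J : Submodule ℝ (lp Ef ⊤)) : Set (lp Ef ⊤)) := by
      rw [← Submodule.topologicalClosure_coe]; exact hx
    refine closure_mono ?_ hx'
    rintro y ⟨a, rfl⟩
    exact ⟨a.sum fun i c => c • e i, hspan a, hsum a⟩
  · intro a
    simp only [hnorm]
    exact tnorm_eq hθ0 hθ1 a

end Vale.Agent.P084
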