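import Vale.Agent.P084.TsiDefs

namespace Vale.Agent.P084

open Set

/-- the pairing of a finitely supported functional `φ` with a finitely supported vector `a` -/
noncomputable def tpair (φ a : ℕ+ →₀ ℝ) : ℝ := a.sum fun i c => φ i * c

/-- the norming set of the Tsirelson space `T[θ, 𝓕]`: the smallest set of finitely supported
functionals containing `± e_i^*` and closed under the operation
`(φ_j) ↦ θ (E_1 φ_1 + ... + E_n φ_n)` for `𝓕`-admissible `E_1 < ... < E_n` -/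
inductive TsiW (𝓕 : Set (Finset ℕ+)) (θ : ℝ) : (ℕ+ →₀ ℝ) → Prop
  | pos (i : ℕ+) : TsiW 𝓕 θ (Finsupp.single i 1)
  | neg (i : ℕ+) : TsiW 𝓕 θ (Finsupp.single i (-1))
  | op {n : ℕ} (E : Fin n → Finset ℕ+) (hE : IsAdmissible 𝓕 E) (φ : Fin n → (ℕ+ →₀ ℝ))
      (hφ : ∀ j, TsiW 𝓕 θ (φ j)) : TsiW 𝓕 θ (θ • ∑ j, (φ j).filter (· ∈ E j))

variable {𝓕 : Set (Finset ℕ+)} {θ : ℝ}

lemma tpair_eq_sum (φ a : ℕ+ →₀ ℝ) : tpair φ a = ∑ i ∈ a.support, φ i * a i := rfl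

lemma tpair_filter (φ a : ℕ+ →₀ ℝ) (s : Finset ℕ+) :
    tpair φ (a.filter (· ∈ s)) = ∑ i ∈ a.support, φ i * (if i ∈ s then a i else 0) := by
  unfold tpair
  rw [Finsupp.sum_of_support_subset (s := a.support) _ (Finsupp.support_filter (· ∈ s) a ▸
    Finset.filter_subset _ _) _ (by intro i _; simp)]
  refine Finset.sum_congr rfl fun i _ => ?_
  rw [Finsupp.filter_apply]

lemma op_apply {n : ℕ} (E : Fin n → Finset ℕ+) (φ : Fin n → (ℕ+ →₀ ℝ)) (i : ℕ+) :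
    (θ • ∑ j, (φ j).filter (· ∈ E j)) i = θ * ∑ j, (if i ∈ E j then φ j i else 0) := by
  rw [Finsupp.smul_apply, Finsupp.finsetSum_apply, smul_eq_mul]
  congr 1

lemma tpair_op {n : ℕ} (E : Fin n → Finset ℕ+) (φ : Fin n → (ℕ+ →₀ ℝ)) (a : ℕ+ →₀ ℝ) :
    tpair (θ • ∑ j, (φ j).filter (· ∈ E j)) a
      = θ * ∑ j, tpair (φ j) (a.filter (· ∈ E j)) := by
  rw [tpair_eq_sum]
  simp_rw [tpair_filter, op_apply]
  rw [Finset.sum_comm, Finset.mul_sum]
  refine Finset.sum_congr rfl fun i _ => ?_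
  rw [mul_assoc, Finset.sum_mul]
  congr 1
  refine Finset.sum_congr rfl fun j _ => ?_
  split_ifs <;> simp

lemma tpair_single (i : ℕ+) (c : ℝ) (a : ℕ+ →₀ ℝ) : tpair (Finsupp.single i c) a = c * a i := by
  rw [tpair_eq_sum]
  by_cases hi : i ∈ a.support
  · rw [Finset.sum_eq_single i]
    · simp
    · intro k _ hk
      rw [Finsupp.single_apply, if_neg (Ne.symm hk), zero_mul]
    · intro h; exact absurd hi h
  · rw [Finsupp.notMem_support_iff.mp hi, mul_zero]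
    refine Finset.sum_eq_zero fun k hk => ?_
    have : i ≠ k := fun h => hi (h ▸ hk)
    rw [Finsupp.single_apply, if_neg this, zero_mul]

lemma tpair_neg (φ a : ℕ+ →₀ ℝ) : tpair (-φ) a = - tpair φ a := by
  simp [tpair_eq_sum, Finset.sum_neg_distrib]

/-- TASK T1a.  Induction; the sets `E j` of an admissible family are pairwise disjoint, so at most
one summand is nonzero at `i`. -/
lemma TsiW.abs_le_one (hθ0 : 0 ≤ θ) (hθ1 : θ ≤ 1) {φ : ℕ+ →₀ ℝ} (h : TsiW 𝓕 θ φ) (i : ℕ+) :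
    |φ i| ≤ 1 := by
  induction h generalizing i with
  | pos k =>
    rw [Finsupp.single_apply]; split_ifs <;> simp
  | neg k =>
    rw [Finsupp.single_apply]; split_ifs <;> simp
  | @op n E hE φ hφ ih =>
    rw [op_apply]
    have hsum : |∑ j, (if i ∈ E j then φ j i else 0)| ≤ 1 := by
      by_cases hex : ∃ j, i ∈ E j
      · obtain ⟨j0, hj0⟩ := hex
        rw [Finset.sum_eq_single j0]
        · rw [if_pos hj0]; exact ih j0 i
        · intro j _ hj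
          rw [if_neg]
          intro hij
          rcases lt_or_gt_of_ne hj with hlt | hlt
          · exact lt_irrefl _ (hE.1 j j0 hlt i hij i hj0)
          · exact lt_irrefl _ (hE.1 j0 j hlt i hj0 i hij)
        · intro h; exact absurd (Finset.mem_univ _) h
      · rw [Finset.sum_eq_zero (fun j _ => if_neg (fun hj => hex ⟨j, hj⟩))]
        simp
    rw [abs_mul, abs_of_nonneg hθ0]
    calc θ * |∑ j, (if i ∈ E j then φ j i else 0)| ≤ 1 * 1 :=
          mul_le_mul hθ1 hsum (abs_nonneg _) zero_le_one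
      _ = 1 := one_mul 1

/-- TASK T1b.  Induction. -/
lemma TsiW.neg_mem {φ : ℕ+ →₀ ℝ} (h : TsiW 𝓕 θ φ) : TsiW 𝓕 θ (-φ) := by
  induction h with
  | pos k => rw [← Finsupp.single_neg]; exact TsiW.neg k
  | neg k => rw [← Finsupp.single_neg, neg_neg]; exact TsiW.pos k
  | @op n E hE φ hφ ih =>
    have key : -(θ • ∑ j, (φ j).filter (· ∈ E j)) = θ • ∑ j, (-(φ j)).filter (· ∈ E j) := by
      ext i
      rw [Finsupp.neg_apply, op_apply, op_apply, ← mul_neg, ← Finset.sum_neg_distrib]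
      congr 1
      refine Finset.sum_congr rfl fun j _ => ?_
      split_ifs <;> simp
    rw [key]
    exact TsiW.op E hE (fun j => -(φ j)) ih

/-- the Tsirelson norm of a finitely supported vector -/
noncomputable def tnorm (𝓕 : Set (Finset ℕ+)) (θ : ℝ) (a : ℕ+ →₀ ℝ) : ℝ :=
  sSup {r : ℝ | ∃ φ, TsiW 𝓕 θ φ ∧ r = tpair φ a}

/-- TASK T1c.  The set is nonempty and bounded above by `∑ i ∈ a.support, |a i|`
(`TsiW.abs_le_one`). -/
lemma isLUB_tnorm (hθ0 : 0 ≤ θ) (hθ1 : θ ≤ 1) (a : ℕ+ →₀ ℝ) :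
    IsLUB {r : ℝ | ∃ φ, TsiW 𝓕 θ φ ∧ r = tpair φ a} (tnorm 𝓕 θ a) := by
  refine isLUB_csSup ⟨_, Finsupp.single 1 1, TsiW.pos 1, rfl⟩ ⟨∑ i ∈ a.support, |a i|, ?_⟩
  rintro r ⟨φ, hφ, rfl⟩
  rw [tpair_eq_sum]
  refine Finset.sum_le_sum fun i _ => ?_
  calc φ i * a i ≤ |φ i * a i| := le_abs_self _
    _ = |φ i| * |a i| := abs_mul _ _
    _ ≤ 1 * |a i| := mul_le_mul_of_nonneg_right (hφ.abs_le_one hθ0 hθ1 i) (abs_nonneg _)
    _ = |a i| := one_mul _

/-- TASK T1d.  By `TsiW.neg_mem` the set is symmetric. -/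
lemma isLUB_tnorm_abs (hθ0 : 0 ≤ θ) (hθ1 : θ ≤ 1) (a : ℕ+ →₀ ℝ) :
    IsLUB {r : ℝ | ∃ φ, TsiW 𝓕 θ φ ∧ r = |tpair φ a|} (tnorm 𝓕 θ a) := by
  have h := isLUB_tnorm (𝓕 := 𝓕) hθ0 hθ1 a
  constructor
  · rintro r ⟨φ, hφ, rfl⟩
    refine abs_le'.mpr ⟨h.1 ⟨φ, hφ, rfl⟩, h.1 ⟨-φ, hφ.neg_mem, ?_⟩⟩
    rw [tpair_neg]
  · intro b hb
    refine h.2 ?_
    rintro r ⟨φ, hφ, rfl⟩
    exact (le_abs_self _).trans (hb ⟨φ, hφ, rfl⟩)

/-- TASK T1e.  The implicit Tsirelson equation.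
Upper bound: `|a i| = tpair (± e_i) a`; for admissible `E` and `ε > 0` choose `φ j` in the norming
set with `tpair (φ j) (E_j a) ≥ tnorm (E_j a) - ε`; then `θ ∑ E_j φ_j` is in the norming set and
`tpair (θ ∑ E_j φ_j) a = θ ∑ tpair (φ j) (E_j a)`.
Least: case analysis on `φ` in the norming set (no induction needed). -/
theorem tnorm_eq (hθ0 : 0 ≤ θ) (hθ1 : θ ≤ 1) (a : ℕ+ →₀ ℝ) :
    IsLUB ({r : ℝ | ∃ i, r = |a i|} ∪
      {r : ℝ | ∃ (n : ℕ) (E : Fin n → Finset ℕ+), IsAdmissible 𝓕 E ∧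
        r = θ * ∑ j, tnorm 𝓕 θ (a.filter (· ∈ E j))}) (tnorm 𝓕 θ a) := by
  have h := isLUB_tnorm (𝓕 := 𝓕) hθ0 hθ1 a
  have habs := isLUB_tnorm_abs (𝓕 := 𝓕) hθ0 hθ1 a
  constructor
  · rintro r (⟨i, rfl⟩ | ⟨n, E, hE, rfl⟩)
    · refine habs.1 ⟨Finsupp.single i 1, TsiW.pos i, ?_⟩
      rw [tpair_single, one_mul]
    · refine le_of_forall_pos_le_add fun ε hε => ?_
      set δ : ℝ := ε / (n + 1) with hδ
      have hn : (0 : ℝ) < n + 1 := by positivity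
      have hδ0 : 0 < δ := div_pos hε hn
      have hch : ∀ j, ∃ φ, TsiW 𝓕 θ φ ∧
          tnorm 𝓕 θ (a.filter (· ∈ E j)) - δ < tpair φ (a.filter (· ∈ E j)) := by
        intro j
        obtain ⟨r, ⟨φ, hφ, rfl⟩, hr, _⟩ :=
          (isLUB_tnorm (𝓕 := 𝓕) hθ0 hθ1 (a.filter (· ∈ E j))).exists_between
            (sub_lt_self _ hδ0)
        exact ⟨φ, hφ, hr⟩
      choose φ hφ hlt using hch
      have h1 : θ * ∑ j, tpair (φ j) (a.filter (· ∈ E j)) ≤ tnorm 𝓕 θ a :=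
        h.1 ⟨_, TsiW.op E hE φ hφ, (tpair_op E φ a).symm⟩
      have h2 : ∑ j, tnorm 𝓕 θ (a.filter (· ∈ E j))
          ≤ ∑ j, tpair (φ j) (a.filter (· ∈ E j)) + n * δ := by
        have : ∑ j, tnorm 𝓕 θ (a.filter (· ∈ E j))
            ≤ ∑ j, (tpair (φ j) (a.filter (· ∈ E j)) + δ) :=
          Finset.sum_le_sum fun j _ => by linarith [hlt j]
        rw [Finset.sum_add_distrib] at this
        simpa using this
      have h3 : (n : ℝ) * δ ≤ ε := by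
        rw [hδ, mul_div_assoc', div_le_iff₀ hn]
        nlinarith
      have h4 : θ * ((n : ℝ) * δ) ≤ ε := by
        have h5 : 0 ≤ (n : ℝ) * δ := by positivity
        nlinarith
      calc θ * ∑ j, tnorm 𝓕 θ (a.filter (· ∈ E j))
          ≤ θ * (∑ j, tpair (φ j) (a.filter (· ∈ E j)) + n * δ) :=
            mul_le_mul_of_nonneg_left h2 hθ0
        _ = θ * ∑ j, tpair (φ j) (a.filter (· ∈ E j)) + θ * (n * δ) := mul_add _ _ _
        _ ≤ tnorm 𝓕 θ a + ε := add_le_add h1 h4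
  · intro b hb
    refine h.2 ?_
    rintro r ⟨φ, hφ, rfl⟩
    cases hφ with
    | pos i =>
      rw [tpair_single, one_mul]
      exact (le_abs_self _).trans (hb (Or.inl ⟨i, rfl⟩))
    | neg i =>
      rw [tpair_single, neg_one_mul]
      exact (neg_le_abs _).trans (hb (Or.inl ⟨i, rfl⟩))
    | @op n E hE φ hφ =>
      rw [tpair_op]
      refine le_trans ?_ (hb (Or.inr ⟨n, E, hE, rfl⟩))
      refine mul_le_mul_of_nonneg_left (Finset.sum_le_sum fun j _ => ?_) hθ0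
      exact (isLUB_tnorm (𝓕 := 𝓕) hθ0 hθ1 (a.filter (· ∈ E j))).1 ⟨φ j, hφ j, rfl⟩

end Vale.Agent.P084
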